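import Crest.Agent.R30.Stab
set_option autoImplicit false

noncomputable section

namespace Crest.Agent.R30

open Finset Crest.CombinatoricsR.TriangleRemoval

variable {n : ℕ}

theorem sum_rate {D : ℝ} {N : ℕ} (hD : 0 < D) (hN : 0 < N) {t : ℕ} (ht : t ≤ N) :
    ∑ s ∈ range t, D / (N + 2 * D * s) ≤ D / N + Real.log (1 + 2 * D) / 2 := by
  have hN' : (0 : ℝ) < N := by exact_mod_cast hN
  have key : ∀ t : ℕ, ∑ s ∈ range (t + 1), D / (N + 2 * D * s) ≤ D / N + Real.log (1 + 2 * D * t / N) / 2 := by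
    intro t
    induction t with
    | zero => simp
    | succ t ih =>
      rw [sum_range_succ]
      have ht0 : (0 : ℝ) ≤ t := Nat.cast_nonneg t
      have h1 : (0 : ℝ) < 1 + 2 * D * t / N := by positivity
      have h2 : (0 : ℝ) < 1 + 2 * D * ((t + 1 : ℕ) : ℝ) / N := by positivity
      have h3 := Real.one_sub_inv_le_log_of_pos (div_pos h2 h1)
      rw [Real.log_div h2.ne' h1.ne'] at h3
      have h4 : 1 - ((1 + 2 * D * ((t + 1 : ℕ) : ℝ) / N) / (1 + 2 * D * t / N))⁻¹ =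
          2 * (D / (N + 2 * D * ((t + 1 : ℕ) : ℝ))) := by
        push_cast
        field_simp
        ring
      linarith
  have h := key N
  rw [mul_div_assoc, div_self hN'.ne', mul_one] at h
  refine le_trans (sum_le_sum_of_subset_of_nonneg (range_subset_range.2 (by omega)) ?_) h
  intro i _ _
  positivity

theorem bp_e {s P ζ ζ2 : ℝ} (hζ' : ζ ≤ 1 / 100) (hζ2 : ζ2 ≤ 1 / 100) (hs : |s| ≤ 2 * ζ2) (hP : 1 - 3 * ζ ≤ P)
    (hP1 : P ≤ 1) : |Real.exp (-s) / P - (1 - s)| ≤ 4 * ζ2 ^ 2 + 4 * ζ ∧ Real.exp (-s) / P ≤ 2 := by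
  have hP0 : 0 < P := by linarith
  have h1 : |Real.exp (-s) - 1 - (-s)| ≤ (-s) ^ 2 :=
    Real.abs_exp_sub_one_sub_id_le (by rw [abs_neg]; linarith)
  have hs' := abs_le.1 hs
  have h2 : s ^ 2 ≤ (2 * ζ2) ^ 2 := sq_le_sq' hs'.1 hs'.2
  have h3 := abs_le.1 h1
  have h0 : 0 ≤ ζ2 := by linarith [abs_nonneg s]
  have hζ0 : 0 ≤ ζ := by linarith
  have h4 : Real.exp (-s) ≤ 11 / 10 := by nlinarith
  have h5 : Real.exp (-s) ≤ Real.exp (-s) / P := by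
    rw [le_div_iff₀ hP0]
    nlinarith [Real.exp_pos (-s)]
  have h6 : Real.exp (-s) / P ≤ Real.exp (-s) + 4 * ζ := by
    rw [div_le_iff₀ hP0]
    nlinarith [Real.exp_pos (-s)]
  refine ⟨abs_le.2 ⟨?_, ?_⟩, ?_⟩ <;> nlinarith

theorem bp_log1 {a : ℝ} (h0 : 0 ≤ a) (h1 : a ≤ 1 / 2) : |-Real.log (1 - a) - a| ≤ 2 * a ^ 2 := by
  have hp : 0 < 1 - a := by linarith
  have h2 := Real.log_le_sub_one_of_pos hp
  have h3 := Real.one_sub_inv_le_log_of_pos hp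
  have h4 : (1 - a)⁻¹ ≤ 1 + a + 2 * a ^ 2 := by
    rw [inv_eq_one_div, div_le_iff₀ hp]
    nlinarith [mul_nonneg (sq_nonneg a) (sub_nonneg.2 h1)]
  rw [abs_le]
  constructor <;> nlinarith

theorem bp_log2 {r : ℝ} (h0 : 0 ≤ r) : |Real.log (1 + 2 * r) / 2 - r| ≤ 2 * r ^ 2 := by
  have hp : 0 < 1 + 2 * r := by linarith
  have h2 := Real.log_le_sub_one_of_pos hp
  have h3 := Real.one_sub_inv_le_log_of_pos hp
  have h4 : (1 + 2 * r)⁻¹ ≤ 1 - 2 * r + 4 * r ^ 2 := by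
    rw [inv_eq_one_div, div_le_iff₀ hp]
    nlinarith [pow_nonneg h0 3]
  rw [abs_le]
  constructor <;> nlinarith

/-- the invariant of the recursion -/
def BPInv (E : Ed n) (N : ℕ) (ζ ζ2 : ℝ) (W : ℕ → Fin n → Fin n → ℝ) (t : ℕ) : Prop :=
  ∀ x y, adj E x y → 0 < qf E N t x y ∧ |W t x y| ≤ ζ2 ∧ ∀ w ∈ cn E x y, 0 ≤ Yb E N t x y w ∧ Yb E N t x y w ≤ ζ

theorem bp_incr {E : Ed n} {N : ℕ} {D ζ ζ2 : ℝ} {W : ℕ → Fin n → Fin n → ℝ} {t : ℕ} (hD : 0 < D) (hN : 0 < N)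
    (hζ' : ζ ≤ 1 / 100) (hζ2 : ζ2 ≤ 1 / 100)
    (hW : ∀ u v, W t u v = -(Real.log (qf E N t u v) + Real.log (1 + 2 * D * t / N) / 2))
    (hI : BPInv E N ζ ζ2 W t) {x y w : Fin n} (ha : adj E x y) (hw : w ∈ cn E x y) :
    0 ≤ qc E (Yb E N t) x w y * qc E (Yb E N t) y w x / N ∧
    qc E (Yb E N t) x w y * qc E (Yb E N t) y w x / N ≤ 2 * (D / (N + 2 * D * t) / D) ∧
    ∃ b, qc E (Yb E N t) x w y * qc E (Yb E N t) y w x / N =
        (1 - Yb E N t x y w) * (D / (N + 2 * D * t) / D * b) ∧ 0 ≤ b ∧ b ≤ 2 ∧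
        |b - (1 - (W t x w + W t y w))| ≤ 4 * ζ2 ^ 2 + 4 * ζ := by
  have hN' : (0 : ℝ) < N := by exact_mod_cast hN
  obtain ⟨hxw, hyw⟩ := mem_cn.1 hw
  have hy : y ∈ cn E x w := mem_cn.2 ⟨ha, adj_symm hyw⟩
  have hx : x ∈ cn E y w := mem_cn.2 ⟨adj_symm ha, adj_symm hxw⟩
  obtain ⟨p1, w1, y1⟩ := hI x w hxw
  obtain ⟨p2, w2, y2⟩ := hI y w hyw
  obtain ⟨c1, c2⟩ := y1 y hy
  obtain ⟨d1, d2⟩ := y2 x hx
  obtain ⟨e1, e2⟩ := (hI x y ha).2.2 w hw
  have q1 : qf E N t x w = (1 - Yb E N t x w y) * qc E (Yb E N t) x w y :=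
    (mul_prod_erase (cn E x w) (fun z => 1 - Yb E N t x w z) hy).symm
  have q2 : qf E N t y w = (1 - Yb E N t y w x) * qc E (Yb E N t) y w x :=
    (mul_prod_erase (cn E y w) (fun z => 1 - Yb E N t y w z) hx).symm
  have hA : (0 : ℝ) < 1 + 2 * D * t / N := by positivity
  have hexp : Real.exp (-(W t x w + W t y w)) = qf E N t x w * qf E N t y w * (1 + 2 * D * t / N) := by
    rw [hW, hW, ← Real.exp_log (x := qf E N t x w * qf E N t y w * (1 + 2 * D * t / N)) (by positivity),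
      Real.log_mul (by positivity) hA.ne', Real.log_mul p1.ne' p2.ne']
    congr 1
    ring
  obtain ⟨Y0, hY0⟩ : ∃ Y0, Y0 = Yb E N t x y w := ⟨_, rfl⟩
  obtain ⟨Y1, hY1⟩ : ∃ Y1, Y1 = Yb E N t x w y := ⟨_, rfl⟩
  obtain ⟨Y2, hY2⟩ : ∃ Y2, Y2 = Yb E N t y w x := ⟨_, rfl⟩
  obtain ⟨Q1, hQ1⟩ : ∃ Q1, Q1 = qc E (Yb E N t) x w y := ⟨_, rfl⟩
  obtain ⟨Q2, hQ2⟩ : ∃ Q2, Q2 = qc E (Yb E N t) y w x := ⟨_, rfl⟩
  rw [q1, q2] at hexp
  rw [← hY0] at e1 e2 ⊢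
  rw [← hY1] at c1 c2 hexp
  rw [← hY2] at d1 d2 hexp
  rw [← hQ1, ← hQ2] at hexp ⊢
  have f0 : 0 < 1 - Y0 := by linarith
  have f1 : 0 < 1 - Y1 := by linarith
  have f2 : 0 < 1 - Y2 := by linarith
  have g1 : (1 - Y1) * (1 - Y2) ≤ 1 := by nlinarith
  have g2 : 1 - 2 * ζ ≤ (1 - Y1) * (1 - Y2) := by nlinarith
  have g3 : (1 - Y0) * ((1 - Y1) * (1 - Y2)) ≤ 1 := by nlinarith
  have g4 : 1 - 3 * ζ ≤ (1 - Y0) * ((1 - Y1) * (1 - Y2)) := by nlinarith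
  have hs : |W t x w + W t y w| ≤ 2 * ζ2 := by linarith [abs_add_le (W t x w) (W t y w)]
  obtain ⟨k1, k2⟩ := bp_e hζ' hζ2 hs g4 g3
  obtain ⟨b, hb⟩ : ∃ b, b = Real.exp (-(W t x w + W t y w)) / ((1 - Y0) * ((1 - Y1) * (1 - Y2))) := ⟨_, rfl⟩
  have hb0 : 0 ≤ b := by rw [hb]; positivity
  have key : Q1 * Q2 / N = (1 - Y0) * (D / (N + 2 * D * t) / D * b) := by
    rw [hb, hexp]
    field_simp
  rw [← hb] at k1 k2
  have hρ : 0 ≤ D / (N + 2 * D * t) / D := by positivity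
  refine ⟨by rw [key]; positivity, ?_, b, key, hb0, k2, k1⟩
  rw [key]
  have m1 := mul_le_mul_of_nonneg_left k2 hρ
  have m2 := mul_nonneg e1 (mul_nonneg hρ hb0)
  nlinarith

theorem bp_step {E : Ed n} {N : ℕ} {D ζ ζ2 : ℝ} {W : ℕ → Fin n → Fin n → ℝ} {t : ℕ} (hD : 200 ≤ D) (hN : 0 < N)
    (hζ : 0 < ζ) (hζ' : ζ ≤ 1 / 100) (hζ2 : ζ2 ≤ 1 / 100)
    (hW : ∀ u v, W t u v = -(Real.log (qf E N t u v) + Real.log (1 + 2 * D * t / N) / 2))
    (hW' : ∀ u v, W (t + 1) u v =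
      -(Real.log (qf E N (t + 1) u v) + Real.log (1 + 2 * D * ((t + 1 : ℕ) : ℝ) / N) / 2))
    (hI : BPInv E N ζ ζ2 W t) {x y : Fin n} (ha : adj E x y) (hcod : |((cn E x y).card : ℝ) / D - 1| ≤ ζ)
    (hr : D / (N + 2 * D * t) ≤ ζ) :
    |W (t + 1) x y - W t x y + D / (N + 2 * D * t) * Lop E D (W t) x y| ≤
      D / (N + 2 * D * t) * (100 * (ζ + ζ2 ^ 2)) := by
  have hD0 : 0 < D := by linarith
  have hN' : (0 : ℝ) < N := by exact_mod_cast hN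
  have hb := fun w (hw : w ∈ cn E x y) => (bp_incr hD0 hN hζ' hζ2 hW hI ha hw).2.2
  choose! b hb1 hb2 hb3 hb4 using hb
  obtain ⟨r, hre⟩ : ∃ r, r = D / (N + 2 * D * t) := ⟨_, rfl⟩
  have hr0 : 0 ≤ r := by rw [hre]; positivity
  have hA : (0 : ℝ) < 1 + 2 * D * t / N := by positivity
  have hA' : 1 + 2 * D * ((t + 1 : ℕ) : ℝ) / N = (1 + 2 * D * t / N) * (1 + 2 * r) := by
    rw [hre]
    push_cast
    field_simp
    ring
  rw [← hre] at hb1 hr ⊢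
  have hρ0 : 0 ≤ r / D := by positivity
  have hρ1 : r / D ≤ ζ / 200 := by
    rw [div_le_div_iff₀ hD0 (by norm_num)]
    nlinarith
  have ha0 : ∀ w ∈ cn E x y, 0 ≤ r / D * b w := fun w hw => mul_nonneg hρ0 (hb2 w hw)
  have ha1 : ∀ w ∈ cn E x y, r / D * b w ≤ 2 * (r / D) := fun w hw => by
    have := mul_le_mul_of_nonneg_left (hb3 w hw) hρ0
    linarith
  have hq : qf E N (t + 1) x y = qf E N t x y * ∏ w ∈ cn E x y, (1 - r / D * b w) := by
    unfold qf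
    rw [← prod_mul_distrib]
    refine prod_congr rfl fun w hw => ?_
    simp only [Yb]
    rw [hb1 w hw]
    ring
  have hpos : ∀ w ∈ cn E x y, 0 < 1 - r / D * b w := fun w hw => by linarith [ha1 w hw]
  have hlog : Real.log (qf E N (t + 1) x y) =
      Real.log (qf E N t x y) + ∑ w ∈ cn E x y, Real.log (1 - r / D * b w) := by
    rw [hq, Real.log_mul (hI x y ha).1.ne' (prod_pos hpos).ne', Real.log_prod fun w hw => (hpos w hw).ne']
  have e : W (t + 1) x y - W t x y + r * Lop E D (W t) x y =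
      ∑ w ∈ cn E x y, ((-Real.log (1 - r / D * b w) - r / D * b w) + r / D * (b w - (1 - (W t x w + W t y w)))) +
        r * (((cn E x y).card : ℝ) / D - 1) - (Real.log (1 + 2 * r) / 2 - r) := by
    rw [hW', hW x y, hlog, hA', Real.log_mul hA.ne' (by positivity)]
    unfold Lop
    have e1 : ∑ w ∈ cn E x y, ((-Real.log (1 - r / D * b w) - r / D * b w) +
        r / D * (b w - (1 - (W t x w + W t y w)))) =
        -∑ w ∈ cn E x y, Real.log (1 - r / D * b w) - (cn E x y).card * (r / D) +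
          r / D * ∑ w ∈ cn E x y, (W t x w + W t y w) := by
      rw [mul_sum, ← nsmul_eq_mul, ← sum_const, ← sum_neg_distrib, ← sum_sub_distrib, ← sum_add_distrib]
      exact sum_congr rfl fun w _ => by ring
    rw [e1]
    ring
  have h1 : |∑ w ∈ cn E x y, ((-Real.log (1 - r / D * b w) - r / D * b w) +
      r / D * (b w - (1 - (W t x w + W t y w))))| ≤ (cn E x y).card * (r / D * (4 * ζ2 ^ 2 + 5 * ζ)) := by
    refine (abs_sum_le_sum_abs _ _).trans ?_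
    rw [← nsmul_eq_mul, ← sum_const]
    refine sum_le_sum fun w hw => (abs_add_le _ _).trans ?_
    have k1 := bp_log1 (ha0 w hw) (by linarith [ha1 w hw])
    have k2 : |r / D * (b w - (1 - (W t x w + W t y w)))| ≤ r / D * (4 * ζ2 ^ 2 + 4 * ζ) := by
      rw [abs_mul, abs_of_nonneg hρ0]
      exact mul_le_mul_of_nonneg_left (hb4 w hw) hρ0
    have k3 : (r / D * b w) ^ 2 ≤ (2 * (r / D)) ^ 2 := pow_le_pow_left₀ (ha0 w hw) (ha1 w hw) 2
    have k4 := mul_le_mul_of_nonneg_left hρ1 hρ0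
    have k5 := mul_nonneg hρ0 hζ.le
    nlinarith
  have hc := abs_le.1 hcod
  have h2 : (cn E x y).card * (r / D * (4 * ζ2 ^ 2 + 5 * ζ)) ≤ 2 * (r * (4 * ζ2 ^ 2 + 5 * ζ)) := by
    have k1 : ((cn E x y).card : ℝ) / D ≤ 2 := by linarith
    have k2 := mul_le_mul_of_nonneg_right k1 (by positivity : 0 ≤ r * (4 * ζ2 ^ 2 + 5 * ζ))
    refine le_trans (le_of_eq ?_) k2
    ring
  have h3 : |r * (((cn E x y).card : ℝ) / D - 1)| ≤ r * ζ := by
    rw [abs_mul, abs_of_nonneg hr0]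
    exact mul_le_mul_of_nonneg_left hcod hr0
  have h4 := bp_log2 hr0
  have h5 : r ^ 2 ≤ r * ζ := by nlinarith
  rw [e]
  have h6 := abs_le.1 h1
  have h7 := abs_le.1 h3
  have h8 := abs_le.1 h4
  have h9 := mul_nonneg hr0 hζ.le
  have h10 := mul_nonneg hr0 (sq_nonneg ζ2)
  rw [abs_le]
  constructor <;> nlinarith

/-- The recursion stays close to `(1 + 2Dt/N)^(-1/2)`. Strong induction on `t`. Put
`W t x y = - log (qf t x y) - log (1 + 2Dt/N) / 2`, `r t = D / (N + 2Dt) ≤ ζ`. For `w ∈ cn x y`, `qc (Yb t) x w y = qf t x w / (1 - Yb t x w y)`, and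
`1 - Yb (t+1) x y w = (1 - Yb t x y w)(1 - a_w)` with `a_w = (r/D) exp (-W x w - W y w) / ((1-Y)(1-Y')(1-Y''))
= (r/D)(1 - W x w - W y w + e_w)`, `|e_w| ≤ 4 ζ2² + 4 ζ`; `-log (1-a) ∈ [a, a + 2a²]`, `log (1+2r)/2 ∈ [r - r², r]`, `D ≥ 200`. Hence
`|W (t+1) - W t + r t * Lop E D (W t)| ≤ 100 (ζ + ζ2²) r t`; apply `stab` with constant graph, `σ = 4Λ`, `N` the partial sums of
these errors (`sum_rate`). `Yb (t+1) ≤ (2/D) ∑ r ≤ 2Λ/D ≤ ζ`. -/
theorem bp_bounds (E : Ed n) (N k : ℕ) (D ζ ζ2 η Λ : ℝ) (hD : 0 < D) (hN : 0 < N) (hζ : 0 < ζ)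
    (hζ' : ζ ≤ 1 / 100) (hζ2 : ζ2 ≤ 1 / 100) (hη : 0 ≤ η) (hΛ : 1 ≤ Λ)
    (hcod : ∀ u v, adj E u v → |((cn E u v).card : ℝ) / D - 1| ≤ ζ) (hspec : Spec E D η)
    (hgap : (2 * (4 * Λ + 2 * (4 * Λ) ^ 2) * η) ^ k * n ≤ 1 / 2) (hDN : D / N ≤ ζ)
    (hΛ2 : D / N + Real.log (1 + 2 * D) / 2 ≤ Λ) (hy : 2 * Λ / D ≤ ζ)
    (hamp : Amp (4 * Λ) k * (Λ * (100 * (ζ + ζ2 ^ 2))) ≤ ζ2) (t : ℕ) (ht : t ≤ N) (x y : Fin n) (ha : adj E x y) :
    0 < qf E N t x y ∧ |Real.log (qf E N t x y) + Real.log (1 + 2 * D * t / N) / 2| ≤ ζ2 ∧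
      ∀ w ∈ cn E x y, 0 ≤ Yb E N t x y w ∧ Yb E N t x y w ≤ ζ := by
  have hN' : (0 : ℝ) < N := by exact_mod_cast hN
  have hD200 : 200 ≤ D := by
    rw [div_le_iff₀ hD] at hy
    nlinarith
  obtain ⟨r, hr⟩ : ∃ r : ℕ → ℝ, ∀ s, r s = D / (N + 2 * D * s) := ⟨_, fun _ => rfl⟩
  have hr0 : ∀ s, 0 ≤ r s := fun s => by rw [hr]; positivity
  have hr1 : ∀ s, r s ≤ ζ := fun s => by
    rw [hr]
    refine le_trans (div_le_div_of_nonneg_left hD.le hN' ?_) hDN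
    have : (0 : ℝ) ≤ 2 * D * s := by positivity
    linarith
  have hrs : ∀ s, s ≤ N → ∑ i ∈ range s, r i ≤ Λ := fun s hs => by
    simp only [hr]
    exact (sum_rate hD hN hs).trans hΛ2
  obtain ⟨W, hW⟩ : ∃ W : ℕ → Fin n → Fin n → ℝ, ∀ s u v,
      W s u v = -(Real.log (qf E N s u v) + Real.log (1 + 2 * D * s / N) / 2) := ⟨_, fun _ _ _ => rfl⟩
  suffices H : ∀ t, t ≤ N → BPInv E N ζ ζ2 W t by
    obtain ⟨h1, h2, h3⟩ := H t ht x y ha
    rw [hW, abs_neg] at h2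
    exact ⟨h1, h2, h3⟩
  intro t
  induction t using Nat.strong_induction_on with
  | _ t ih =>
    intro ht
    have ih' : ∀ s, s < t → BPInv E N ζ ζ2 W s := fun s hs => ih s hs (by omega)
    have hY : ∀ s, s ≤ t → ∀ u v, adj E u v → ∀ w ∈ cn E u v,
        0 ≤ Yb E N s u v w ∧ Yb E N s u v w ≤ 2 / D * ∑ i ∈ range s, r i := by
      intro s
      induction s with
      | zero => intro _ u v _ w _; simp [Yb]
      | succ s ihs =>
        intro hs u v huv w hw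
        obtain ⟨a1, a2⟩ := ihs (by omega) u v huv w hw
        obtain ⟨b1, b2, -⟩ := bp_incr hD hN hζ' hζ2 (hW s) (ih' s hs) huv hw
        rw [← hr] at b2
        rw [sum_range_succ, mul_add]
        simp only [Yb]
        constructor
        · linarith
        · have : 2 / D * r s = 2 * (r s / D) := by ring
          linarith
    have hY' : ∀ u v, adj E u v → ∀ w ∈ cn E u v, 0 ≤ Yb E N t u v w ∧ Yb E N t u v w ≤ ζ := by
      intro u v huv w hw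
      obtain ⟨a1, a2⟩ := hY t le_rfl u v huv w hw
      refine ⟨a1, a2.trans (le_trans ?_ hy)⟩
      have := mul_le_mul_of_nonneg_left (hrs t ht) (by positivity : 0 ≤ 2 / D)
      linarith [show 2 / D * Λ = 2 * Λ / D by ring]
    intro u v huv
    refine ⟨prod_pos fun w hw => by linarith [(hY' u v huv w hw).2], ?_, hY' u v huv⟩
    refine le_trans (stab (fun _ => E) (fun _ => D) r W
      (fun j u v => ∑ i ∈ range j, (W (i + 1) u v - W i u v + r i * Lop E D (W i) u v)) t k (4 * Λ) η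
      (Λ * (100 * (ζ + ζ2 ^ 2))) (fun _ _ => Subset.refl _) (fun _ _ => hD)
      (fun j _ => ⟨hr0 j, by linarith [hr1 j]⟩) (by linarith [hrs t ht]) ?_ (fun _ _ => hspec) hη ?_ ?_ ?_
      hgap u v huv) hamp
    · intro j _ u v huv
      have := (abs_le.1 (hcod u v huv)).2
      have h2 : ((cn E u v).card : ℝ) / D ≤ 2 := by linarith
      rwa [div_le_iff₀ hD] at h2
    · intro u v _
      simp [hW, qf, Yb]
    · intro j _ u v _
      rw [sum_range_succ]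
      ring
    · intro j hj u v huv
      refine (abs_sum_le_sum_abs _ _).trans ?_
      have h1 : ∑ i ∈ range j, |W (i + 1) u v - W i u v + r i * Lop E D (W i) u v| ≤
          ∑ i ∈ range j, r i * (100 * (ζ + ζ2 ^ 2)) := by
        refine sum_le_sum fun i hi => ?_
        have hi' : i < t := lt_of_lt_of_le (mem_range.1 hi) hj
        have := bp_step hD200 hN hζ hζ' hζ2 (hW i) (hW (i + 1)) (ih' i hi') huv (hcod u v huv)
          (by rw [← hr]; exact hr1 i)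
        rwa [← hr] at this
      refine h1.trans ?_
      rw [← sum_mul]
      exact mul_le_mul_of_nonneg_right (hrs j (hj.trans ht)) (by positivity)

/-- dropping at most three factors: `exp ζ2 / (1-ζ)^3 ≤ √2` -/
theorem cav_le (E : Ed n) (N t : ℕ) (A ζ ζ2 : ℝ) (hA : 0 < A) (hζ' : ζ ≤ 1 / 100) (hζ2 : ζ2 ≤ 1 / 100) (x y : Fin n)
    (h0 : 0 < qf E N t x y) (h1 : |Real.log (qf E N t x y) + Real.log A / 2| ≤ ζ2)
    (h2 : ∀ w ∈ cn E x y, 0 ≤ Yb E N t x y w ∧ Yb E N t x y w ≤ ζ) (s : Finset (Fin n)) (hs : s ⊆ cn E x y)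
    (hc : (cn E x y).card ≤ s.card + 3) : ∏ w ∈ s, (1 - Yb E N t x y w) ≤ Real.sqrt (2 / A) := by
  have hP : ∀ w ∈ cn E x y, (99 / 100 : ℝ) ≤ 1 - Yb E N t x y w := fun w hw => by linarith [(h2 w hw).2]
  have e : qf E N t x y = (∏ w ∈ cn E x y \ s, (1 - Yb E N t x y w)) * ∏ w ∈ s, (1 - Yb E N t x y w) :=
    (prod_sdiff hs).symm
  have hX : 0 ≤ ∏ w ∈ s, (1 - Yb E N t x y w) := prod_nonneg fun w hw => by linarith [hP w (hs hw)]
  have hcard : (cn E x y \ s).card ≤ 3 := by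
    rw [card_sdiff_of_subset hs]
    omega
  have hR : (99 / 100 : ℝ) ^ 3 ≤ ∏ w ∈ cn E x y \ s, (1 - Yb E N t x y w) := by
    refine le_trans (pow_le_pow_of_le_one (by norm_num) (by norm_num) hcard) ?_
    rw [← prod_const]
    exact prod_le_prod (fun _ _ => by norm_num) fun w hw => hP w (sdiff_subset hw)
  have hq : qf E N t x y ^ 2 * A ≤ Real.exp (2 / 100) := by
    have h3 := (abs_le.1 h1).2
    have h4 : Real.log (qf E N t x y ^ 2 * A) ≤ 2 / 100 := by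
      rw [Real.log_mul (by positivity) hA.ne', Real.log_pow]
      push_cast
      linarith
    rwa [Real.log_le_iff_le_exp (by positivity)] at h4
  have he : Real.exp (2 / 100) ≤ 50 / 49 := by
    have := Real.exp_bound_div_one_sub_of_interval (x := 2 / 100) (by norm_num) (by norm_num)
    norm_num at this ⊢
    exact this
  obtain ⟨X, hXe⟩ : ∃ X, X = ∏ w ∈ s, (1 - Yb E N t x y w) := ⟨_, rfl⟩
  obtain ⟨R, hRe⟩ : ∃ R, R = ∏ w ∈ cn E x y \ s, (1 - Yb E N t x y w) := ⟨_, rfl⟩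
  rw [← hXe] at hX e ⊢
  rw [← hRe] at hR e
  rw [e] at hq
  refine Real.le_sqrt_of_sq_le ?_
  rw [le_div_iff₀ hA]
  have h5 : (9 / 10 : ℝ) ≤ R := le_trans (by norm_num) hR
  have h6 : (81 / 100 : ℝ) ≤ R ^ 2 := by nlinarith
  have h7 : 0 ≤ X ^ 2 * A := by positivity
  have h8 := mul_le_mul_of_nonneg_right h6 h7
  have h9 : (R * X) ^ 2 * A = R ^ 2 * (X ^ 2 * A) := by ring
  linarith

end Crest.Agent.R30
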