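import Crest.Agent.R30.Defs
set_option autoImplicit false

noncomputable section

namespace Crest.Agent.R30

open Finset Crest.CombinatoricsR.TriangleRemoval

variable {n : ℕ}

theorem Kr_add (φ ψ : Hs n → ℝ) : Kr (fun l => φ l + ψ l) = fun l => Kr φ l + Kr ψ l := by
  funext l
  unfold Kr
  split_ifs
  · rfl
  · rw [Finset.sum_add_distrib, mul_add]

theorem Kr_eq_mul {φ ψ : Hs n → ℝ} {l : Hs n} {c : ℝ} (h : ∀ t, φ (t :: l) = c * ψ (t :: l)) :
    Kr φ l = c * Kr ψ l := by
  unfold Kr
  split_ifs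
  · exact h _
  · simp only [h]
    rw [← Finset.mul_sum, mul_left_comm]

theorem Kr_eq_const {φ : Hs n → ℝ} {l : Hs n} {c : ℝ} (h : ∀ t, φ (t :: l) = c) : Kr φ l = c := by
  unfold Kr
  split_ifs with h0
  · exact h _
  · simp only [h]
    have : Qn (gr l) ≠ 0 := by unfold Qn; exact_mod_cast h0
    rw [Finset.sum_const, nsmul_eq_mul, ← mul_assoc]
    change (Qn (gr l))⁻¹ * Qn (gr l) * c = c
    rw [inv_mul_cancel₀ this, one_mul]

theorem Kr_mono {φ ψ : Hs n → ℝ} {l : Hs n} (hl : Reach l)
    (h : ∀ t, Reach (t :: l) → φ (t :: l) ≤ ψ (t :: l)) : Kr φ l ≤ Kr ψ l := by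
  unfold Kr
  split_ifs with h0
  · exact h _ ⟨hl, Or.inr ⟨rfl, Finset.card_eq_zero.1 h0⟩⟩
  · refine mul_le_mul_of_nonneg_left (Finset.sum_le_sum fun t ht => h t ⟨hl, Or.inl ht⟩) ?_
    unfold Qn
    positivity

theorem Ex_add (i : ℕ) (φ ψ : Hs n → ℝ) : Ex i (fun l => φ l + ψ l) = Ex i φ + Ex i ψ := by
  induction i generalizing φ ψ with
  | zero => rfl
  | succ i ih => simp only [Ex]; rw [Kr_add, ih]

theorem Ex_const_mul (i : ℕ) (c : ℝ) (φ : Hs n → ℝ) : Ex i (fun l => c * φ l) = c * Ex i φ := by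
  induction i generalizing φ with
  | zero => rfl
  | succ i ih =>
    simp only [Ex]
    rw [← ih]
    congr 1
    funext l
    exact Kr_eq_mul fun _ => rfl

theorem Ex_const (i : ℕ) (c : ℝ) : Ex i (fun _ : Hs n => c) = c := by
  induction i with
  | zero => rfl
  | succ i ih =>
    simp only [Ex]
    rw [show Kr (fun _ : Hs n => c) = fun _ => c from funext fun l => Kr_eq_const fun _ => rfl, ih]

theorem Ex_sum {ι : Type*} (i : ℕ) (s : Finset ι) (φ : ι → Hs n → ℝ) :
    Ex i (fun l => ∑ a ∈ s, φ a l) = ∑ a ∈ s, Ex i (φ a) := by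
  classical
  induction s using Finset.induction_on with
  | empty => simpa using Ex_const i 0
  | insert a s ha ih => simp only [Finset.sum_insert ha]; rw [Ex_add, ih]

theorem Ex_mono (i : ℕ) (φ ψ : Hs n → ℝ) (h : ∀ l, Reach l → l.length = i → φ l ≤ ψ l) :
    Ex i φ ≤ Ex i ψ := by
  induction i generalizing φ ψ with
  | zero => exact h [] trivial rfl
  | succ i ih =>
    simp only [Ex]
    refine ih _ _ fun l hl hi => Kr_mono hl fun t ht => h _ ht ?_
    rw [List.length_cons, hi]

theorem expectFinal_of_empty (φ : ℕ → ℝ) (fuel : ℕ) {E : Ed n} (h : (triangles E).card = 0) :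
    expectFinal φ fuel E = φ E.card := by
  cases fuel with
  | zero => rfl
  | succ f => simp only [expectFinal, if_pos h]

theorem Ex_final (φ : ℕ → ℝ) (i fuel : ℕ) :
    expectFinal φ (fuel + i) (allEdges n) = Ex i (fun l : Hs n => expectFinal φ fuel (gr l)) := by
  induction i generalizing fuel with
  | zero => rfl
  | succ i ih =>
    rw [show fuel + (i + 1) = fuel + 1 + i by ring, ih]
    simp only [Ex]
    congr 1
    funext l
    unfold Kr
    split_ifs with h0
    · simp only [gr, Finset.sym2_empty, Finset.sdiff_empty]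
      rw [expectFinal_of_empty φ _ h0, expectFinal_of_empty φ _ h0]
    · simp only [expectFinal, if_neg h0, gr, Qn]

theorem expectFinal_nonneg (φ : ℕ → ℝ) (hφ : ∀ m, 0 ≤ φ m) (fuel : ℕ) (E : Ed n) :
    0 ≤ expectFinal φ fuel E := by
  induction fuel generalizing E with
  | zero => exact hφ _
  | succ f ih =>
    simp only [expectFinal]
    split_ifs
    · exact hφ _
    · exact mul_nonneg (by positivity) (Finset.sum_nonneg fun t _ => ih _)

theorem expectFinal_le (φ : ℕ → ℝ) (M : ℝ) (fuel : ℕ) (E : Ed n) (hφ : ∀ m, m ≤ E.card → φ m ≤ M) :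
    expectFinal φ fuel E ≤ M := by
  induction fuel generalizing E with
  | zero => exact hφ _ le_rfl
  | succ f ih =>
    simp only [expectFinal]
    split_ifs with h0
    · exact hφ _ le_rfl
    · have h1 : (0 : ℝ) < (triangles E).card := by exact_mod_cast Nat.pos_of_ne_zero h0
      have h2 : ∑ t ∈ triangles E, expectFinal φ f (E \ t.sym2) ≤ ∑ _t ∈ triangles E, M :=
        Finset.sum_le_sum fun t _ => ih _ fun m hm =>
          hφ m (hm.trans (Finset.card_le_card Finset.sdiff_subset))
      rw [Finset.sum_const, nsmul_eq_mul] at h2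
      rw [inv_mul_le_iff₀ h1]
      exact h2

/-- supermartingales killed at the first bad time:
`Kr (fun l => ind (Pre G l) * Z l) l = ind (G l) * Kr Z l ≤ ind (Pre G l) * Z l`. -/
theorem super (G : Hs n → Prop) (Z : Hs n → ℝ) (I : ℕ) (hG : ∀ t l, G (t :: l) → G l) (hZ : ∀ l, 0 ≤ Z l)
    (h : ∀ l, Reach l → l.length < I → G l → Kr Z l ≤ Z l) (i : ℕ) (hi : i ≤ I) :
    Ex i (fun l => ind (Pre G l) * Z l) ≤ Z [] := by
  induction i with
  | zero =>
    change ind (Pre G []) * Z [] ≤ Z []
    rw [ind_pos (show Pre G [] from trivial), one_mul]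
  | succ i ih =>
    simp only [Ex]
    refine le_trans (Ex_mono i _ _ fun l hl hlen => ?_) (ih (by omega))
    rw [Kr_eq_mul (ψ := Z) (c := ind (G l)) fun _ => rfl]
    by_cases hg : G l
    · have hp : Pre G l := by
        cases l with
        | nil => trivial
        | cons t l => exact hG t l hg
      rw [ind_pos hg, ind_pos hp, one_mul, one_mul]
      exact h l hl (by omega) hg
    · rw [ind_neg hg, zero_mul]
      exact mul_nonneg (ind_nonneg _) (hZ l)

/-- union bound over the first bad time -/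
theorem union_bound (G C : Hs n → Prop) (h : ∀ l, G l ↔ Pre G l ∧ C l) (I : ℕ) :
    Ex I (fun l => ind (¬ G l)) ≤ ∑ i ∈ range (I + 1), Ex i (fun l => ind (Pre G l) * ind (¬ C l)) := by
  have key : ∀ l, ind (¬ G l) ≤ ind (¬ Pre G l) + ind (Pre G l) * ind (¬ C l) := by
    intro l
    by_cases hp : Pre G l
    · rw [ind_pos hp, one_mul]
      exact le_add_of_nonneg_of_le (ind_nonneg _) (ind_mono fun hg hc => hg ((h l).2 ⟨hp, hc⟩))
    · rw [ind_pos hp]
      exact le_add_of_le_of_nonneg (ind_le_one _) (mul_nonneg (ind_nonneg _) (ind_nonneg _))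
  induction I with
  | zero =>
    rw [zero_add, Finset.sum_range_one]
    have := key []
    rw [ind_neg (show ¬ ¬ Pre G [] from fun h => h trivial), zero_add] at this
    exact this
  | succ I ih =>
    rw [Finset.sum_range_succ]
    refine (Ex_mono (I + 1) _ _ fun l _ _ => key l).trans ?_
    rw [Ex_add]
    refine add_le_add (le_trans (le_of_eq ?_) ih) le_rfl
    simp only [Ex]
    congr 1
    funext l
    exact Kr_eq_const fun _ => rfl

theorem fn_Tn (P : Par) (i : ℕ) : Fn (Tn (n := n) P i) := by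
  refine ⟨fun f g => ?_, fun c f => ?_, fun f g h => ?_⟩
  · unfold Tn
    simp only [mul_add]
    rw [Ex_add]
  · unfold Tn
    rw [← Ex_const_mul]
    simp only [mul_left_comm]
  · exact Ex_mono i _ _ fun l _ _ => mul_le_mul_of_nonneg_left (h _) (ind_nonneg _)

theorem Fn.zero {T : (Ed n → ℝ) → ℝ} (hT : Fn T) : T (fun _ => 0) = 0 := by
  simpa using hT.smul 0 fun _ => 0

theorem Fn.sum {T : (Ed n → ℝ) → ℝ} (hT : Fn T) {ι : Type*} (s : Finset ι) (f : ι → Ed n → ℝ) :
    T (fun E => ∑ a ∈ s, f a E) = ∑ a ∈ s, T (f a) := by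
  classical
  induction s using Finset.induction_on with
  | empty => simpa using hT.zero
  | insert a s ha ih => simp only [Finset.sum_insert ha]; rw [hT.add, ih]

theorem Good.tail {P : Par} {t : Finset (Fin n)} {l : Hs n} (h : Good P (t :: l)) : Good P l := h.1

theorem good_iff (P : Par) (l : Hs n) : Good P l ↔ Pre (Good P) l ∧ (Mart P l ∧ Up P l) := by
  cases l with
  | nil => simp [Good, Pre]
  | cons t l => simp [Good, Pre]

end Crest.Agent.R30
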