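import Crest.Agent.R30.Graph
set_option autoImplicit false

noncomputable section

namespace Crest.Agent.R30

open Finset Crest.CombinatoricsR.TriangleRemoval

variable {n : ℕ}

/-- adjacency operator of the link of `u` -/
def spA (E : Ed n) (u : Fin n) (y : Fin n → ℝ) (v : Fin n) : ℝ := ∑ w ∈ cn E u v, y w

theorem spA_symm (E : Ed n) (u : Fin n) (f g : Fin n → ℝ) :
    ∑ v ∈ nb E u, f v * spA E u g v = ∑ v ∈ nb E u, spA E u f v * g v := by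
  simp only [spA, mul_sum, sum_mul]
  refine sum_comm' fun v w => ?_
  simp only [mem_nb, mem_cn]
  exact ⟨fun h => ⟨⟨h.1, adj_symm h.2.2⟩, h.2.1⟩, fun h => ⟨h.1.1, h.2, adj_symm h.1.2⟩⟩

theorem spA_iter_symm (E : Ed n) (u : Fin n) (k : ℕ) (f g : Fin n → ℝ) :
    ∑ v ∈ nb E u, f v * (spA E u)^[k] g v = ∑ v ∈ nb E u, (spA E u)^[k] f v * g v := by
  induction k generalizing f with
  | zero => rfl
  | succ k ih => rw [Function.iterate_succ_apply', spA_symm, ih, Function.iterate_succ_apply]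

theorem spA_iter (E : Ed n) (u : Fin n) (k : ℕ) (y : Fin n → ℝ) :
    ∀ v ∈ nb E u, (spA E u)^[k] y v = ∑ w ∈ nb E u, (wk E u w k v : ℝ) * y w := by
  induction k with
  | zero =>
    intro v hv
    simp [wk, hv]
  | succ k ih =>
    intro v _
    rw [Function.iterate_succ_apply', spA,
      sum_congr rfl fun v' hv' => ih v' (mem_nb.2 (mem_cn.1 hv').1), sum_comm]
    refine sum_congr rfl fun w _ => ?_
    rw [wk, Nat.cast_sum, sum_mul]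

theorem spA_one {E : Ed n} {u : Fin n} {a : ℝ} (ha : 0 ≤ a)
    (h : ∀ v, adj E u v → a ≤ (cn E u v).card) (k : ℕ) :
    ∀ v ∈ nb E u, a ^ k ≤ (spA E u)^[k] (fun _ => 1) v := by
  induction k with
  | zero =>
    intro v _
    simp
  | succ k ih =>
    intro v hv
    rw [Function.iterate_succ_apply', spA]
    refine le_trans ?_ (sum_le_sum fun v' hv' => ih v' (mem_nb.2 (mem_cn.1 hv').1))
    rw [sum_const, nsmul_eq_mul, pow_succ']
    exact mul_le_mul_of_nonneg_right (h v (mem_nb.1 hv)) (pow_nonneg ha k)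

theorem spA_quad {E : Ed n} {u : Fin n} {a β d : ℝ} {k : ℕ} (ha : 0 ≤ a) (hβ : 0 ≤ β)
    (h : ∀ v, adj E u v → a ≤ (cn E u v).card) (hd : ((nb E u).card : ℝ) ≤ d)
    (hw : ∀ v w, adj E u v → adj E u w → (wk E u w k v : ℝ) ≤ β) {y : Fin n → ℝ}
    (hy : ∑ v ∈ nb E u, y v = 0) :
    ∑ v ∈ nb E u, y v * (spA E u)^[k] y v ≤ (β * d - a ^ k) * ∑ v ∈ nb E u, y v ^ 2 := by
  have hY : 0 ≤ ∑ v ∈ nb E u, y v ^ 2 := sum_nonneg fun _ _ => sq_nonneg _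
  have e1 : ∑ v ∈ nb E u, y v * (spA E u)^[k] y v =
      ∑ v ∈ nb E u, ∑ w ∈ nb E u, (wk E u w k v : ℝ) * (y v * y w) := by
    refine sum_congr rfl fun v hv => ?_
    rw [spA_iter E u k y v hv, mul_sum]
    exact sum_congr rfl fun w _ => by ring
  have e2 : ∑ v ∈ nb E u, ∑ w ∈ nb E u, β * (y v * y w) = 0 := by
    simp only [← mul_sum, hy, mul_zero, sum_const_zero]
  have h3 : a ^ k * ∑ v ∈ nb E u, y v ^ 2 ≤
      ∑ v ∈ nb E u, (spA E u)^[k] (fun _ => 1) v * y v ^ 2 := by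
    rw [mul_sum]
    exact sum_le_sum fun v hv => mul_le_mul_of_nonneg_right (spA_one ha h k v hv) (sq_nonneg _)
  have e4 : ∑ v ∈ nb E u, (spA E u)^[k] (fun _ => 1) v * y v ^ 2 =
      ∑ v ∈ nb E u, ∑ w ∈ nb E u, (wk E u w k v : ℝ) * y v ^ 2 := by
    refine sum_congr rfl fun v hv => ?_
    rw [spA_iter E u k _ v hv, sum_mul]
    exact sum_congr rfl fun w _ => by ring
  have e5 : ∑ v ∈ nb E u, (spA E u)^[k] (fun _ => 1) v * y v ^ 2 =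
      ∑ v ∈ nb E u, ∑ w ∈ nb E u, (wk E u w k v : ℝ) * y w ^ 2 := by
    rw [← spA_iter_symm]
    refine sum_congr rfl fun v hv => ?_
    rw [spA_iter E u k _ v hv, one_mul]
  have e6 : ∑ v ∈ nb E u, ∑ _w ∈ nb E u, β * y v ^ 2 =
      β * (nb E u).card * ∑ v ∈ nb E u, y v ^ 2 := by
    simp only [sum_const, nsmul_eq_mul, mul_sum]
    exact sum_congr rfl fun v _ => by ring
  have e7 : ∑ _v ∈ nb E u, ∑ w ∈ nb E u, β * y w ^ 2 =
      β * (nb E u).card * ∑ v ∈ nb E u, y v ^ 2 := by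
    rw [sum_comm, e6]
  have h8 : ∑ v ∈ nb E u, ∑ w ∈ nb E u, (2 * ((wk E u w k v : ℝ) * (y v * y w)) +
        ((wk E u w k v : ℝ) * y v ^ 2 + (wk E u w k v : ℝ) * y w ^ 2)) ≤
      ∑ v ∈ nb E u, ∑ w ∈ nb E u, (2 * (β * (y v * y w)) + (β * y v ^ 2 + β * y w ^ 2)) := by
    refine sum_le_sum fun v hv => sum_le_sum fun w hw' => ?_
    have := mul_le_mul_of_nonneg_right (hw v w (mem_nb.1 hv) (mem_nb.1 hw')) (sq_nonneg (y v + y w))
    linarith [show ∀ t : ℝ, t * (y v + y w) ^ 2 = 2 * (t * (y v * y w)) + (t * y v ^ 2 + t * y w ^ 2)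
      from fun t => by ring, show (wk E u w k v : ℝ) * (y v + y w) ^ 2 =
        2 * ((wk E u w k v : ℝ) * (y v * y w)) +
        ((wk E u w k v : ℝ) * y v ^ 2 + (wk E u w k v : ℝ) * y w ^ 2) by ring,
      show β * (y v + y w) ^ 2 = 2 * (β * (y v * y w)) + (β * y v ^ 2 + β * y w ^ 2) by ring]
  simp only [sum_add_distrib] at h8
  simp only [← mul_sum (a := (2 : ℝ))] at h8
  rw [← e1, ← e4, ← e5, e2, e6, e7] at h8
  have h9 := mul_le_mul_of_nonneg_right (mul_le_mul_of_nonneg_left hd hβ) hY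
  linarith [sub_mul (β * d) (a ^ k) (∑ v ∈ nb E u, y v ^ 2)]

theorem spA_down {E : Ed n} {u : Fin n} {t : ℝ} (ht : 0 ≤ t) {y : Fin n → ℝ} (m : ℕ)
    (h : ∑ v ∈ nb E u, y v * (spA E u)^[2 ^ (m + 1)] y v ≤ t ^ 2 ^ (m + 1) * ∑ v ∈ nb E u, y v ^ 2) :
    ∑ v ∈ nb E u, spA E u y v ^ 2 ≤ t ^ 2 * ∑ v ∈ nb E u, y v ^ 2 := by
  have hY : 0 ≤ ∑ v ∈ nb E u, y v ^ 2 := sum_nonneg fun _ _ => sq_nonneg _
  have key : ∀ a : ℕ, ∑ v ∈ nb E u, y v * (spA E u)^[a + a] y v =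
      ∑ v ∈ nb E u, (spA E u)^[a] y v ^ 2 := fun a => by
    rw [Function.iterate_add_apply, spA_iter_symm]
    exact sum_congr rfl fun v _ => (sq _).symm
  induction m with
  | zero => exact (key 1).symm.trans_le h
  | succ m ih =>
    apply ih
    rw [pow_succ 2 (m + 1), mul_two, key] at h
    have h1 := sum_mul_sq_le_sq_mul_sq (nb E u) y ((spA E u)^[2 ^ (m + 1)] y)
    refine (abs_le_of_sq_le_sq' (h1.trans ?_) (mul_nonneg (pow_nonneg ht _) hY)).2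
    refine (mul_le_mul_of_nonneg_left h hY).trans (le_of_eq ?_)
    rw [pow_add]
    ring

theorem sp_mink {ι : Type*} (S : Finset ι) (f g : ι → ℝ) {a b : ℝ} (ha : 0 ≤ a) (hb : 0 ≤ b)
    (hf : ∑ q ∈ S, f q ^ 2 ≤ a ^ 2) (hg : ∑ q ∈ S, g q ^ 2 ≤ b ^ 2) :
    ∑ q ∈ S, (f q + g q) ^ 2 ≤ (a + b) ^ 2 := by
  have h1 := sum_mul_sq_le_sq_mul_sq S f g
  have h2 : (∑ q ∈ S, f q * g q) ^ 2 ≤ (a * b) ^ 2 := by
    refine h1.trans ?_
    rw [mul_pow]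
    exact mul_le_mul hf hg (sum_nonneg fun _ _ => sq_nonneg _) (sq_nonneg _)
  have h3 := (abs_le_of_sq_le_sq' h2 (mul_nonneg ha hb)).2
  have h4 : ∑ q ∈ S, (f q + g q) ^ 2 =
      ∑ q ∈ S, f q ^ 2 + 2 * ∑ q ∈ S, f q * g q + ∑ q ∈ S, g q ^ 2 := by
    rw [mul_sum, ← sum_add_distrib, ← sum_add_distrib]
    exact sum_congr rfl fun _ _ => by ring
  rw [h4]
  linarith [show (a + b) ^ 2 = a ^ 2 + 2 * (a * b) + b ^ 2 by ring]

/-- Spectral gap of the links from upper bounds on walk counts. Fix `u`, let `A` be the adjacency matrix of the link on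
`nb E u` (symmetric, row sums in `(1 ± ζ) c`), `k = 2^(l+1)`. `A^k` has entries `wk E u w k v ≤ β` and row sums `≥ ((1-ζ)c)^k`, so
`B = β J - A^k` is symmetric, entrywise nonnegative, with row sums `≤ ((η-ζ)c)^k`. For `y ⊥ 1`:
`‖A^(k/2) y‖² = - y^T B y ≤ ((η-ζ)c)^k ‖y‖²`. From `‖A^a y‖² ≤ ‖A^(2a) y‖ ‖y‖` get `‖A y‖ ≤ (η-ζ) c ‖y‖`.
For general `y = ȳ 1 + y'`: `(A/c) y - ȳ 1 = ȳ (A 1 / c - 1) + (A/c) y'` has norm `≤ ζ ‖y‖ + (η-ζ) ‖y‖`. -/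
theorem spec_of_up (E : Ed n) (c ζ η β d : ℝ) (l : ℕ) (hc : 0 < c) (hζ0 : 0 ≤ ζ) (hζ1 : ζ ≤ 1) (hη : ζ ≤ η)
    (hβ : 0 ≤ β) (hcod : ∀ u v, adj E u v → |((cn E u v).card : ℝ) / c - 1| ≤ ζ)
    (hd : ∀ u, ((nb E u).card : ℝ) ≤ d)
    (hw : ∀ u v w, adj E u v → adj E u w → (wk E u w (2 ^ (l + 1)) v : ℝ) ≤ β)
    (h : β * d - ((1 - ζ) * c) ^ 2 ^ (l + 1) ≤ ((η - ζ) * c) ^ 2 ^ (l + 1)) : Spec E c η := by
  intro u y
  rcases (nb E u).eq_empty_or_nonempty with hS | hS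
  · simp [hS]
  have hcard : (0 : ℝ) < (nb E u).card := by exact_mod_cast hS.card_pos
  obtain ⟨m, hm⟩ : ∃ m, m = (∑ w ∈ nb E u, y w) / ((nb E u).card : ℝ) := ⟨_, rfl⟩
  rw [← hm]
  have hm' : ∑ w ∈ nb E u, y w = (nb E u).card * m := by
    rw [hm]
    field_simp
  have h0 : ∑ v ∈ nb E u, (y v - m) = 0 := by
    rw [sum_sub_distrib, hm', sum_const, nsmul_eq_mul, sub_self]
  have hpy : ∑ v ∈ nb E u, y v ^ 2 = (nb E u).card * m ^ 2 + ∑ v ∈ nb E u, (y v - m) ^ 2 := by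
    have : ∑ v ∈ nb E u, (y v - m) ^ 2 = ∑ v ∈ nb E u, (y v ^ 2 - 2 * m * y v + m ^ 2) :=
      sum_congr rfl fun _ _ => by ring
    rw [this, sum_add_distrib, sum_sub_distrib, ← mul_sum, hm', sum_const, nsmul_eq_mul]
    ring
  have hY' : 0 ≤ ∑ v ∈ nb E u, (y v - m) ^ 2 := sum_nonneg fun _ _ => sq_nonneg _
  have hY : 0 ≤ ∑ v ∈ nb E u, y v ^ 2 := sum_nonneg fun _ _ => sq_nonneg _
  have hlow : ∀ v, adj E u v → (1 - ζ) * c ≤ (cn E u v).card := fun v hv => by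
    have := (abs_le.1 (hcod u v hv)).1
    rw [← le_div_iff₀ hc]
    linarith
  have hηζ : 0 ≤ η - ζ := sub_nonneg.2 hη
  have h1 := spA_quad (mul_nonneg (sub_nonneg.2 hζ1) hc.le) hβ hlow (hd u) (hw u) h0
  have h2 := spA_down (mul_nonneg hηζ hc.le) l (h1.trans (mul_le_mul_of_nonneg_right h hY'))
  obtain ⟨t, ht0, ht⟩ : ∃ t, 0 ≤ t ∧ t ^ 2 = ∑ v ∈ nb E u, y v ^ 2 :=
    ⟨_, Real.sqrt_nonneg _, Real.sq_sqrt hY⟩
  have h3 : ∑ v ∈ nb E u, (m * (((cn E u v).card : ℝ) / c - 1)) ^ 2 ≤ (ζ * t) ^ 2 := by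
    have : ∑ v ∈ nb E u, (m * (((cn E u v).card : ℝ) / c - 1)) ^ 2 ≤ ∑ _v ∈ nb E u, m ^ 2 * ζ ^ 2 :=
      sum_le_sum fun v hv => by
        rw [mul_pow]
        refine mul_le_mul_of_nonneg_left ?_ (sq_nonneg _)
        rw [← sq_abs]
        exact pow_le_pow_left₀ (abs_nonneg _) (hcod u v (mem_nb.1 hv)) 2
    refine this.trans ?_
    rw [sum_const, nsmul_eq_mul, mul_pow, ht, hpy]
    have := mul_nonneg (sq_nonneg ζ) hY'
    linarith [show ζ ^ 2 * ((nb E u).card * m ^ 2 + ∑ v ∈ nb E u, (y v - m) ^ 2) =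
      (nb E u).card * (m ^ 2 * ζ ^ 2) + ζ ^ 2 * ∑ v ∈ nb E u, (y v - m) ^ 2 by ring]
  have h4 : ∑ v ∈ nb E u, (spA E u (fun v => y v - m) v / c) ^ 2 ≤ ((η - ζ) * t) ^ 2 := by
    simp only [div_pow]
    rw [← sum_div, div_le_iff₀ (by positivity)]
    refine h2.trans ?_
    have h5 : ∑ v ∈ nb E u, (y v - m) ^ 2 ≤ t ^ 2 := by
      rw [ht, hpy]
      exact le_add_of_nonneg_left (mul_nonneg hcard.le (sq_nonneg _))
    refine (mul_le_mul_of_nonneg_left h5 (sq_nonneg _)).trans (le_of_eq (by ring))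
  have h6 := sp_mink _ _ _ (mul_nonneg hζ0 ht0) (mul_nonneg hηζ ht0) h3 h4
  rw [← ht]
  refine le_trans (le_of_eq (sum_congr rfl fun v _ => ?_)) (h6.trans (le_of_eq (by ring)))
  rw [spA, sum_sub_distrib, sum_const, nsmul_eq_mul]
  ring

end Crest.Agent.R30
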