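import Crest.Agent.R30.Graph
set_option autoImplicit false

noncomputable section

namespace Crest.Agent.R30

open Finset Crest.CombinatoricsR.TriangleRemoval

variable {n : ℕ}

/-- average of `z u ·` over the neighbours of `u` -/
def stAv (E : Ed n) (z : Fin n → Fin n → ℝ) (u : Fin n) : ℝ :=
  (∑ w ∈ nb E u, z u w) / ((nb E u).card : ℝ)

/-- `R = L - Π` -/
def stR (E : Ed n) (c : ℝ) (z : Fin n → Fin n → ℝ) (u v : Fin n) : ℝ :=
  Lop E c z u v - (stAv E z u + stAv E z v)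

/-- balls of a family of seminorms -/
structure StBall (P : Ed n → (Fin n → Fin n → ℝ) → ℝ → Prop) : Prop where
  add : ∀ E f g a b, P E f a → P E g b → P E (fun u v => f u v + g u v) (a + b)
  smul : ∀ E f a c, 0 ≤ c → P E f a → P E (fun u v => c * f u v) (c * a)
  mono : ∀ E E' f g a b, E ⊆ E' → (∀ u v, adj E u v → |f u v| = |g u v|) → a ≤ b → P E' g a → P E f b
  swap : ∀ E f a, P E f a → P E (fun u v => f v u) a
  avg : ∀ E f a, P E f a → P E (fun u _ => stAv E f u) a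
  zero : ∀ E, P E (fun _ _ => 0) 0

/-- `z` solves the linear recursion with source `g` on adjacent pairs -/
def StSol (E : ℕ → Ed n) (r : ℕ → ℝ) (I : ℕ) (z g : ℕ → Fin n → Fin n → ℝ) : Prop :=
  (∀ u v, adj (E 0) u v → z 0 u v = 0) ∧ ∀ j, j < I → ∀ u v, adj (E (j + 1)) u v →
    z (j + 1) u v = z j u v - r j * (stAv (E j) (z j) u + stAv (E j) (z j) v + g j u v)

theorem stSol_bound {P : Ed n → (Fin n → Fin n → ℝ) → ℝ → Prop} (hP : StBall P) {E : ℕ → Ed n}
    {r : ℕ → ℝ} {I : ℕ} {σ γ : ℝ} {z g : ℕ → Fin n → Fin n → ℝ}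
    (hE : ∀ j, j < I → E (j + 1) ⊆ E j) (hr : ∀ j, j < I → 0 ≤ r j ∧ r j ≤ 1)
    (hσ : ∑ j ∈ range I, r j ≤ σ) (hγ : 0 ≤ γ) (hz : StSol E r I z g)
    (hg : ∀ j, j < I → P (E j) (g j) γ) :
    ∀ j, j ≤ I → P (E j) (z j) ((σ + 2 * σ ^ 2) * γ) := by
  obtain ⟨G, hG⟩ : ∃ G : ℕ → Fin n → Fin n → ℝ, ∀ j u v, G j u v = ∑ i ∈ range j, r i * g i u v :=
    ⟨_, fun _ _ _ => rfl⟩
  obtain ⟨b, hb⟩ : ∃ b : ℕ → Fin n → ℝ, ∀ j u, b j u = ∑ i ∈ range j, r i * stAv (E i) (z i) u :=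
    ⟨_, fun _ _ => rfl⟩
  obtain ⟨s, hs⟩ : ∃ s : ℕ → ℝ, ∀ j, s j = ∑ i ∈ range j, r i := ⟨_, fun _ => rfl⟩
  have hsσ : ∀ j, j ≤ I → s j ≤ σ := fun j hj => by
    rw [hs]
    refine le_trans (sum_le_sum_of_subset_of_nonneg (range_subset_range.2 hj) ?_) hσ
    intro i hi _
    exact (hr i (mem_range.1 hi)).1
  have hσ0 : 0 ≤ σ := by
    have := hsσ 0 (Nat.zero_le _)
    rwa [hs, range_zero, sum_empty] at this
  have h1 : ∀ j, j ≤ I → P (E j) (G j) (s j * γ) := by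
    intro j
    induction j with
    | zero =>
      intro _
      refine hP.mono _ _ _ _ _ _ (Subset.refl _) ?_ ?_ (hP.zero (E 0))
      · intro u v _
        simp [hG]
      · simp [hs]
    | succ j ih =>
      intro hj
      have h := hP.add _ _ _ _ _ (ih (by omega)) (hP.smul _ _ _ _ (hr j hj).1 (hg j hj))
      refine hP.mono _ _ _ _ _ _ (hE j hj) ?_ ?_ h
      · intro u v _
        rw [hG, hG, sum_range_succ]
      · rw [hs, hs, sum_range_succ]
        exact le_of_eq (by ring)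
  have h1' : ∀ j, j ≤ I → P (E j) (G j) (σ * γ) := fun j hj =>
    hP.mono _ _ _ _ _ _ (Subset.refl _) (fun _ _ _ => rfl)
      (mul_le_mul_of_nonneg_right (hsσ j hj) hγ) (h1 j hj)
  have h2 : ∀ j, j ≤ I → ∀ u v, adj (E j) u v → z j u v = -(b j u + (b j v + G j u v)) := by
    intro j
    induction j with
    | zero =>
      intro _ u v h
      simp [hb, hG, hz.1 u v h]
    | succ j ih =>
      intro hj u v h
      rw [hz.2 j hj u v h, ih (by omega) u v (adj_mono (hE j hj) h)]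
      simp only [hb, hG, sum_range_succ]
      ring
  have h3 : ∀ j, j ≤ I → P (E j) (fun u _ => b j u) (s j * (σ * γ)) := by
    intro j
    induction j with
    | zero =>
      intro _
      refine hP.mono _ _ _ _ _ _ (Subset.refl _) ?_ ?_ (hP.zero (E 0))
      · intro u v _
        simp [hb]
      · simp [hs]
    | succ j ih =>
      intro hj
      have ih' := ih (by omega)
      have ha := hP.avg _ _ _ (hP.add _ _ _ _ _ (hP.swap _ _ _ ih') (h1' j (by omega)))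
      have ha' : P (E j) (fun u _ => -stAv (E j) (fun u v => b j v + G j u v) u)
          (s j * (σ * γ) + σ * γ) :=
        hP.mono _ _ _ _ _ _ (Subset.refl _) (fun _ _ _ => abs_neg _) le_rfl ha
      have h := hP.add _ _ _ _ _ (hP.smul _ _ _ _ (sub_nonneg.2 (hr j hj).2) ih')
        (hP.smul _ _ _ _ (hr j hj).1 ha')
      refine hP.mono _ _ _ _ _ _ (hE j hj) ?_ ?_ h
      · intro u v huv
        have huv' := adj_mono (hE j hj) huv
        have hc : ((nb (E j) u).card : ℝ) ≠ 0 := by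
          have : (nb (E j) u).Nonempty := ⟨v, mem_nb.2 huv'⟩
          exact_mod_cast this.card_pos.ne'
        have e : stAv (E j) (z j) u = -b j u - stAv (E j) (fun u v => b j v + G j u v) u := by
          unfold stAv
          rw [sum_congr rfl fun w hw => h2 j (by omega) u w (mem_nb.1 hw), sum_neg_distrib,
            sum_add_distrib, sum_const, nsmul_eq_mul]
          field_simp
          ring
        congr 1
        rw [hb (j + 1), sum_range_succ, ← hb, e]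
        ring
      · rw [hs (j + 1), sum_range_succ, ← hs]
        exact le_of_eq (by ring)
  intro j hj
  have h := hP.add _ _ _ _ _ (h3 j hj) (hP.add _ _ _ _ _ (hP.swap _ _ _ (h3 j hj)) (h1' j hj))
  refine hP.mono _ _ _ _ _ _ (Subset.refl _) ?_ ?_ h
  · intro u v huv
    rw [h2 j hj u v huv, abs_neg]
  · have := mul_le_mul_of_nonneg_right (hsσ j hj) (mul_nonneg hσ0 hγ)
    linarith [show (σ + 2 * σ ^ 2) * γ = σ * (σ * γ) + (σ * (σ * γ) + σ * γ) by ring]

theorem stSol_exists (E : ℕ → Ed n) (r : ℕ → ℝ) (I : ℕ) (g : ℕ → Fin n → Fin n → ℝ) :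
    ∃ z, StSol E r I z g :=
  ⟨fun j => Nat.rec (motive := fun _ => Fin n → Fin n → ℝ) (fun _ _ => 0)
    (fun j z u v => z u v - r j * (stAv (E j) z u + stAv (E j) z v + g j u v)) j,
    fun _ _ _ => rfl, fun _ _ _ _ _ => rfl⟩

theorem stAv_sub (E : Ed n) (z z' : Fin n → Fin n → ℝ) (u : Fin n) :
    stAv E (fun u v => z u v - z' u v) u = stAv E z u - stAv E z' u := by
  simp only [stAv, sum_sub_distrib, sub_div]

theorem stLop_sub (E : Ed n) (c : ℝ) (z z' : Fin n → Fin n → ℝ) (u v : Fin n) :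
    Lop E c (fun u v => z u v - z' u v) u v = Lop E c z u v - Lop E c z' u v := by
  simp only [Lop]
  rw [← sub_div, ← sum_sub_distrib]
  congr 1
  exact sum_congr rfl fun w _ => by ring

theorem stR_sub (E : Ed n) (c : ℝ) (z z' : Fin n → Fin n → ℝ) (u v : Fin n) :
    stR E c (fun u v => z u v - z' u v) u v = stR E c z u v - stR E c z' u v := by
  simp only [stR, stLop_sub, stAv_sub]
  ring

theorem stSol_sub {E : ℕ → Ed n} {r : ℕ → ℝ} {I : ℕ} {z g z' g' g'' : ℕ → Fin n → Fin n → ℝ}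
    (h : StSol E r I z g) (h' : StSol E r I z' g') (hg : ∀ j u v, g'' j u v = g j u v - g' j u v) :
    StSol E r I (fun j u v => z j u v - z' j u v) g'' := by
  refine ⟨fun u v huv => by simp [h.1 u v huv, h'.1 u v huv], fun j hj u v huv => ?_⟩
  simp only [h.2 j hj u v huv, h'.2 j hj u v huv, stAv_sub, hg]
  ring

/-- sup balls -/
def StI (E : Ed n) (f : Fin n → Fin n → ℝ) (a : ℝ) : Prop := ∀ u v, adj E u v → |f u v| ≤ a

theorem stAv_le {E : Ed n} {f : Fin n → Fin n → ℝ} {a : ℝ} (h : StI E f a) {u v : Fin n}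
    (huv : adj E u v) : |stAv E f u| ≤ a := by
  have hc : (0 : ℝ) < (nb E u).card := by
    have : (nb E u).Nonempty := ⟨v, mem_nb.2 huv⟩
    exact_mod_cast this.card_pos
  unfold stAv
  rw [abs_div, abs_of_pos hc, div_le_iff₀ hc]
  refine (abs_sum_le_sum_abs _ _).trans ?_
  refine (sum_le_sum fun w hw => h u w (mem_nb.1 hw)).trans ?_
  rw [sum_const, nsmul_eq_mul, mul_comm]

theorem stI_ball : StBall (StI (n := n)) where
  add _ _ _ _ _ hf hg u v h := (abs_add_le _ _).trans (add_le_add (hf u v h) (hg u v h))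
  smul _ _ _ _ hc hf u v h := by
    rw [abs_mul, abs_of_nonneg hc]
    exact mul_le_mul_of_nonneg_left (hf u v h) hc
  mono _ _ _ _ _ _ hE hfg hab hg u v h := by
    rw [hfg u v h]
    exact (hg u v (adj_mono hE h)).trans hab
  swap _ _ _ hf u v h := hf v u (adj_symm h)
  avg _ _ _ hf _ _ h := stAv_le hf h
  zero _ _ _ _ := by simp

/-- adjacent ordered pairs -/
def stAp (E : Ed n) : Finset (Fin n × Fin n) := univ.filter fun q => adj E q.1 q.2

theorem mem_stAp {E : Ed n} {q : Fin n × Fin n} : q ∈ stAp E ↔ adj E q.1 q.2 := by simp [stAp]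

theorem stAp_sum (E : Ed n) (F : Fin n → Fin n → ℝ) :
    ∑ q ∈ stAp E, F q.1 q.2 = ∑ u, ∑ v ∈ nb E u, F u v := by
  simp only [stAp, nb, sum_filter]
  exact Fintype.sum_prod_type' fun u v => if adj E u v then F u v else 0

theorem stAp_swap (E : Ed n) (F : Fin n → Fin n → ℝ) :
    ∑ q ∈ stAp E, F q.2 q.1 = ∑ q ∈ stAp E, F q.1 q.2 := by
  refine sum_bij' (fun q _ => q.swap) (fun q _ => q.swap) ?_ ?_ ?_ ?_ ?_
  · intro q hq
    exact mem_stAp.2 (adj_symm (mem_stAp.1 hq))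
  · intro q hq
    exact mem_stAp.2 (adj_symm (mem_stAp.1 hq))
  · intro q _
    rfl
  · intro q _
    rfl
  · intro q _
    rfl

/-- `ℓ²` balls -/
def StT (E : Ed n) (f : Fin n → Fin n → ℝ) (a : ℝ) : Prop :=
  0 ≤ a ∧ ∑ q ∈ stAp E, f q.1 q.2 ^ 2 ≤ a ^ 2

theorem stT_ball : StBall (StT (n := n)) where
  add E f g a b hf hg := by
    refine ⟨add_nonneg hf.1 hg.1, ?_⟩
    have h1 := sum_mul_sq_le_sq_mul_sq (stAp E) (fun q => f q.1 q.2) (fun q => g q.1 q.2)
    have h2 : (∑ q ∈ stAp E, f q.1 q.2 * g q.1 q.2) ^ 2 ≤ (a * b) ^ 2 := by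
      refine h1.trans ?_
      rw [mul_pow]
      exact mul_le_mul hf.2 hg.2 (sum_nonneg fun _ _ => sq_nonneg _) (sq_nonneg _)
    have h3 := (abs_le_of_sq_le_sq' h2 (mul_nonneg hf.1 hg.1)).2
    have h4 : ∑ q ∈ stAp E, (f q.1 q.2 + g q.1 q.2) ^ 2 = ∑ q ∈ stAp E, f q.1 q.2 ^ 2 +
        2 * ∑ q ∈ stAp E, f q.1 q.2 * g q.1 q.2 + ∑ q ∈ stAp E, g q.1 q.2 ^ 2 := by
      rw [mul_sum, ← sum_add_distrib, ← sum_add_distrib]
      exact sum_congr rfl fun _ _ => by ring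
    rw [h4]
    linarith [hf.2, hg.2, show (a + b) ^ 2 = a ^ 2 + 2 * (a * b) + b ^ 2 by ring]
  smul E f a c hc hf := by
    refine ⟨mul_nonneg hc hf.1, ?_⟩
    simp only [mul_pow]
    rw [← mul_sum]
    exact mul_le_mul_of_nonneg_left hf.2 (sq_nonneg _)
  mono E E' f g a b hE hfg hab hg := by
    refine ⟨hg.1.trans hab, ?_⟩
    have h1 : ∑ q ∈ stAp E, f q.1 q.2 ^ 2 = ∑ q ∈ stAp E, g q.1 q.2 ^ 2 :=
      sum_congr rfl fun q hq => by rw [← sq_abs, hfg _ _ (mem_stAp.1 hq), sq_abs]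
    rw [h1]
    refine le_trans (sum_le_sum_of_subset_of_nonneg ?_ fun _ _ _ => sq_nonneg _)
      (hg.2.trans (pow_le_pow_left₀ hg.1 hab 2))
    intro q hq
    exact mem_stAp.2 (adj_mono hE (mem_stAp.1 hq))
  swap E f a hf := ⟨hf.1, (stAp_swap E fun u v => f u v ^ 2).trans_le hf.2⟩
  avg E f a hf := by
    refine ⟨hf.1, le_trans ?_ hf.2⟩
    rw [stAp_sum E fun u _ => stAv E f u ^ 2, stAp_sum E fun u v => f u v ^ 2]
    refine sum_le_sum fun u _ => ?_
    rw [sum_const, nsmul_eq_mul]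
    rcases (nb E u).eq_empty_or_nonempty with h | h
    · simp [h]
    have hc : (0 : ℝ) < (nb E u).card := by exact_mod_cast h.card_pos
    have h1 := sq_sum_le_card_mul_sum_sq (s := nb E u) (f := fun w => f u w)
    unfold stAv
    rw [div_pow, ← mul_div_assoc, div_le_iff₀ (by positivity)]
    have h2 := mul_le_mul_of_nonneg_left h1 hc.le
    linarith [show ((nb E u).card : ℝ) * ((nb E u).card * ∑ w ∈ nb E u, f u w ^ 2) =
      (∑ w ∈ nb E u, f u w ^ 2) * (nb E u).card ^ 2 by ring]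
  zero _ := ⟨le_rfl, by simp⟩

theorem stLop_le {E : Ed n} {c a : ℝ} {z : Fin n → Fin n → ℝ} (hc : 0 < c) (ha : 0 ≤ a)
    (hcod : ∀ u v, adj E u v → ((cn E u v).card : ℝ) ≤ 2 * c) (hz : StI E z a) :
    StI E (Lop E c z) (4 * a) := by
  intro u v h
  unfold Lop
  rw [abs_div, abs_of_pos hc, div_le_iff₀ hc]
  refine (abs_sum_le_sum_abs _ _).trans ?_
  have h1 : ∑ w ∈ cn E u v, |z u w + z v w| ≤ ∑ _w ∈ cn E u v, (a + a) :=
    sum_le_sum fun w hw => (abs_add_le _ _).trans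
      (add_le_add (hz _ _ (mem_cn.1 hw).1) (hz _ _ (mem_cn.1 hw).2))
  refine h1.trans ?_
  rw [sum_const, nsmul_eq_mul]
  have := mul_le_mul_of_nonneg_right (hcod u v h) (add_nonneg ha ha)
  linarith [show 2 * c * (a + a) = 4 * a * c by ring]

theorem stR_le {E : Ed n} {c a : ℝ} {z : Fin n → Fin n → ℝ} (hc : 0 < c) (ha : 0 ≤ a)
    (hcod : ∀ u v, adj E u v → ((cn E u v).card : ℝ) ≤ 2 * c) (hz : StI E z a) :
    StI E (stR E c z) (6 * a) := by
  intro u v h
  have h1 := abs_le.1 (stLop_le hc ha hcod hz u v h)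
  have h2 := abs_le.1 (stAv_le hz h)
  have h3 := abs_le.1 (stAv_le hz (adj_symm h))
  unfold stR
  rw [abs_le]
  constructor <;> linarith [h1.1, h1.2, h2.1, h2.2, h3.1, h3.2]

theorem stR_two {E : Ed n} {c η a : ℝ} {z : Fin n → Fin n → ℝ} (hs : Spec E c η) (hη : 0 ≤ η)
    (hz : StT E z a) : StT E (stR E c z) (2 * η * a) := by
  have h1 : StT E (fun u v => (∑ w ∈ cn E u v, z u w) / c - stAv E z u) (η * a) := by
    refine ⟨mul_nonneg hη hz.1, ?_⟩
    have h2 := hz.2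
    rw [stAp_sum E fun u v => z u v ^ 2] at h2
    rw [stAp_sum E fun u v => ((∑ w ∈ cn E u v, z u w) / c - stAv E z u) ^ 2, mul_pow]
    refine le_trans (sum_le_sum fun u _ => hs u (z u)) ?_
    rw [← mul_sum]
    exact mul_le_mul_of_nonneg_left h2 (sq_nonneg _)
  have h := stT_ball.add _ _ _ _ _ h1 (stT_ball.swap _ _ _ h1)
  refine stT_ball.mono _ _ _ _ _ _ (Subset.refl _) ?_ (le_of_eq (by ring)) h
  intro u v _
  congr 1
  unfold stR Lop
  rw [cn_comm E v u, sum_add_distrib, add_div]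
  ring

theorem stT_of_I {E : Ed n} {a : ℝ} {z : Fin n → Fin n → ℝ} (ha : 0 ≤ a) (hz : StI E z a) :
    StT E z (n * a) := by
  refine ⟨by positivity, ?_⟩
  have h1 : ∑ q ∈ stAp E, z q.1 q.2 ^ 2 ≤ ∑ _q ∈ stAp E, a ^ 2 :=
    sum_le_sum fun q hq => by
      rw [← sq_abs]
      exact pow_le_pow_left₀ (abs_nonneg _) (hz _ _ (mem_stAp.1 hq)) 2
  refine h1.trans ?_
  rw [sum_const, nsmul_eq_mul, mul_pow]
  refine mul_le_mul_of_nonneg_right ?_ (sq_nonneg _)
  have := card_le_univ (stAp E)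
  rw [Fintype.card_prod, Fintype.card_fin, ← sq] at this
  exact_mod_cast this

theorem stI_of_T {E : Ed n} {a : ℝ} {z : Fin n → Fin n → ℝ} (hz : StT E z a) : StI E z a := by
  intro u v h
  refine abs_le.2 (abs_le_of_sq_le_sq' (le_trans ?_ hz.2) hz.1)
  exact single_le_sum (f := fun q : Fin n × Fin n => z q.1 q.2 ^ 2) (fun _ _ => sq_nonneg _)
    (mem_stAp.2 h : (u, v) ∈ stAp E)

/-- Linear stability. Put `B = σ + 2σ²`, `Π_j z (u,v) = a_u + a_v` with `a_u` the average of `z u ·` over `nb (E j) u`,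
`R_j = L_j - Π_j`. Let `𝒯 g` be the solution of `z 0 = 0`, `z (j+1) = z j - r j (Π_j (z j) + g j)` (define it on all pairs).
Two families of seminorms: the sup over adjacent ordered pairs of `E j`, and the `ℓ²` norm over adjacent ordered pairs
of `E j`. In both `sup_j ‖𝒯 g j‖_j ≤ B sup_j ‖g j‖_j`: on pairs adjacent at time `j`, `z j (u,v) = -b j u - b j v - G j (u,v)` with
`G j = ∑_{i<j} r i g i`, `b j u = ∑_{i<j} r i a_u(i)`, and
`b (j+1) u = (1 - r) b j u - r avg_{w ∈ nb u} b j w - r avg_{w ∈ nb u} G j (u,w)` (if `nb u` is nonempty, else unchanged), so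
the norm of `b` (sup, resp. `ℓ²` with weights `deg`, which decrease in time) grows by at most `r j ‖G j‖ ≤ r j σ ‖g‖`.
`‖L‖_∞ ≤ 4`, `‖R‖_∞ ≤ 6`, `‖R‖_2 ≤ 2η` (`Spec`, `cn_comm`, symmetry of `adj`). With `y = x - N`: `y = 𝒯 (R y + L N)` on adjacent pairs, hence
`y = ∑_{i<k} (𝒯R)^i 𝒯 L N + (𝒯R)^k y`, and `‖(𝒯R)^k y‖_∞ ≤ ‖·‖_2 ≤ (2Bη)^k n ‖y‖_∞ ≤ ‖y‖_∞ / 2`. -/
theorem stab (E : ℕ → Ed n) (c r : ℕ → ℝ) (x N : ℕ → Fin n → Fin n → ℝ) (I k : ℕ) (σ η ν : ℝ)
    (hE : ∀ j, j < I → E (j + 1) ⊆ E j) (hc : ∀ j, j < I → 0 < c j)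
    (hr : ∀ j, j < I → 0 ≤ r j ∧ r j ≤ 1) (hσ : ∑ j ∈ range I, r j ≤ σ)
    (hcod : ∀ j, j < I → ∀ u v, adj (E j) u v → ((cn (E j) u v).card : ℝ) ≤ 2 * c j)
    (hspec : ∀ j, j < I → Spec (E j) (c j) η) (hη : 0 ≤ η)
    (h0 : ∀ u v, adj (E 0) u v → x 0 u v = N 0 u v)
    (hstep : ∀ j, j < I → ∀ u v, adj (E (j + 1)) u v →
      x (j + 1) u v = x j u v - r j * Lop (E j) (c j) (x j) u v + (N (j + 1) u v - N j u v))
    (hN : ∀ j, j ≤ I → ∀ u v, adj (E j) u v → |N j u v| ≤ ν)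
    (hgap : (2 * (σ + 2 * σ ^ 2) * η) ^ k * n ≤ 1 / 2) :
    ∀ u v, adj (E I) u v → |x I u v| ≤ Amp σ k * ν := by
  intro u₀ v₀ h₀
  have hν : 0 ≤ ν := (abs_nonneg _).trans (hN I le_rfl u₀ v₀ h₀)
  have hσ0 : 0 ≤ σ := le_trans (sum_nonneg fun i hi => (hr i (mem_range.1 hi)).1) hσ
  obtain ⟨B, hB⟩ : ∃ B, B = σ + 2 * σ ^ 2 := ⟨_, rfl⟩
  have hB0 : 0 ≤ B := by rw [hB]; positivity
  obtain ⟨y, hy⟩ : ∃ y : ℕ → Fin n → Fin n → ℝ, ∀ j u v, y j u v = x j u v - N j u v :=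
    ⟨_, fun _ _ _ => rfl⟩
  have hys : StSol E r I y fun j u v => stR (E j) (c j) (y j) u v + Lop (E j) (c j) (N j) u v := by
    refine ⟨fun u v h => by rw [hy, h0 u v h, sub_self], fun j hj u v h => ?_⟩
    have e : y j = fun u v => x j u v - N j u v := by
      ext u v
      exact hy j u v
    have e2 : Lop (E j) (c j) (y j) u v = Lop (E j) (c j) (x j) u v - Lop (E j) (c j) (N j) u v := by
      rw [e, stLop_sub]
    simp only [stR]
    rw [hy (j + 1), hstep j hj u v h, e2, hy j u v]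
    ring
  choose T hT using stSol_exists E r I
  obtain ⟨w, hw0, hw⟩ : ∃ w : ℕ → ℕ → Fin n → Fin n → ℝ, w 0 = y ∧
      ∀ i, StSol E r I (w (i + 1)) fun j => stR (E j) (c j) (w i j) :=
    ⟨fun i => Nat.rec (motive := fun _ => ℕ → Fin n → Fin n → ℝ) y
      (fun _ z => T fun j => stR (E j) (c j) (z j)) i, rfl, fun i => hT _⟩
  have hd : ∀ i j, j ≤ I → StI (E j) (fun u v => w i j u v - w (i + 1) j u v)
      ((6 * B + 1) ^ i * (B * (4 * ν))) := by
    intro i
    induction i with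
    | zero =>
      have h1 : StSol E r I (fun j u v => w 0 j u v - w 1 j u v) fun j => Lop (E j) (c j) (N j) := by
        have h2 := hw 0
        rw [hw0] at h2 ⊢
        exact stSol_sub hys h2 fun j u v => by ring
      have h3 := stSol_bound stI_ball hE hr hσ (by positivity : 0 ≤ 4 * ν) h1 fun j hj =>
        stLop_le (hc j hj) hν (hcod j hj) (hN j hj.le)
      intro j hj
      rw [pow_zero, one_mul, hB]
      exact h3 j hj
    | succ i ih =>
      have h1 : StSol E r I (fun j u v => w (i + 1) j u v - w (i + 1 + 1) j u v)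
          fun j => stR (E j) (c j) fun u v => w i j u v - w (i + 1) j u v :=
        stSol_sub (hw i) (hw (i + 1)) fun j u v => stR_sub _ _ _ _ _ _
      have h3 := stSol_bound stI_ball hE hr hσ
        (by positivity : 0 ≤ 6 * ((6 * B + 1) ^ i * (B * (4 * ν)))) h1 fun j hj =>
        stR_le (hc j hj) (by positivity) (hcod j hj) (ih j hj.le)
      intro j hj u v h
      refine (h3 j hj u v h).trans ?_
      rw [← hB, pow_succ]
      have : 0 ≤ (6 * B + 1) ^ i * (B * (4 * ν)) := by positivity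
      linarith [show (6 * B + 1) ^ i * (6 * B + 1) * (B * (4 * ν)) =
        B * (6 * ((6 * B + 1) ^ i * (B * (4 * ν)))) + (6 * B + 1) ^ i * (B * (4 * ν)) by ring]
  have hsum : ∀ i j, j ≤ I → ∀ u v, adj (E j) u v →
      |y j u v - w i j u v| ≤ i * ((6 * B + 1) ^ i * (B * (4 * ν))) := by
    intro i j hj u v h
    induction i with
    | zero => simp [hw0]
    | succ i ih =>
      have h1 := hd i j hj u v h
      have h2 : (6 * B + 1) ^ i * (B * (4 * ν)) ≤ (6 * B + 1) ^ (i + 1) * (B * (4 * ν)) :=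
        mul_le_mul_of_nonneg_right (pow_le_pow_right₀ (by linarith) (Nat.le_succ i)) (by positivity)
      have h3 := mul_le_mul_of_nonneg_left h2 (Nat.cast_nonneg (α := ℝ) i)
      have h4 := abs_sub_le (y j u v) (w i j u v) (w (i + 1) j u v)
      push_cast
      linarith
  obtain ⟨q, hq, hM⟩ := exists_max_image
    ((range (I + 1) ×ˢ (univ : Finset (Fin n × Fin n))).filter fun q => adj (E q.1) q.2.1 q.2.2)
    (fun q => |y q.1 q.2.1 q.2.2|) ⟨(I, u₀, v₀), by simpa using h₀⟩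
  obtain ⟨M, hMq⟩ : ∃ M, M = |y q.1 q.2.1 q.2.2| := ⟨_, rfl⟩
  have hM0 : 0 ≤ M := by rw [hMq]; exact abs_nonneg _
  have hM' : ∀ j, j ≤ I → StI (E j) (y j) M := fun j hj u v h => by
    rw [hMq]
    exact hM (j, u, v) (by simpa [Nat.lt_succ_iff, hj] using h)
  have htwo : ∀ i j, j ≤ I → StT (E j) (w i j) ((2 * B * η) ^ i * (n * M)) := by
    intro i
    induction i with
    | zero =>
      intro j hj
      rw [pow_zero, one_mul, hw0]
      exact stT_of_I hM0 (hM' j hj)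
    | succ i ih =>
      have h3 := stSol_bound stT_ball hE hr hσ
        (by positivity : 0 ≤ 2 * η * ((2 * B * η) ^ i * (n * M))) (hw i) fun j hj =>
        stR_two (hspec j hj) hη (ih j hj.le)
      intro j hj
      have h4 := h3 j hj
      rw [← hB] at h4
      convert h4 using 1
      ring
  rw [mem_filter, mem_product, mem_range, Nat.lt_succ_iff] at hq
  have h1 := hsum k q.1 hq.1.1 _ _ hq.2
  have h2 := stI_of_T (htwo k q.1 hq.1.1) _ _ hq.2
  rw [← hB] at hgap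
  have h3 := mul_le_mul_of_nonneg_right hgap hM0
  have h4 := abs_add_le (y q.1 q.2.1 q.2.2 - w k q.1 q.2.1 q.2.2) (w k q.1 q.2.1 q.2.2)
  rw [sub_add_cancel, ← hMq] at h4
  have h5 := hM' I le_rfl u₀ v₀ h₀
  have h6 := hN I le_rfl u₀ v₀ h₀
  have h7 := abs_add_le (y I u₀ v₀) (N I u₀ v₀)
  rw [hy, sub_add_cancel, ← hy] at h7
  unfold Amp
  rw [← hB]
  linarith [show (1 + 8 * k * B * (6 * B + 1) ^ k) * ν =
    ν + 2 * (k * ((6 * B + 1) ^ k * (B * (4 * ν)))) by ring, mul_assoc ((2 * B * η) ^ k) n M]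

end Crest.Agent.R30
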