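import Crest.Agent.R30.Scal
import Crest.Agent.R30.Stab
import Crest.Agent.R30.Spec
import Crest.Agent.R30.Chain
set_option autoImplicit false

noncomputable section

namespace Crest.Agent.R30

open Finset Crest.CombinatoricsR.TriangleRemoval

variable {n : ℕ}

/-- One step of the relative codegree error (exact). With `r = cb l / Q`, `c = |cn|`:
`xx (t :: l) = (c + xi) / (cb l (1 - 2r)) - 1`, and by `sum_xi` the mean of `xi` is `-2 r c - r (cb l) L xx + 2c/Q`. -/
theorem xx_step {l : Hs n} {t : Finset (Fin n)} {u v : Fin n} (hQ : 0 < Qn (gr l)) (hc : 0 < cb l)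
    (hr : cb l / Qn (gr l) < 1 / 2) (ha : adj (gr (t :: l)) u v) :
    xx (t :: l) u v = xx l u v - (cb l / Qn (gr l)) / (1 - 2 * (cb l / Qn (gr l))) * Lop (gr l) (cb l) (xx l) u v +
      ((Mt u v (t :: l) - Mt u v l) + 2 * (1 + xx l u v) / (Qn (gr l) * (1 - 2 * (cb l / Qn (gr l))))) := by
  have ha' : adj (gr l \ t.sym2) u v := ha
  rw [adj_sdiff] at ha'
  have hx : xi (gr l) u v t = ((cn (gr l \ t.sym2) u v).card : ℝ) - (cn (gr l) u v).card := by
    simp only [xi, if_neg ha'.2]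
  have hS := sum_xi ha'.1
  have h1 : (1 : ℝ) - 2 * (cb l / Qn (gr l)) ≠ 0 := by linarith
  have hL : ∑ w ∈ cn (gr l) u v, (xx l u w + xx l v w) =
      (∑ w ∈ cn (gr l) u v, (((cn (gr l) u w).card : ℝ) + (cn (gr l) v w).card)) / cb l -
        2 * (cn (gr l) u v).card := by
    rw [sum_div, card_eq_sum_ones (cn (gr l) u v), Nat.cast_sum, mul_sum, ← sum_sub_distrib]
    refine sum_congr rfl fun w _ => ?_
    simp only [xx, Nat.cast_one]
    ring
  have hS' : ∑ w ∈ cn (gr l) u v, (((cn (gr l) u w).card : ℝ) + (cn (gr l) v w).card - 2) =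
      (∑ w ∈ cn (gr l) u v, (((cn (gr l) u w).card : ℝ) + (cn (gr l) v w).card)) -
        2 * (cn (gr l) u v).card := by
    rw [sum_sub_distrib, sum_const, nsmul_eq_mul]
    ring
  have hM : Mt u v (t :: l) - Mt u v l = (xi (gr l) u v t - (Qn (gr l))⁻¹ *
      ∑ t' ∈ triangles (gr l), xi (gr l) u v t') / (cb l * (1 - 2 * (cb l / Qn (gr l)))) := by
    simp only [Mt, if_pos ha'.1, cb]
    ring
  have hX : xx (t :: l) u v = ((cn (gr l \ t.sym2) u v).card : ℝ) /
      (cb l * (1 - 2 * (cb l / Qn (gr l)))) - 1 := rfl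
  rw [hM, hX, hS, hS', hx, Lop, hL, xx]
  generalize (∑ w ∈ cn (gr l) u v, (((cn (gr l) u w).card : ℝ) + (cn (gr l) v w).card)) = S
  generalize ((cn (gr l \ t.sym2) u v).card : ℝ) = c'
  generalize ((cn (gr l) u v).card : ℝ) = c
  have hq : (Qn (gr l))⁻¹ = cb l / Qn (gr l) / cb l := by field_simp
  have hq' : 2 * (1 + (c / cb l - 1)) / (Qn (gr l) * (1 - 2 * (cb l / Qn (gr l)))) =
      2 * (c / cb l) * (cb l / Qn (gr l) / cb l) / (1 - 2 * (cb l / Qn (gr l))) := by
    rw [← hq]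
    field_simp
    ring
  rw [hq', hq]
  generalize cb l / Qn (gr l) = r at h1 ⊢
  field_simp
  ring

/-- the history built from a sequence of triangles -/
def sqH (t : ℕ → Finset (Fin n)) : ℕ → Hs n
  | 0 => []
  | j + 1 => t j :: sqH t j

theorem sqH_length (t : ℕ → Finset (Fin n)) (j : ℕ) : (sqH t j).length = j := by
  induction j with
  | zero => rfl
  | succ j ih => simp [sqH, ih]

theorem sqH_congr {t t' : ℕ → Finset (Fin n)} {m : ℕ} (h : ∀ j, j < m → t j = t' j) :
    sqH t m = sqH t' m := by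
  induction m with
  | zero => rfl
  | succ m ih => rw [sqH, sqH, h m (Nat.lt_succ_self m), ih fun j hj => h j (Nat.lt_succ_of_lt hj)]

theorem exists_sqH (l : Hs n) : ∃ t, sqH t l.length = l := by
  induction l with
  | nil => exact ⟨fun _ => ∅, rfl⟩
  | cons a l ih =>
    obtain ⟨t, ht⟩ := ih
    refine ⟨Function.update t l.length a, ?_⟩
    rw [List.length_cons, sqH, Function.update_self,
      sqH_congr (t' := t) fun j hj => Function.update_of_ne hj.ne _ _, ht]

theorem sqH_down {t : ℕ → Finset (Fin n)} {G : Hs n → Prop} (hG : ∀ a l, G (a :: l) → G l) {j m : ℕ}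
    (hj : j ≤ m) (h : G (sqH t m)) : G (sqH t j) := by
  induction m, hj using Nat.le_induction with
  | base => exact h
  | succ m _ ih => exact ih (hG _ _ h)

theorem Good.head {P : Par} {l : Hs n} (h : Good P l) : Mart P l ∧ Up P l := by
  cases l with
  | nil => exact h
  | cons a l => exact h.2

/-- the rate and the drift term at a regular history -/
theorem Reg.boot_aux {P : Par} (hP : Ok n P) {l : Hs n} (hl : l.length ≤ P.I) (h : Reg P l) :
    0 < cb l ∧ cb l / Qn (gr l) < 1 / 2 ∧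
      0 ≤ cb l / Qn (gr l) / (1 - 2 * (cb l / Qn (gr l))) ∧
      cb l / Qn (gr l) / (1 - 2 * (cb l / Qn (gr l))) ≤ 1 ∧
      cb l / Qn (gr l) / (1 - 2 * (cb l / Qn (gr l))) ≤ 4 * (3 / mm n l.length) ∧
      ∀ u v, adj (gr l) u v →
        |2 * (1 + xx l u v) / (Qn (gr l) * (1 - 2 * (cb l / Qn (gr l))))| ≤
          16 / P.Dm * (3 / mm n l.length) := by
  obtain ⟨hQ, -, -, h4⟩ := h.rate hP hl
  have hD := h.Dm_le hP hl
  have h16 := hP.Dm16
  have hρ := hP.rho_le hl
  have hζ := hP.ζle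
  have hc : 0 < cb l := by linarith
  have h0 : 0 ≤ cb l / Qn (gr l) := (div_pos hc hQ).le
  have hq : (Qn (gr l))⁻¹ ≤ 2 * (3 / mm n l.length) / P.Dm := by
    have e : (Qn (gr l))⁻¹ = cb l / Qn (gr l) / cb l := by field_simp
    rw [e]
    exact div_le_div₀ (h0.trans h4) h4 (by linarith) hD
  generalize cb l / Qn (gr l) = r at h0 h4 ⊢
  generalize 3 / mm n l.length = ρ at h4 hρ hq ⊢
  have h1 : 1 / 2 ≤ 1 - 2 * r := by linarith
  have h2 : r / (1 - 2 * r) ≤ 2 * r := by
    rw [div_le_iff₀ (by linarith)]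
    nlinarith
  refine ⟨hc, by linarith, div_nonneg h0 (by linarith), by linarith, by linarith, fun u v ha => ?_⟩
  have hx := abs_le.1 (h.small u v ha)
  rw [abs_of_nonneg (div_nonneg (by linarith) (mul_nonneg hQ.le (by linarith)))]
  calc 2 * (1 + xx l u v) / (Qn (gr l) * (1 - 2 * r)) ≤ 4 / (Qn (gr l) * (1 / 2)) :=
        div_le_div₀ (by norm_num) (by linarith) (by positivity)
          (mul_le_mul_of_nonneg_left h1 hQ.le)
    _ = 8 * (Qn (gr l))⁻¹ := by field_simp; norm_num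
    _ ≤ 8 * (2 * ρ / P.Dm) := by linarith
    _ = _ := by ring

theorem reg_sqH {P : Par} (hP : Ok n P) (t : ℕ → Finset (Fin n)) (m : ℕ) (hR : Reach (sqH t m))
    (hm : m ≤ P.I) (hG : Good P (sqH t m)) : Reg P (sqH t m) := by
  induction m using Nat.strong_induction_on with
  | _ m ih =>
  have hRj : ∀ j, j ≤ m → Reach (sqH t j) := fun j hj => sqH_down (fun _ _ h => h.1) hj hR
  have hGj : ∀ j, j ≤ m → Good P (sqH t j) := fun j hj => sqH_down (fun _ _ h => h.1) hj hG
  have hreg : ∀ j, j < m → Reg P (sqH t j) := fun j hj =>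
    ih j hj (hRj j hj.le) (hj.le.trans hm) (hGj j hj.le)
  have hlen : ∀ j, j < m → (sqH t j).length ≤ P.I := fun j hj => by
    rw [sqH_length]
    exact hj.le.trans hm
  have haux := fun j hj => (hreg j hj).boot_aux hP (hlen j hj)
  simp only [sqH_length] at haux
  have hn : (3 : ℝ) ≤ n := by exact_mod_cast hP.n3
  have hcard : ((gr (sqH t m)).card : ℝ) = mm n m := by
    cases m with
    | zero => simpa [sqH, gr, mm] using card_allEdges (n := n)
    | succ j =>
      have hj := hreg j (Nat.lt_succ_self j)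
      have hQ := (hj.rate hP (hlen j (Nat.lt_succ_self j))).1
      have ht : t j ∈ triangles (gr (sqH t j)) := by
        rcases hR.2 with h | h
        · exact h
        · rw [Qn, h.2] at hQ
          simp at hQ
      have := card_sdiff_tri (gr_sub _) ht
      rw [hj.card, sqH_length] at this
      rw [mm_succ]
      exact this
  have hrange := hP.cb_range hm (fun j => cb (sqH t j) / Qn (gr (sqH t j))) (fun j => cb (sqH t j))
    rfl (fun _ _ => rfl) fun j hj => by
      have := (hreg j hj).rate hP (hlen j hj)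
      rw [sqH_length] at this
      exact ⟨this.2.1, this.2.2.1⟩
  have hadj : ∀ i j, i ≤ j → ∀ u v, adj (gr (sqH t j)) u v → adj (gr (sqH t i)) u v :=
    fun i j hij u v h => sqH_down (G := fun l => adj (gr l) u v)
      (fun _ _ h => adj_mono sdiff_subset h) hij h
  have hsmall : ∀ u v, adj (gr (sqH t m)) u v → |xx (sqH t m) u v| ≤ P.ζ := by
    intro u v ha
    refine le_trans (stab (fun j => gr (sqH t j)) (fun j => cb (sqH t j))
      (fun j => cb (sqH t j) / Qn (gr (sqH t j)) / (1 - 2 * (cb (sqH t j) / Qn (gr (sqH t j)))))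
      (fun j => xx (sqH t j))
      (fun j u v => Mt u v (sqH t j) + ∑ i ∈ range j, 2 * (1 + xx (sqH t i) u v) /
        (Qn (gr (sqH t i)) * (1 - 2 * (cb (sqH t i) / Qn (gr (sqH t i))))))
      m P.k' (4 * P.Λ) P.η (P.ζ0 + 16 * P.Λ / P.Dm) (fun _ _ => sdiff_subset)
      (fun j hj => (haux j hj).1) (fun j hj => ⟨(haux j hj).2.2.1, (haux j hj).2.2.2.1⟩) ?_
      (fun j hj u v h => ((hreg j hj).cod hP (hlen j hj) h).2) (fun j hj => (hreg j hj).spec)
      (hP.ζpos.le.trans hP.ζη) ?_ ?_ ?_ hP.gap u v ha) hP.amp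
    · refine (sum_le_sum fun j hj => (haux j (mem_range.1 hj)).2.2.2.2.1).trans ?_
      rw [← mul_sum]
      linarith [hP.sum_rho hm]
    · intro u v h
      have e : xx (sqH t 0) u v = ((cn (allEdges n) u v).card : ℝ) / ((n : ℝ) - 2) - 1 := rfl
      rw [e, cn_allEdges h.1, div_self (by linarith)]
      simp [sqH, Mt]
    · intro j hj u v h
      have e := xx_step (t := t j) ((hreg j hj).rate hP (hlen j hj)).1 (haux j hj).1
        (haux j hj).2.1 h
      rw [sum_range_succ]
      change xx (t j :: sqH t j) u v = _ - _ + (Mt u v (t j :: sqH t j) + _ - _)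
      rw [e]
      ring
    · intro j hj u v h
      refine (abs_add_le _ _).trans (add_le_add ((hGj j hj).head.1 u v) ?_)
      refine (abs_sum_le_sum_abs _ _).trans ((sum_le_sum fun i hi =>
        (haux i ((mem_range.1 hi).trans_le hj)).2.2.2.2.2 u v
          (hadj i j (mem_range.1 hi).le u v h)).trans ?_)
      rw [← mul_sum]
      have := mul_le_mul_of_nonneg_left (hP.sum_rho (hj.trans hm))
        (show 0 ≤ 16 / P.Dm from div_nonneg (by norm_num) (by linarith [hP.Dm16]))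
      calc _ ≤ _ := this
        _ = _ := by ring
  obtain ⟨hp0, hp1, -⟩ := hP.pp_bounds hm
  obtain ⟨hh0, -, hh1⟩ := hP.ph_bounds hm
  have hpp : 0 < pp n m := hp0.trans_le hp1
  have hph : 0 < ph n P.ζ m := hpp.trans_le hh0
  have hn2 : (0 : ℝ) < n - 2 := by linarith
  have hc : 0 < cb (sqH t m) := lt_of_lt_of_le (by positivity) hrange.1
  have hκ : 0 < 1 + P.κ := by linarith [hP.κpos]
  refine ⟨by rw [sqH_length]; exact hcard, hsmall, ?_, by rw [sqH_length]; exact hrange.1,
    by rw [sqH_length]; exact hrange.2⟩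
  have hU := hG.head.2
  rw [Up, sqH_length] at hU
  refine spec_of_up _ _ P.ζ P.η _ _ P.l hc hP.ζpos.le (by linarith [hP.ζle]) hP.ζη
    (by positivity) hsmall hU.1 hU.2 ?_
  change _ - _ ^ P.k ≤ _ ^ P.k
  have hk : 1 ≤ P.k := Nat.one_le_two_pow
  have e1 : (1 + P.κ) * ((n : ℝ) ^ (P.k - 1) * ph n P.ζ m ^ (2 * P.k - 1)) *
      ((1 + P.κ) * (n * ph n P.ζ m)) = (1 + P.κ) ^ 2 * (n * ph n P.ζ m ^ 2) ^ P.k := by
    obtain ⟨k, hk'⟩ := Nat.exists_eq_add_of_le' hk
    rw [hk', Nat.add_sub_cancel, show 2 * (k + 1) - 1 = 2 * k + 1 by omega]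
    ring
  have e2 : n * ph n P.ζ m ^ 2 ≤ Real.exp (3 * P.θ) * n / (n - 2) * cb (sqH t m) := by
    have a1 : ph n P.ζ m ^ 2 ≤ (Real.exp P.θ * pp n m) ^ 2 := pow_le_pow_left₀ hph.le hh1 2
    have a2 := mul_le_mul_of_nonneg_left hrange.1
      (show 0 ≤ Real.exp (3 * P.θ) * n / (n - 2) by positivity)
    have a3 : Real.exp (3 * P.θ) * n / (n - 2) * (Real.exp (-P.θ) * (n - 2) * pp n m ^ 2) =
        n * (Real.exp P.θ * pp n m) ^ 2 := by
      rw [show 3 * P.θ = P.θ + P.θ + P.θ by ring, Real.exp_add, Real.exp_add, Real.exp_neg]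
      field_simp
    have a4 := mul_le_mul_of_nonneg_left a1 (show (0 : ℝ) ≤ n by positivity)
    linarith
  have e3 := mul_le_mul_of_nonneg_left (pow_le_pow_left₀ (by positivity) e2 P.k) (sq_nonneg (1 + P.κ))
  have e4 := mul_le_mul_of_nonneg_right hP.spec (pow_pos hc P.k).le
  rw [e1, mul_pow (1 - P.ζ), mul_pow (P.η - P.ζ)]
  rw [mul_pow _ (cb (sqH t m))] at e3
  linarith

/-- The bootstrap. Strong induction on `l` (all suffixes of `l` are reachable and good). `card`: `card_sdiff_tri`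
(there are triangles by `Reg.rate`). `lo`, `hi`: `Ok.cb_range` for the suffixes `l.drop (l.length - j)`.
`small`: `stab` with `σ = 4Λ`, `r j = r/(1-2r) ≤ 2r ≤ 4ρ_j`, `N = Mt + ∑ 2(1+xx)/(Q(1-2r))`, each drift term is
`≤ 8/Q ≤ 16 ρ_j / Dm`, then `Ok.amp`, `Ok.gap`. `spec`: `spec_of_up` with `β d = (1+κ)² (n ph²)^k`,
`n ph² ≤ exp(2θ) n pp² ≤ exp(3θ) n/(n-2) cb`, and `Ok.spec`. -/
theorem reg_of_good {P : Par} (hP : Ok n P) (l : Hs n) (hR : Reach l) (hl : l.length ≤ P.I) (hG : Good P l) :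
    Reg P l := by
  obtain ⟨t, ht⟩ := exists_sqH l
  rw [← ht] at hR hG ⊢
  exact reg_sqH hP t _ hR hl hG

end Crest.Agent.R30
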