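import Crest.Agent.R30.Defs
set_option autoImplicit false

noncomputable section

namespace Crest.Agent.R30

open Finset Crest.CombinatoricsR.TriangleRemoval

variable {n : ℕ}

variable {ι : Type*} [DecidableEq ι]

theorem ext_lt (J : Finset ι) {N : ℕ} (hN : 0 < N) (ω : J → Fin N) (a : ι) : ext J ω a < N := by
  unfold ext
  split_ifs with h
  · exact (ω ⟨a, h⟩).2
  · exact hN

theorem EJ_add (J : Finset ι) (N : ℕ) (φ ψ : (ι → ℕ) → ℝ) :
    EJ J N (fun ω => φ ω + ψ ω) = EJ J N φ + EJ J N ψ := by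
  unfold EJ
  rw [sum_add_distrib, add_div]

theorem EJ_const_mul (J : Finset ι) (N : ℕ) (c : ℝ) (φ : (ι → ℕ) → ℝ) :
    EJ J N (fun ω => c * φ ω) = c * EJ J N φ := by
  unfold EJ
  rw [← mul_sum, mul_div_assoc]

theorem EJ_sum {α : Type*} (J : Finset ι) (N : ℕ) (s : Finset α) (φ : α → (ι → ℕ) → ℝ) :
    EJ J N (fun ω => ∑ a ∈ s, φ a ω) = ∑ a ∈ s, EJ J N (φ a) := by
  unfold EJ
  rw [sum_comm, sum_div]

theorem EJ_const (J : Finset ι) {N : ℕ} (hN : 0 < N) (c : ℝ) : EJ J N (fun _ => c) = c := by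
  unfold EJ
  have h : ((N : ℝ)) ^ J.card ≠ 0 := pow_ne_zero _ (by exact_mod_cast hN.ne')
  rw [sum_const, card_univ, Fintype.card_fun, Fintype.card_fin, Fintype.card_coe, nsmul_eq_mul]
  push_cast
  field_simp

theorem EJ_mono (J : Finset ι) {N : ℕ} (hN : 0 < N) {φ ψ : (ι → ℕ) → ℝ}
    (h : ∀ ω, (∀ a, ω a < N) → φ ω ≤ ψ ω) : EJ J N φ ≤ EJ J N ψ := by
  unfold EJ
  have h' : (0 : ℝ) ≤ ((N : ℝ)) ^ J.card := by positivity
  exact div_le_div_of_nonneg_right (sum_le_sum fun ω _ => h _ (ext_lt J hN ω)) h'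

theorem EJ_congr (J : Finset ι) {N : ℕ} (hN : 0 < N) {φ ψ : (ι → ℕ) → ℝ}
    (h : ∀ ω, (∀ a, ω a < N) → φ ω = ψ ω) : EJ J N φ = EJ J N ψ :=
  le_antisymm (EJ_mono J hN fun ω hω => (h ω hω).le) (EJ_mono J hN fun ω hω => (h ω hω).ge)

omit [DecidableEq ι] in
theorem Dep.mono {φ : (ι → ℕ) → ℝ} {A B : Set ι} (h : Dep φ A) (hAB : A ⊆ B) : Dep φ B :=
  fun ω ω' hω => h ω ω' fun a ha => hω a (hAB ha)

/-- independence (swap the coordinates in `A` between two independent copies) -/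
theorem EJ_mul (J : Finset ι) {N : ℕ} (hN : 0 < N) {φ ψ : (ι → ℕ) → ℝ} {A B : Set ι} (hφ : Dep φ A)
    (hψ : Dep ψ B) (hAB : Disjoint A B) : EJ J N (fun ω => φ ω * ψ ω) = EJ J N φ * EJ J N ψ := by
  classical
  have hp : ((N : ℝ)) ^ J.card ≠ 0 := pow_ne_zero _ (by exact_mod_cast hN.ne')
  let m : (J → Fin N) → (J → Fin N) → (J → Fin N) := fun ω ω' a => if (a : ι) ∈ A then ω a else ω' a
  let σ : (J → Fin N) × (J → Fin N) → (J → Fin N) × (J → Fin N) := fun q => (m q.1 q.2, m q.2 q.1)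
  have hσ : Function.Involutive σ := by
    rintro ⟨ω, ω'⟩
    refine Prod.ext ?_ ?_ <;> funext a <;> by_cases h : (a : ι) ∈ A <;> simp [σ, m, h]
  have h1 : ∀ ω ω' : J → Fin N, φ (ext J (m ω ω')) = φ (ext J ω) := by
    intro ω ω'
    refine hφ _ _ fun a ha => ?_
    unfold ext
    split_ifs with h
    · simp [m, ha]
    · rfl
  have h2 : ∀ ω ω' : J → Fin N, ψ (ext J (m ω ω')) = ψ (ext J ω') := by
    intro ω ω'
    refine hψ _ _ fun a ha => ?_
    have ha' : a ∉ A := fun h => Set.disjoint_left.1 hAB h ha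
    unfold ext
    split_ifs with h
    · simp [m, ha']
    · rfl
  have key : (∑ ω : J → Fin N, φ (ext J ω)) * (∑ ω : J → Fin N, ψ (ext J ω)) =
      (∑ ω : J → Fin N, φ (ext J ω) * ψ (ext J ω)) * (N : ℝ) ^ J.card := by
    have e1 : (∑ ω : J → Fin N, φ (ext J ω)) * (∑ ω : J → Fin N, ψ (ext J ω)) =
        ∑ q : (J → Fin N) × (J → Fin N), φ (ext J (σ q).1) * ψ (ext J (σ q).1) := by
      rw [sum_mul_sum, ← univ_product_univ, sum_product]
      refine sum_congr rfl fun ω _ => sum_congr rfl fun ω' _ => ?_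
      simp only [σ]
      rw [h1, h2]
    have e2 : ∑ q : (J → Fin N) × (J → Fin N), φ (ext J (σ q).1) * ψ (ext J (σ q).1) =
        ∑ q : (J → Fin N) × (J → Fin N), φ (ext J q.1) * ψ (ext J q.1) :=
      Equiv.sum_comp hσ.toPerm (fun q => φ (ext J q.1) * ψ (ext J q.1))
    rw [e1, e2, ← univ_product_univ, sum_product, sum_mul]
    refine sum_congr rfl fun ω _ => ?_
    dsimp only
    rw [sum_const, card_univ, Fintype.card_fun, Fintype.card_fin, Fintype.card_coe, nsmul_eq_mul]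
    push_cast
    ring
  unfold EJ
  rw [div_mul_div_comm, key]
  field_simp

theorem EJ_prod {α : Type*} (J : Finset ι) {N : ℕ} (hN : 0 < N) (s : Finset α) (φ : α → (ι → ℕ) → ℝ)
    (A : α → Set ι) (hφ : ∀ a ∈ s, Dep (φ a) (A a))
    (hA : ∀ a ∈ s, ∀ b ∈ s, a ≠ b → Disjoint (A a) (A b)) :
    EJ J N (fun ω => ∏ a ∈ s, φ a ω) = ∏ a ∈ s, EJ J N (φ a) := by
  classical
  induction s using Finset.induction_on with
  | empty => simpa using EJ_const J hN 1
  | insert b s hb ih =>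
    simp only [prod_insert hb]
    have hd : Dep (fun ω => ∏ a ∈ s, φ a ω) (⋃ a ∈ s, A a) := by
      intro ω ω' h
      refine prod_congr rfl fun a ha => hφ a (mem_insert_of_mem ha) _ _ fun x hx => h x ?_
      exact Set.mem_biUnion (mem_coe.2 ha) hx
    have hdis : Disjoint (A b) (⋃ a ∈ s, A a) := by
      rw [Set.disjoint_iUnion₂_right]
      intro a ha
      exact hA b (mem_insert_self _ _) a (mem_insert_of_mem ha) (fun h => hb (h ▸ ha))
    rw [EJ_mul J hN (hφ b (mem_insert_self _ _)) hd hdis,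
      ih (fun a ha => hφ a (mem_insert_of_mem ha))
        (fun a ha c hc => hA a (mem_insert_of_mem ha) c (mem_insert_of_mem hc))]

theorem EJ_coord (J : Finset ι) {N : ℕ} (hN : 0 < N) {a : ι} (ha : a ∈ J) (f : ℕ → ℝ) :
    EJ J N (fun ω => f (ω a)) = (∑ t ∈ range N, f t) / N := by
  classical
  have hN' : (N : ℝ) ≠ 0 := by exact_mod_cast hN.ne'
  have hp : ((N : ℝ)) ^ J.card ≠ 0 := pow_ne_zero _ hN'
  let a' : J := ⟨a, ha⟩
  have h := Finset.prod_univ_sum (fun _ : J => (univ : Finset (Fin N)))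
    (fun (i : J) (j : Fin N) => if i = a' then f j else (1 : ℝ))
  rw [Fintype.piFinset_univ] at h
  have e1 : ∑ ω : J → Fin N, f (ext J ω a) =
      ∑ ω : J → Fin N, ∏ i : J, (if i = a' then f (ω i) else (1 : ℝ)) := by
    refine sum_congr rfl fun ω _ => ?_
    rw [prod_ite_eq' univ a' (fun i => f (ω i))]
    simp [ext, ha, a']
  have e2 : ∏ i : J, ∑ j : Fin N, (if i = a' then f j else (1 : ℝ)) =
      (∑ t ∈ range N, f t) * (N : ℝ) ^ (J.card - 1) := by
    rw [← mul_prod_erase univ _ (mem_univ a')]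
    congr 1
    · simp only [if_true]
      exact Fin.sum_univ_eq_sum_range f N
    · rw [prod_congr rfl (g := fun _ => (N : ℝ))]
      · rw [prod_const, card_erase_of_mem (mem_univ _), card_univ, Fintype.card_coe]
      · intro i hi
        simp [ne_of_mem_erase hi]
  have hc : J.card = (J.card - 1) + 1 := (Nat.sub_add_cancel (card_pos.2 ⟨a, ha⟩)).symm
  unfold EJ
  rw [e1, ← h, e2]
  conv_lhs => rw [hc, Nat.add_sub_cancel, pow_succ]
  field_simp

/-- conditioning on one clock -/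
theorem EJ_cond (J : Finset ι) {N : ℕ} (hN : 0 < N) {a : ι} (ha : a ∈ J) (F : ℕ → (ι → ℕ) → ℝ) (A : Set ι)
    (hF : ∀ t, Dep (F t) A) (haA : a ∉ A) :
    EJ J N (fun ω => F (ω a) ω) = (∑ t ∈ range N, EJ J N (F t)) / N := by
  have h1 : EJ J N (fun ω => F (ω a) ω) = EJ J N (fun ω => ∑ t ∈ range N, ind (ω a = t) * F t ω) := by
    refine EJ_congr J hN fun ω hω => ?_
    rw [sum_eq_single (ω a)]
    · rw [ind_pos rfl, one_mul]
    · intro t _ ht
      rw [ind_neg (fun h => ht h.symm), zero_mul]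
    · intro h
      exact absurd (mem_range.2 (hω a)) h
  rw [h1, EJ_sum, sum_div]
  refine sum_congr rfl fun t ht => ?_
  have hd : Dep (fun ω : ι → ℕ => ind (ω a = t)) {a} := by
    intro ω ω' h
    simp only [h a rfl]
  rw [EJ_mul J hN hd (hF t) (Set.disjoint_singleton_left.2 haA), EJ_coord J hN ha (fun s => ind (s = t)),
    sum_eq_single t]
  · rw [ind_pos rfl]; ring
  · intro s _ hs
    exact ind_neg hs
  · intro h
    exact absurd ht h

/-- a function of finitely many coordinates has the same law after an injective renaming -/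
theorem EJ_pull {κ : Type*} [DecidableEq κ] [Fintype κ] (J : Finset ι) {N : ℕ} (hN : 0 < N) (π : ι → κ)
    (B : Finset ι) (hB : B ⊆ J) (hπ : Set.InjOn π (B : Set ι)) (ψ : (ι → ℕ) → ℝ) (hψ : Dep ψ (B : Set ι)) :
    EJ (univ : Finset κ) N (fun ω => ψ fun a => ω (π a)) = EJ J N ψ := by
  induction B using Finset.induction_on generalizing ψ with
  | empty =>
    have h : ∀ ω, ψ ω = ψ (fun _ => 0) := fun ω => hψ _ _ (by simp)
    have h1 : (fun ω : κ → ℕ => ψ fun a => ω (π a)) = fun _ => ψ (fun _ => 0) := funext fun ω => h _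
    have h2 : ψ = fun _ => ψ (fun _ => 0) := funext h
    rw [h1, EJ_const _ hN]
    conv_rhs => rw [h2]
    rw [EJ_const _ hN]
  | insert b B hb ih =>
    let F : ℕ → (ι → ℕ) → ℝ := fun t ω => ψ (Function.update ω b t)
    have hF : ∀ t, Dep (F t) (B : Set ι) := by
      intro t ω ω' h
      refine hψ _ _ fun x hx => ?_
      by_cases hxb : x = b
      · subst hxb; simp
      · rw [Function.update_of_ne hxb, Function.update_of_ne hxb]
        refine h x ?_
        rw [coe_insert] at hx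
        exact hx.resolve_left hxb
    have hψF : ∀ ω, ψ ω = F (ω b) ω := fun ω => by simp [F]
    have hBJ : B ⊆ J := (subset_insert _ _).trans hB
    have hπ' : Set.InjOn π (B : Set ι) := hπ.mono (coe_subset.2 (subset_insert _ _))
    have r1 : EJ J N ψ = (∑ t ∈ range N, EJ J N (F t)) / N := by
      rw [← EJ_cond J hN (hB (mem_insert_self _ _)) F B hF (by simpa using hb)]
      exact congrArg _ (funext hψF)
    have hG : ∀ t, Dep (fun ω : κ → ℕ => F t fun a => ω (π a)) (π '' (B : Set ι)) := by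
      intro t ω ω' h
      exact hF t _ _ fun x hx => h _ ⟨x, hx, rfl⟩
    have hb' : π b ∉ π '' (B : Set ι) := by
      rintro ⟨x, hx, hxb⟩
      have : x = b := hπ (by simp [mem_coe.1 hx]) (by simp) hxb
      exact hb (this ▸ hx)
    have r2 : EJ (univ : Finset κ) N (fun ω => ψ fun a => ω (π a)) =
        (∑ t ∈ range N, EJ (univ : Finset κ) N (fun ω => F t fun a => ω (π a))) / N := by
      rw [← EJ_cond univ hN (mem_univ (π b)) (fun t ω => F t fun a => ω (π a)) _ hG hb']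
      exact congrArg _ (funext fun ω => hψF _)
    rw [r1, r2]
    congr 1
    exact sum_congr rfl fun t _ => ih hBJ hπ' (F t) (hF t)

theorem coupling_aux {κ : Type*} [DecidableEq κ] [Fintype κ] (J : Finset ι) {N : ℕ} (hN : 0 < N) (π : ι → κ)
    (Q : (ι → ℕ) → Set ι) (φ : (ι → ℕ) → ℝ) (hQ : ∀ ω, (∀ a, ω a < N) → Q ω ⊆ (J : Set ι))
    (hstop : ∀ ω ω', (∀ a ∈ Q ω, ω' a = ω a) → Q ω' = Q ω ∧ φ ω' = φ ω) :
    EJ (univ : Finset κ) N (fun ω => ind (Set.InjOn π (Q fun a => ω (π a))) * φ fun a => ω (π a)) =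
      EJ J N (fun ω => ind (Set.InjOn π (Q ω)) * φ ω) := by
  classical
  let S : Finset (Finset ι) := J.powerset.filter fun B => Set.InjOn π (B : Set ι)
  let g : Finset ι → (ι → ℕ) → ℝ := fun B ω => ind (Q ω = (B : Set ι)) * φ ω
  have hg : ∀ B, Dep (g B) (B : Set ι) := by
    intro B ω ω' h
    by_cases h1 : Q ω = (B : Set ι)
    · obtain ⟨e1, e2⟩ := hstop ω ω' (fun a ha => (h a (h1 ▸ ha)).symm)
      simp only [g, e1, e2]
    · by_cases h2 : Q ω' = (B : Set ι)
      · obtain ⟨e1, _⟩ := hstop ω' ω (fun a ha => h a (h2 ▸ ha))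
        exact absurd (e1.trans h2) h1
      · simp only [g, ind_neg h1, ind_neg h2, zero_mul]
  have hs : ∀ ω, (∀ a, ω a < N) → ind (Set.InjOn π (Q ω)) * φ ω = ∑ B ∈ S, g B ω := by
    intro ω hω
    have hfin : (Q ω).Finite := J.finite_toSet.subset (hQ ω hω)
    by_cases hi : Set.InjOn π (Q ω)
    · rw [ind_pos hi, sum_eq_single hfin.toFinset]
      · simp only [g]
        rw [ind_pos hfin.coe_toFinset.symm]
      · intro B _ hB
        simp only [g]
        rw [ind_neg, zero_mul]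
        intro h
        apply hB
        rw [← coe_inj, hfin.coe_toFinset, h]
      · intro h
        exfalso
        apply h
        simp only [S, mem_filter, mem_powerset]
        refine ⟨?_, by rwa [hfin.coe_toFinset]⟩
        rw [← coe_subset, hfin.coe_toFinset]
        exact hQ ω hω
    · rw [ind_neg hi, zero_mul]
      refine (sum_eq_zero fun B hB => ?_).symm
      simp only [g]
      rw [ind_neg, zero_mul]
      intro h
      exact hi (h ▸ (mem_filter.1 hB).2)
  rw [EJ_congr J hN hs, EJ_sum,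
    EJ_congr (univ : Finset κ) hN (ψ := fun ω => ∑ B ∈ S, g B fun a => ω (π a))
      (fun ω hω => hs _ fun a => hω _), EJ_sum]
  refine sum_congr rfl fun B hB => ?_
  exact EJ_pull J hN π B (mem_powerset.1 (mem_filter.1 hB).1) (mem_filter.1 hB).2 (g B) (hg B)

/-- Stopping set coupling. For `B ⊆ J` the function `ind (Q ω = B) * φ ω` depends only on `B`; sum `EJ_pull` over the
`B ∈ J.powerset` on which `π` is injective, once for `φ` and once for `1`. -/
theorem coupling {κ : Type*} [DecidableEq κ] [Fintype κ] (J : Finset ι) {N : ℕ} (hN : 0 < N) (π : ι → κ)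
    (Q : (ι → ℕ) → Set ι) (φ : (ι → ℕ) → ℝ) (hQ : ∀ ω, (∀ a, ω a < N) → Q ω ⊆ (J : Set ι))
    (hstop : ∀ ω ω', (∀ a ∈ Q ω, ω' a = ω a) → Q ω' = Q ω ∧ φ ω' = φ ω) (hφ : ∀ ω, |φ ω| ≤ 1) :
    |EJ (univ : Finset κ) N (fun ω => φ fun a => ω (π a)) - EJ J N φ| ≤
      2 * EJ J N (fun ω => ind (¬ Set.InjOn π (Q ω))) := by
  have h1 := coupling_aux J hN π Q φ hQ hstop
  have h2 := coupling_aux J hN π Q (fun _ => 1) hQ (fun ω ω' h => ⟨(hstop ω ω' h).1, rfl⟩)
  have hsplit : ∀ P : Prop, ind (¬ P) = 1 + (-1) * (ind P * 1) := by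
    intro P
    by_cases h : P
    · rw [ind_pos h, ind_neg (not_not.2 h)]; ring
    · rw [ind_neg h, ind_pos h]; ring
  have h3 : EJ (univ : Finset κ) N (fun ω => ind (¬ Set.InjOn π (Q fun a => ω (π a)))) =
      EJ J N (fun ω => ind (¬ Set.InjOn π (Q ω))) := by
    simp only [hsplit]
    rw [EJ_add, EJ_add, EJ_const_mul, EJ_const_mul, EJ_const _ hN, EJ_const _ hN, h2]
  have hb : ∀ (P : Prop) (x : ℝ), |x| ≤ 1 → x ≤ ind P * x + ind (¬ P) ∧ ind P * x ≤ x + ind (¬ P) := by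
    intro P x hx
    have := abs_le.1 hx
    by_cases h : P
    · rw [ind_pos h, ind_neg (not_not.2 h)]; constructor <;> linarith
    · rw [ind_neg h, ind_pos h]; constructor <;> linarith
  have a1 : EJ (univ : Finset κ) N (fun ω => φ fun a => ω (π a)) ≤
      EJ (univ : Finset κ) N (fun ω => ind (Set.InjOn π (Q fun a => ω (π a))) * φ fun a => ω (π a)) +
      EJ (univ : Finset κ) N (fun ω => ind (¬ Set.InjOn π (Q fun a => ω (π a)))) := by
    rw [← EJ_add]
    exact EJ_mono _ hN fun ω _ => (hb _ _ (hφ _)).1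
  have a2 : EJ (univ : Finset κ) N (fun ω => ind (Set.InjOn π (Q fun a => ω (π a))) * φ fun a => ω (π a)) ≤
      EJ (univ : Finset κ) N (fun ω => φ fun a => ω (π a)) +
      EJ (univ : Finset κ) N (fun ω => ind (¬ Set.InjOn π (Q fun a => ω (π a)))) := by
    rw [← EJ_add]
    exact EJ_mono _ hN fun ω _ => (hb _ _ (hφ _)).2
  have a3 : EJ J N φ ≤ EJ J N (fun ω => ind (Set.InjOn π (Q ω)) * φ ω) +
      EJ J N (fun ω => ind (¬ Set.InjOn π (Q ω))) := by
    rw [← EJ_add]
    exact EJ_mono _ hN fun ω _ => (hb _ _ (hφ _)).1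
  have a4 : EJ J N (fun ω => ind (Set.InjOn π (Q ω)) * φ ω) ≤ EJ J N φ +
      EJ J N (fun ω => ind (¬ Set.InjOn π (Q ω))) := by
    rw [← EJ_add]
    exact EJ_mono _ hN fun ω _ => (hb _ _ (hφ _)).2
  rw [abs_le]
  constructor <;> linarith

end Crest.Agent.R30
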