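import Crest.Agent.R30.Tree
import Crest.Agent.R30.Prob
set_option autoImplicit false

noncomputable section

namespace Crest.Agent.R30

open Finset Crest.CombinatoricsR.TriangleRemoval

variable {n : ℕ}

variable (E : Ed n) (ρ : Rt n)

theorem sub_kid {a : Ad n} {w : Fin n} {s : Bool} : sub (kid (a, w) s) ⊆ sub a := fun _ hT =>
  ⟨hT.1, (List.suffix_cons _ _).trans hT.2⟩

theorem self_mem_sub (a : Ad n) (w : Fin n) : (a, w) ∈ sub a := ⟨rfl, List.suffix_refl _⟩

theorem al_congr {ω ω' : Nd n → ℕ} (t : ℕ) (a : Ad n) (h : ∀ T ∈ sub a, ω T = ω' T) :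
    al E ρ ω t a ↔ al E ρ ω' t a := by
  induction t using Nat.strong_induction_on generalizing a with
  | _ t ih =>
    rw [al_iff, al_iff]
    refine forall_congr' fun w => forall_congr' fun _ => ?_
    rw [← h _ (self_mem_sub a w)]
    refine forall_congr' fun hlt => ?_
    rw [ih _ hlt _ fun T hT => h T (sub_kid hT), ih _ hlt _ fun T hT => h T (sub_kid hT)]

theorem suffix_cons_eq {α : Type*} {c c' : α} {a l : List α} (h : c :: a <:+ l) (h' : c' :: a <:+ l) : c = c' := by
  have := List.IsSuffix.eq_of_length (List.suffix_of_suffix_length_le h h' (by simp)) (by simp)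
  exact (List.cons.inj this).1

theorem disjoint_kids (T : Nd n) : Disjoint (sub (kid T false)) (sub (kid T true)) := by
  rw [Set.disjoint_left]
  intro U h1 h2
  have := suffix_cons_eq h1.2 h2.2
  simp at this

theorem not_mem_sub_kid (T : Nd n) (w : Fin n) (s : Bool) : (T.1, w) ∉ sub (kid T s) := by
  intro h
  have := h.2.length_le
  simp [kid] at this

theorem disjoint_subT (a : Ad n) {w w' : Fin n} (h : w ≠ w') : Disjoint (subT (a, w)) (subT (a, w')) := by
  rw [Set.disjoint_left]
  rintro U (h1 | h1) (h2 | h2)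
  · rw [Set.mem_singleton_iff] at h1 h2
    exact h (congrArg Prod.snd (h1.symm.trans h2))
  · rw [Set.mem_singleton_iff] at h1
    subst h1
    rcases h2 with h2 | h2 <;> exact not_mem_sub_kid (a, w') w _ h2
  · rw [Set.mem_singleton_iff] at h2
    subst h2
    rcases h1 with h1 | h1 <;> exact not_mem_sub_kid (a, w) w' _ h1
  · rcases h1 with h1 | h1 <;> rcases h2 with h2 | h2 <;>
      exact h (congrArg Prod.fst (suffix_cons_eq h1.2 h2.2))

theorem ind_forall_mem {ι : Type*} (s : Finset ι) (p : ι → Prop) : ind (∀ a ∈ s, p a) = ∏ a ∈ s, ind (p a) := by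
  by_cases h : ∀ a ∈ s, p a
  · rw [ind_pos h, Finset.prod_eq_one fun a ha => ind_pos (h a ha)]
  · rw [ind_neg h]
    push Not at h
    obtain ⟨a, ha, hp⟩ := h
    exact (Finset.prod_eq_zero ha (ind_neg hp)).symm

theorem Yb_eq (N t : ℕ) (x y w : Fin n) :
    Yb E N t x y w = (∑ s ∈ range t, qc E (Yb E N s) x w y * qc E (Yb E N s) y w x) / N := by
  induction t with
  | zero => simp [Yb]
  | succ t ih => rw [Finset.sum_range_succ, add_div, ← ih]; rfl

theorem al_alE (ω : Nd n → ℕ) (t : ℕ) (a : Ad n) : al E ρ ω t a ↔ alE E ρ ω ∅ t a := by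
  rw [al_iff]; simp [alE]

theorem dep_al (t : ℕ) (a : Ad n) : Dep (fun ω => ind (al E ρ ω t a)) (sub a) := by
  intro ω ω' h
  exact ind_congr (al_congr E ρ t a h)

theorem dep_alE (X : Finset (Nd n)) (t : ℕ) (a : Ad n) :
    Dep (fun ω => ind (alE E ρ ω X t a)) {T | ∃ w, (a, w) ∉ X ∧ T ∈ subT (a, w)} := by
  intro ω ω' h
  refine ind_congr (forall_congr' fun w => forall_congr' fun _ => forall_congr' fun hX => ?_)
  rw [← h (a, w) ⟨w, hX, Or.inl rfl⟩, al_congr E ρ _ _ fun T hT => h T ⟨w, hX, Or.inr (Or.inl hT)⟩,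
    al_congr E ρ _ _ fun T hT => h T ⟨w, hX, Or.inr (Or.inr hT)⟩]

/-- The exact recursion on the tree: strong induction on `t`; `EJ_prod` over the child triangles (the sets `subT (a, w)` are
disjoint), `EJ_cond` on the clock of the child triangle, `EJ_mul` for its two kids, `al = alE ∅`. -/
theorem prob_alE {N : ℕ} (hN : 0 < N) (X : Finset (Nd n)) (t : ℕ) (a : Ad n) (h : a.2.length + t ≤ N) :
    EJ (Jn n N) N (fun ω => ind (alE E ρ ω X t a)) =
      ∏ w ∈ (ch E ρ a).filter (fun w => (a, w) ∉ X), (1 - Yb E N t (sx ρ a) (sy ρ a) w) := by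
  induction t using Nat.strong_induction_on generalizing a X with
  | _ t ih =>
    set F : Fin n → ℕ → (Nd n → ℕ) → ℝ := fun w s ω =>
      1 - ind (s < t) * (ind (al E ρ ω s (kid (a, w) false)) * ind (al E ρ ω s (kid (a, w) true))) with hF
    have h1 : (fun ω => ind (alE E ρ ω X t a)) =
        fun ω => ∏ w ∈ (ch E ρ a).filter (fun w => (a, w) ∉ X), F w (ω (a, w)) ω := by
      funext ω
      have : alE E ρ ω X t a ↔ ∀ w ∈ (ch E ρ a).filter (fun w => (a, w) ∉ X), ω (a, w) < t →
          ¬ (al E ρ ω (ω (a, w)) (kid (a, w) false) ∧ al E ρ ω (ω (a, w)) (kid (a, w) true)) := by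
        simp only [alE, mem_filter, and_imp]
      rw [ind_congr this, ind_forall_mem]
      refine Finset.prod_congr rfl fun w _ => ?_
      simp only [hF]
      rw [← ind_and, ← ind_and]
      by_cases hc : ω (a, w) < t ∧ al E ρ ω (ω (a, w)) (kid (a, w) false) ∧ al E ρ ω (ω (a, w)) (kid (a, w) true)
      · rw [ind_pos hc, ind_neg (fun h => h hc.1 hc.2)]; ring
      · rw [ind_neg hc, ind_pos (fun h1 h2 => hc ⟨h1, h2⟩)]; ring
    have hFd : ∀ w s, Dep (F w s) (sub (kid (a, w) false) ∪ sub (kid (a, w) true)) := by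
      intro w s ω ω' hω
      simp only [hF]
      rw [ind_congr (al_congr E ρ s _ fun T hT => hω T (Or.inl hT)),
        ind_congr (al_congr E ρ s _ fun T hT => hω T (Or.inr hT))]
    rw [h1, EJ_prod _ hN _ (fun w ω => F w (ω (a, w)) ω) (fun w => subT (a, w))
      (fun w _ ω ω' hω => by
        show F w (ω (a, w)) ω = F w (ω' (a, w)) ω'
        rw [← hω (a, w) (Or.inl rfl)]
        exact hFd w _ ω ω' fun T hT => hω T (Or.inr hT))
      (fun w _ w' _ hww => disjoint_subT a hww)]
    refine Finset.prod_congr rfl fun w _ => ?_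
    rw [EJ_cond _ hN (mem_Jn.2 (by show a.2.length ≤ N; omega)) (F w) _ (hFd w) (by
      rintro (h | h)
      · exact not_mem_sub_kid (a, w) w _ h
      · exact not_mem_sub_kid (a, w) w _ h)]
    have h2 : ∀ s ∈ range N, EJ (Jn n N) N (F w s) = 1 - ind (s < t) *
        (qc E (Yb E N s) (sx ρ a) w (sy ρ a) * qc E (Yb E N s) (sy ρ a) w (sx ρ a)) := by
      intro s _
      by_cases hs : s < t
      · have e1 : F w s = fun ω => 1 + (-1) *
            (ind (al E ρ ω s (kid (a, w) false)) * ind (al E ρ ω s (kid (a, w) true))) := by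
          funext ω; simp only [hF]; rw [ind_pos hs]; ring
        rw [e1, EJ_add, EJ_const _ hN, EJ_const_mul, EJ_mul _ hN (dep_al E ρ s _) (dep_al E ρ s _) (disjoint_kids _),
          ind_pos hs]
        simp only [al_alE]
        rw [ih s hs ∅ _ (by simp only [kid, List.length_cons]; omega),
          ih s hs ∅ _ (by simp only [kid, List.length_cons]; omega)]
        simp only [notMem_empty, not_false_eq_true, filter_true]
        have q1 : ∏ w' ∈ ch E ρ (kid (a, w) false), (1 - Yb E N s (sx ρ (kid (a, w) false)) (sy ρ (kid (a, w) false)) w') =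
            qc E (Yb E N s) (sx ρ a) w (sy ρ a) := rfl
        have q2 : ∏ w' ∈ ch E ρ (kid (a, w) true), (1 - Yb E N s (sx ρ (kid (a, w) true)) (sy ρ (kid (a, w) true)) w') =
            qc E (Yb E N s) (sy ρ a) w (sx ρ a) := rfl
        rw [q1, q2]; ring
      · have e1 : F w s = fun _ => 1 := by
          funext ω; simp only [hF]; rw [ind_neg hs]; ring
        rw [e1, EJ_const _ hN, ind_neg hs]; ring
    rw [Finset.sum_congr rfl h2, Finset.sum_sub_distrib, Yb_eq]
    have hNr : (N : ℝ) ≠ 0 := by exact_mod_cast hN.ne'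
    have h3 : ∑ s ∈ range N, ind (s < t) *
        (qc E (Yb E N s) (sx ρ a) w (sy ρ a) * qc E (Yb E N s) (sy ρ a) w (sx ρ a)) =
        ∑ s ∈ range t, qc E (Yb E N s) (sx ρ a) w (sy ρ a) * qc E (Yb E N s) (sy ρ a) w (sx ρ a) := by
      rw [← Finset.sum_subset (s₁ := range t) (range_subset_range.2 (by omega)) fun s _ hs => by
        rw [ind_neg (by simpa using hs), zero_mul]]
      exact Finset.sum_congr rfl fun s hs => by rw [ind_pos (mem_range.1 hs), one_mul]
    rw [h3]
    simp only [Finset.sum_const, card_range, nsmul_eq_mul, mul_one]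
    field_simp

theorem root_pair {N : ℕ} (hN : 0 < N) (α : ℝ) :
    EJ (Jn n N) N (fun ω => (ind (al E ρ ω N (false, [])) - α) * (ind (al E ρ ω N (true, [])) - α)) =
      (qf E N N (ρ false).1 (ρ false).2 - α) * (qf E N N (ρ true).1 (ρ true).2 - α) := by
  have hd : ∀ b, Dep (fun ω => ind (al E ρ ω N (b, [])) - α) (sub ((b, []) : Ad n)) := fun b ω ω' h => by
    have := dep_al E ρ N (b, []) ω ω' h
    dsimp only at this ⊢
    rw [this]
  have h1 : ∀ b, EJ (Jn n N) N (fun ω => ind (al E ρ ω N (b, [])) - α) = qf E N N (ρ b).1 (ρ b).2 - α := by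
    intro b
    simp only [sub_eq_add_neg, al_alE]
    rw [EJ_add, EJ_const _ hN, prob_alE E ρ hN ∅ N (b, []) (by simp)]
    simp only [notMem_empty, not_false_eq_true, filter_true]
    have : ch E ρ (b, []) = cn E (ρ b).1 (ρ b).2 :=
      erase_eq_of_notMem fun h => (mem_cn.1 h).1.1 rfl
    rw [this]; rfl
  rw [EJ_mul _ hN (hd false) (hd true) (Set.disjoint_left.2 fun T h1 h2 => by
    have := h1.1.symm.trans h2.1
    simp at this), h1, h1]

end Crest.Agent.R30
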