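import Crest.Agent.R30.Two
import Crest.Agent.R30.Chain
set_option autoImplicit false

noncomputable section

namespace Crest.Agent.R30

open Finset Crest.CombinatoricsR.TriangleRemoval

variable {n : ℕ}

theorem card_Ls (k : ℕ) : (Ls n k).card = (2 * n) ^ k := by
  induction k with
  | zero => simp [Ls]
  | succ k ih =>
    rw [Ls, Finset.card_image_of_injective _ (fun q q' h => by
      simp only [List.cons.injEq] at h; exact Prod.ext h.1 h.2), Finset.card_product, ih]
    simp only [card_univ, Fintype.card_prod, Fintype.card_fin, Fintype.card_bool]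
    ring

theorem Gf_nonneg {h : ℝ} (hh : 0 ≤ h) (k : ℕ) : 0 ≤ Gf h k := by
  unfold Gf; positivity

theorem sum_Gf {c h : ℝ} (hc : 0 ≤ c) (hh : 0 ≤ h) (K : ℕ) :
    ∑ k ∈ range K, c ^ k * Gf h k ≤ 1 + c * Real.exp (c * h) := by
  cases K with
  | zero => simp only [range_zero, sum_empty]; positivity
  | succ K =>
    rw [Finset.sum_range_succ', add_comm]
    refine add_le_add (by simp [Gf]) ?_
    refine le_trans (le_of_eq ?_)
      (mul_le_mul_of_nonneg_left (Real.sum_le_exp_of_nonneg (mul_nonneg hc hh) K) hc)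
    rw [Finset.mul_sum]
    refine Finset.sum_congr rfl fun k _ => ?_
    simp only [Gf, add_tsub_cancel_right]
    rw [mul_pow]
    ring

theorem sum_lists (K : ℕ) (F : ℕ → ℝ) :
    ∑ l ∈ (range K).biUnion (Ls n), F l.length = ∑ k ∈ range K, (2 * n : ℝ) ^ k * F k := by
  rw [Finset.sum_biUnion]
  · refine Finset.sum_congr rfl fun k _ => ?_
    rw [Finset.sum_congr rfl (g := fun _ => F k) (fun l hl => by rw [mem_Ls.1 hl]), Finset.sum_const,
      card_Ls, nsmul_eq_mul]
    push_cast
    ring
  · intro k _ k' _ hne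
    refine Finset.disjoint_left.2 fun l h1 h2 => hne ?_
    rw [← mem_Ls.1 h1, mem_Ls.1 h2]

theorem sum_Ads (K : ℕ) (F : ℕ → ℝ) :
    ∑ a ∈ Ads n K, F a.2.length = 2 * ∑ k ∈ range K, (2 * n : ℝ) ^ k * F k := by
  rw [Ads, Finset.sum_product]
  simp only [sum_lists, sum_const, card_univ, Fintype.card_bool, nsmul_eq_mul, Nat.cast_ofNat]

theorem pathL_mem {b : Bool} {a : List (Fin n × Bool)} {T : Nd n} (h : T ∈ pathL b a) :
    T.1.1 = b ∧ pathL b T.1.2 ⊆ pathL b a ∧ T.1.2.length < a.length := by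
  induction a with
  | nil => simp [pathL] at h
  | cons c a ih =>
    rw [pathL, Finset.mem_insert] at h
    rcases h with rfl | h
    · exact ⟨rfl, Finset.subset_insert _ _, by simp⟩
    · obtain ⟨h1, h2, h3⟩ := ih h
      exact ⟨h1, h2.trans (Finset.subset_insert _ _), by simp only [List.length_cons]; omega⟩

/-- the edge nodes on or next to the path to `a` -/
def nodesOf (a : Ad n) : Finset (Ad n) :=
  {(false, []), (true, [])} ∪ (path a ×ˢ (univ : Finset Bool)).image fun q => kid q.1 q.2

theorem branch_struct (a : Ad n) (b : Bool) (l : List (Fin n × Bool)) :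
    (pathL b l \ path a).card ≤ l.length ∧ (b, l.drop (pathL b l \ path a).card) ∈ nodesOf a := by
  induction l with
  | nil => cases b <;> simp [pathL, nodesOf]
  | cons c l ih =>
    by_cases hT : ((b, l), c.1) ∈ path a
    · obtain ⟨h1, h2, -⟩ := pathL_mem hT
      simp only at h1 h2
      have : pathL b (c :: l) \ path a = ∅ := by
        rw [Finset.sdiff_eq_empty_iff_subset, pathL, Finset.insert_subset_iff]
        refine ⟨hT, ?_⟩
        rw [h1]
        exact h2
      rw [this]
      refine ⟨by simp, Finset.mem_union_right _ (Finset.mem_image.2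
        ⟨(((b, l), c.1), c.2), Finset.mem_product.2 ⟨hT, Finset.mem_univ _⟩, ?_⟩)⟩
      simp [kid]
    · have hT' : ((b, l), c.1) ∉ pathL b l \ path a := fun h => by
        have := (pathL_mem (Finset.mem_sdiff.1 h).1).2.2
        simp at this
      rw [pathL, Finset.insert_sdiff_of_notMem _ hT, Finset.card_insert_of_notMem hT']
      exact ⟨by simpa using ih.1, by simpa using ih.2⟩

/-- `a'` is determined by `γ = a'.2.take k''` and the node `(a'.1, a'.2.drop k'')`, `k'' = (path a' \ path a).card`, which is a root or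
a kid of a triangle node of `path a`. -/
theorem sum_branch (a : Ad n) (K : ℕ) (ha : a.2.length < K) (F : ℕ → ℝ) (hF : ∀ k, 0 ≤ F k) :
    ∑ a' ∈ Ads n K, F (path a' \ path a).card ≤ (2 * K + 2) * ∑ k ∈ range K, (2 * n : ℝ) ^ k * F k := by
  classical
  set φ : Ad n → Ad n × List (Fin n × Bool) := fun a' =>
    ((a'.1, a'.2.drop (path a' \ path a).card), a'.2.take (path a' \ path a).card) with hφ
  have hinj : Function.Injective φ := by
    intro x y h
    simp only [hφ, Prod.mk.injEq] at h
    refine Prod.ext h.1.1 ?_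
    rw [← List.take_append_drop (path x \ path a).card x.2, h.1.2, h.2, List.take_append_drop]
  have hlen : ∀ a' : Ad n, (φ a').2.length = (path a' \ path a).card := by
    intro a'
    simp only [hφ, List.length_take]
    exact min_eq_left (branch_struct a a'.1 a'.2).1
  have h1 : ∑ a' ∈ Ads n K, F (path a' \ path a).card = ∑ q ∈ (Ads n K).image φ, F q.2.length := by
    rw [Finset.sum_image (fun x _ y _ h => hinj h)]
    simp only [hlen]
  have h2 : (Ads n K).image φ ⊆ nodesOf a ×ˢ (range K).biUnion (Ls n) := by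
    intro q hq
    obtain ⟨a', ha', rfl⟩ := Finset.mem_image.1 hq
    refine Finset.mem_product.2 ⟨(branch_struct a a'.1 a'.2).2, Finset.mem_biUnion.2
      ⟨_, Finset.mem_range.2 ?_, mem_Ls.2 rfl⟩⟩
    rw [hlen]
    exact lt_of_le_of_lt (branch_struct a a'.1 a'.2).1 (mem_Ads.1 ha')
  rw [h1]
  refine (Finset.sum_le_sum_of_subset_of_nonneg h2 fun _ _ _ => hF _).trans ?_
  rw [Finset.sum_product]
  simp only [sum_lists, sum_const, nsmul_eq_mul]
  refine mul_le_mul_of_nonneg_right ?_ (Finset.sum_nonneg fun k _ => mul_nonneg (by positivity) (hF k))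
  have : (nodesOf a).card ≤ 2 * K + 2 := by
    refine (Finset.card_union_le _ _).trans ?_
    have e1 : ({(false, []), (true, [])} : Finset (Ad n)).card ≤ 2 := Finset.card_le_two
    have e2 := Finset.card_image_le (s := path a ×ˢ (univ : Finset Bool)) (f := fun q => kid q.1 q.2)
    rw [Finset.card_product, card_path] at e2
    simp only [card_univ, Fintype.card_bool] at e2
    omega
  exact_mod_cast this

theorem cfg_bound (T : (Ed n → ℝ) → ℝ) (hT : Fn T) (p : ℝ) (hp : 0 ≤ p) (K' K : ℕ)
    (hS : Surv T p K') (hK : 4 * K + 3 ≤ K') (ρ : Rt n) (a a' : Ad n) (ha : a.2.length < K)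
    (ha' : a'.2.length < K) :
    T (fun E => ind (Cfg E ρ a a')) ≤
      (2 * K + 4) ^ 2 * p ^ (2 * (a.2.length + (path a' \ path a).card) + 3) := by
  classical
  by_cases hF : Fresh ρ (path a ∪ path a')
  swap
  · simp only [ind_neg (fun h : Cfg _ ρ a a' => hF h.1), hT.zero]
    positivity
  set S := path a ∪ path a' with hSdef
  have hc : S.card = a.2.length + (path a' \ path a).card := by
    rw [hSdef, ← Finset.union_sdiff_self_eq_union, Finset.card_union_of_disjoint Finset.disjoint_sdiff,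
      card_path]
  have hc2 : (path a' \ path a).card ≤ a'.2.length := (branch_struct a a'.1 a'.2).1
  have hE := (fresh_struct (closed_path a a') hF).1
  rw [← hSdef] at hE
  set W := (VU ρ S ×ˢ VU ρ S).filter fun q => s(q.1, q.2) ∉ EU ρ S with hW
  have h1 : ∀ E : Ed n, ind (Cfg E ρ a a') ≤ ∑ q ∈ W, ind (insert s(q.1, q.2) (EU ρ S) ⊆ E) := by
    intro E
    by_cases h : Cfg E ρ a a'
    · obtain ⟨-, h2, u, hu, v, hv, huv, hn⟩ := id h
      rw [ind_pos h]
      refine le_trans ?_ (Finset.single_le_sum (f := fun q : Fin n × Fin n =>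
        ind (insert s(q.1, q.2) (EU ρ S) ⊆ E)) (fun _ _ => ind_nonneg _)
        (show (u, v) ∈ W from Finset.mem_filter.2 ⟨Finset.mem_product.2 ⟨hu, hv⟩, hn⟩))
      rw [ind_pos (Finset.insert_subset huv.2 h2)]
    · rw [ind_neg h]
      exact Finset.sum_nonneg fun _ _ => ind_nonneg _
  refine (hT.mono _ _ h1).trans ?_
  rw [hT.sum]
  refine (Finset.sum_le_sum (g := fun _ => p ^ (2 * (a.2.length + (path a' \ path a).card) + 3))
    fun q hq => ?_).trans ?_
  · have e : (insert s(q.1, q.2) (EU ρ S)).card = 2 * (a.2.length + (path a' \ path a).card) + 3 := by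
      rw [Finset.card_insert_of_notMem (Finset.mem_filter.1 hq).2, hE, hc]
    rw [← e]
    exact hS _ (by omega)
  · rw [Finset.sum_const, nsmul_eq_mul]
    refine mul_le_mul_of_nonneg_right ?_ (by positivity)
    have e1 : (VU ρ S).card ≤ 2 * K + 4 := by
      refine (Finset.card_union_le _ _).trans ?_
      have := Finset.card_image_le (s := S) (f := Prod.snd)
      have := hF.1
      omega
    have e2 : W.card ≤ (2 * K + 4) ^ 2 := by
      refine (Finset.card_filter_le _ _).trans ?_
      rw [Finset.card_product, sq]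
      gcongr
    exact_mod_cast e2

/-- First moment of the bad configurations: `ind (Cfg E ρ a a') ≤ ∑_{u,v ∈ VU} ind (Fresh ∧ s(u,v) ∉ EU) * ind (insert s(u,v) EU ⊆ E)`,
the edge set has `2 |S| + 3` elements (`fresh_struct`), `|S| = a.2.length + (path a' \ path a).card`, `|VU| ≤ 2K + 4`. -/
theorem bc_bound (T : (Ed n → ℝ) → ℝ) (hT : Fn T) (p h : ℝ) (hp : 0 ≤ p) (hh : 0 ≤ h) (K' K : ℕ)
    (hS : Surv T p K') (hK : 4 * K + 3 ≤ K') : T (fun E => Bc E h K) ≤ BcB n p h K := by
  unfold Bc
  have hG : ∑ k ∈ range K, (2 * n : ℝ) ^ k * (p ^ (2 * k) * Gf h k) ≤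
      1 + 2 * n * p ^ 2 * Real.exp (2 * n * p ^ 2 * h) := by
    refine le_trans (le_of_eq (Finset.sum_congr rfl fun k _ => ?_))
      (sum_Gf (c := 2 * n * p ^ 2) (by positivity) hh K)
    rw [mul_pow (2 * n : ℝ), ← pow_mul]
    ring
  set X := 1 + 2 * n * p ^ 2 * Real.exp (2 * n * p ^ 2 * h) with hX
  have hX0 : 0 ≤ X := by positivity
  have hF : ∀ k, 0 ≤ p ^ (2 * k) * Gf h k := fun k => mul_nonneg (by positivity) (Gf_nonneg hh k)
  have key : ∀ ρ : Rt n, T (fun E => ∑ a ∈ Ads n K, ∑ a' ∈ Ads n K,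
      ind (Cfg E ρ a a') * (Gf h a.2.length * Gf h (path a' \ path a).card)) ≤
      p ^ 3 * (2 * K + 4) ^ 2 * (2 * (2 * K + 2)) * X ^ 2 := by
    intro ρ
    rw [hT.sum]
    refine (Finset.sum_le_sum (g := fun a => (p ^ 3 * (2 * K + 4) ^ 2 * ((2 * K + 2) * X)) *
      (p ^ (2 * a.2.length) * Gf h a.2.length)) fun a ha => ?_).trans ?_
    · rw [hT.sum]
      refine (Finset.sum_le_sum (g := fun a' => (p ^ 3 * (2 * K + 4) ^ 2 *
        (p ^ (2 * a.2.length) * Gf h a.2.length)) *
        (p ^ (2 * (path a' \ path a).card) * Gf h (path a' \ path a).card)) fun a' ha' => ?_).trans ?_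
      · simp only [mul_comm (ind _)]
        rw [hT.smul]
        refine (mul_le_mul_of_nonneg_left
          (cfg_bound T hT p hp K' K hS hK ρ a a' (mem_Ads.1 ha) (mem_Ads.1 ha'))
          (mul_nonneg (Gf_nonneg hh _) (Gf_nonneg hh _))).trans (le_of_eq ?_)
        ring
      · rw [← Finset.mul_sum]
        have := (sum_branch a K (mem_Ads.1 ha) (fun k => p ^ (2 * k) * Gf h k) hF).trans
          (mul_le_mul_of_nonneg_left hG (by positivity))
        refine (mul_le_mul_of_nonneg_left this (mul_nonneg (by positivity) (hF _))).trans (le_of_eq ?_)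
        ring
    · rw [← Finset.mul_sum, sum_Ads K (fun k => p ^ (2 * k) * Gf h k)]
      refine (mul_le_mul_of_nonneg_left (mul_le_mul_of_nonneg_left hG zero_le_two)
        (by positivity)).trans (le_of_eq ?_)
      ring
  rw [hT.sum]
  refine (Finset.sum_le_sum fun ρ _ => key ρ).trans (le_of_eq ?_)
  simp only [sum_const, card_univ, Fintype.card_pi, Fintype.card_prod, Fintype.card_fin, prod_const,
    Fintype.card_bool, nsmul_eq_mul, BcB]
  push_cast
  ring

theorem BcB_mono {p p' h : ℝ} (hp : 0 ≤ p) (hpp : p ≤ p') (hh : 0 ≤ h) (K : ℕ) : BcB n p h K ≤ BcB n p' h K := by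
  have hp' : 0 ≤ p' := hp.trans hpp
  unfold BcB
  gcongr

theorem Bc_nonneg (E : Ed n) {h : ℝ} (hh : 0 ≤ h) (K : ℕ) : 0 ≤ Bc E h K :=
  Finset.sum_nonneg fun _ _ => Finset.sum_nonneg fun _ _ => Finset.sum_nonneg fun _ _ =>
    mul_nonneg (ind_nonneg _) (mul_nonneg (Gf_nonneg hh _) (Gf_nonneg hh _))

end Crest.Agent.R30
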