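import Crest.Prelude.Def_TriangleRemoval
/-!
Row 30 (triangle removal process, sharp constant). Definitions.

Plan. Stage 1: run the process until the codegrees have dropped to `D ≈ n^(1/100)`; all codegrees stay `(1 ± ζ) cb`
(martingale + spectral gap of the links + a linear stability lemma). Stage 2: the rest of the process is the greedy
algorithm for independent clocks; unroll it on the tree of non-backtracking walks, where survival probabilities obey an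
exact recursion (`Yb`), and couple with the graph through a stopping set.
-/
set_option autoImplicit false

noncomputable section

namespace Crest.Agent.R30

open Finset Crest.CombinatoricsR.TriangleRemoval

/-- indicator of a proposition -/
def ind (P : Prop) : ℝ := by classical exact if P then 1 else 0

theorem ind_pos {P : Prop} (h : P) : ind P = 1 := by simp [ind, h]
theorem ind_neg {P : Prop} (h : ¬ P) : ind P = 0 := by simp [ind, h]
theorem ind_nonneg (P : Prop) : 0 ≤ ind P := by by_cases h : P <;> simp [ind, h]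
theorem ind_le_one (P : Prop) : ind P ≤ 1 := by by_cases h : P <;> simp [ind, h]
theorem ind_and (P Q : Prop) : ind (P ∧ Q) = ind P * ind Q := by
  by_cases h : P <;> by_cases h' : Q <;> simp [ind, h, h']
theorem ind_mono {P Q : Prop} (h : P → Q) : ind P ≤ ind Q := by
  by_cases h' : P
  · rw [ind_pos h', ind_pos (h h')]
  · rw [ind_neg h']; exact ind_nonneg _
theorem ind_congr {P Q : Prop} (h : P ↔ Q) : ind P = ind Q := by rw [propext h]

/-! ### graphs -/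

abbrev Ed (n : ℕ) := Finset (Sym2 (Fin n))

variable {n : ℕ}

def adj (E : Ed n) (u v : Fin n) : Prop := u ≠ v ∧ s(u, v) ∈ E

instance (E : Ed n) (u v : Fin n) : Decidable (adj E u v) :=
  inferInstanceAs (Decidable (u ≠ v ∧ s(u, v) ∈ E))

/-- neighbours -/
def nb (E : Ed n) (u : Fin n) : Finset (Fin n) := univ.filter fun v => adj E u v

/-- common neighbours -/
def cn (E : Ed n) (u v : Fin n) : Finset (Fin n) := univ.filter fun w => adj E u w ∧ adj E v w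

/-- the linearised interaction operator -/
def Lop (E : Ed n) (c : ℝ) (z : Fin n → Fin n → ℝ) (u v : Fin n) : ℝ :=
  (∑ w ∈ cn E u v, (z u w + z v w)) / c

/-- every link graph, normalised by `c`, is `η`-close in `ℓ²` to the averaging operator -/
def Spec (E : Ed n) (c η : ℝ) : Prop :=
  ∀ (u : Fin n) (y : Fin n → ℝ),
    ∑ v ∈ nb E u, ((∑ w ∈ cn E u v, y w) / c - (∑ w ∈ nb E u, y w) / ((nb E u).card : ℝ)) ^ 2 ≤
      η ^ 2 * ∑ w ∈ nb E u, y w ^ 2

/-- `wk E u w ℓ y`: number of walks of length `ℓ` from `y` to `w` in the link of `u` -/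
def wk (E : Ed n) (u w : Fin n) : ℕ → Fin n → ℕ
  | 0, y => if y = w then 1 else 0
  | ℓ + 1, y => ∑ y' ∈ cn E u y, wk E u w ℓ y'

/-- number of triangles, as a real -/
def Qn (E : Ed n) : ℝ := ((triangles E).card : ℝ)

/-- positive linear functionals on functions of the graph -/
structure Fn (T : (Ed n → ℝ) → ℝ) : Prop where
  add : ∀ f g, T (fun E => f E + g E) = T f + T g
  smul : ∀ (c : ℝ) f, T (fun E => c * f E) = c * T f
  mono : ∀ f g, (∀ E, f E ≤ g E) → T f ≤ T g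

/-- survival bound for small edge sets -/
def Surv (T : (Ed n → ℝ) → ℝ) (p : ℝ) (K : ℕ) : Prop :=
  ∀ S : Ed n, S.card ≤ K → T (fun E => ind (S ⊆ E)) ≤ p ^ S.card

/-! ### stage 1: the chain on histories (most recent triangle first) -/

abbrev Hs (n : ℕ) := List (Finset (Fin n))

def gr : Hs n → Ed n
  | [] => allEdges n
  | t :: l => gr l \ t.sym2

/-- one step of the chain -/
def Kr (φ : Hs n → ℝ) (l : Hs n) : ℝ :=
  if (triangles (gr l)).card = 0 then φ (∅ :: l)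
  else (Qn (gr l))⁻¹ * ∑ t ∈ triangles (gr l), φ (t :: l)

/-- expectation after `i` steps -/
def Ex : ℕ → (Hs n → ℝ) → ℝ
  | 0, φ => φ []
  | i + 1, φ => Ex i (Kr φ)

def Reach : Hs n → Prop
  | [] => True
  | t :: l => Reach l ∧ (t ∈ triangles (gr l) ∨ (t = ∅ ∧ triangles (gr l) = ∅))

/-- `G` held one step before -/
def Pre (G : Hs n → Prop) : Hs n → Prop
  | [] => True
  | _ :: l => G l

/-- the (adapted) ideal codegree -/
def cb : Hs n → ℝ
  | [] => (n : ℝ) - 2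
  | _ :: l => cb l * (1 - 2 * (cb l / Qn (gr l)))

/-- relative codegree error -/
def xx (l : Hs n) (u v : Fin n) : ℝ := ((cn (gr l) u v).card : ℝ) / cb l - 1

/-- change of the codegree of `uv` when the triangle `t` is removed (zero if `t` contains `uv`) -/
def xi (E : Ed n) (u v : Fin n) (t : Finset (Fin n)) : ℝ :=
  if u ∈ t ∧ v ∈ t then 0 else ((cn (E \ t.sym2) u v).card : ℝ) - (cn E u v).card

/-- the martingale part of `xx` -/
def Mt (u v : Fin n) : Hs n → ℝ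
  | [] => 0
  | t :: l => Mt u v l + if adj (gr l) u v then
      (xi (gr l) u v t - (Qn (gr l))⁻¹ * ∑ t' ∈ triangles (gr l), xi (gr l) u v t') / cb (t :: l) else 0

/-- number of edges after `i` steps -/
def mm (n i : ℕ) : ℝ := (n : ℝ) * (n - 1) / 2 - 3 * i

/-- edge density after `i` steps -/
def pp (n i : ℕ) : ℝ := mm n i / mm n 0

/-- upper survival factor -/
def ph (n : ℕ) (ζ : ℝ) (i : ℕ) : ℝ := ∏ j ∈ range i, (1 - (1 - 3 * ζ) * (3 / mm n j))

/-- amplification constant of the stability lemma -/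
def Amp (σ : ℝ) (k : ℕ) : ℝ := 1 + 8 * k * (σ + 2 * σ ^ 2) * (6 * (σ + 2 * σ ^ 2) + 1) ^ k

/-- moment bound for walk counts -/
def Fw (n : ℕ) (p : ℝ) (k j : ℕ) : ℝ :=
  (2 * (3 + j * k : ℝ)) ^ k * Real.sqrt (n * p ^ 2) ^ k + p * (n * p ^ 2 + 2 * (3 + j * k : ℝ)) ^ (k - 1)

structure Par where
  I : ℕ
  j : ℕ
  l : ℕ
  k' : ℕ
  K : ℕ
  N : ℕ
  ζ0 : ℝ
  ζ : ℝ
  ζ2 : ℝ
  κ : ℝ
  η : ℝ
  Λ : ℝ
  Dm : ℝ
  DM : ℝ

def Par.k (P : Par) : ℕ := 2 ^ (P.l + 1)
def Par.θ (P : Par) : ℝ := 40 * P.ζ * P.Λ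
def Par.Λ2 (P : Par) : ℝ := P.DM / P.N + Real.log (1 + 2 * P.DM) / 2
def Par.hb (P : Par) : ℝ := 2 * P.Λ2 / P.Dm

/-- the inequalities between the parameters -/
structure Ok (n : ℕ) (P : Par) : Prop where
  n3 : 3 ≤ n
  ζpos : 0 < P.ζ
  ζle : P.ζ ≤ 1 / 100
  κpos : 0 < P.κ
  κle : P.κ ≤ 1
  ζη : P.ζ ≤ P.η
  mI : 3 / P.ζ ≤ mm n P.I
  Λ1 : 1 ≤ P.Λ
  logm : Real.log (mm n 0 / mm n P.I) ≤ P.Λ
  Dm16 : 16 ≤ P.Dm
  Dmle : P.Dm ≤ Real.exp (-P.θ) * (n - 2) * pp n P.I ^ 2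
  DMge : Real.exp P.θ * n * pp n P.I ^ 2 ≤ P.DM
  amp : Amp (4 * P.Λ) P.k' * (P.ζ0 + 16 * P.Λ / P.Dm) ≤ P.ζ
  ζ0pos : 0 ≤ P.ζ0
  gap : (2 * (4 * P.Λ + 2 * (4 * P.Λ) ^ 2) * P.η) ^ P.k' * n ≤ 1 / 2
  spec : (1 + P.κ) ^ 2 * (Real.exp (3 * P.θ) * n / (n - 2)) ^ P.k - (1 - P.ζ) ^ P.k ≤ (P.η - P.ζ) ^ P.k
  size1 : ((2 + 2 * P.j * P.k : ℕ) : ℝ) ≤ P.ζ * P.Dm
  size2 : ((4 * P.K + 3 : ℕ) : ℝ) ≤ P.ζ * P.Dm
  walk : ∀ p, pp n P.I ≤ p → p ≤ 1 → Fw n p P.k P.j ≤ (1 + P.κ / 3) * (n ^ (P.k - 1) * p ^ (2 * P.k - 1))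
  deg : ∀ p, pp n P.I ≤ p → p ≤ 1 → n * p + P.j ≤ (1 + P.κ / 3) * (n * p)
  Npos : 2 * n ^ 6 ≤ P.N
  DN : P.DM / P.N ≤ P.ζ
  Λ2le : P.Λ2 ≤ P.Λ
  ybar : 2 * P.Λ / P.Dm ≤ P.ζ
  amp2 : Amp (4 * P.Λ) P.k' * (P.Λ * (100 * (P.ζ + P.ζ2 ^ 2))) ≤ P.ζ2
  ζ2le : P.ζ2 ≤ 1 / 100

/-- upper bounds on degrees and on walk counts in the links -/
def Up (P : Par) (l : Hs n) : Prop :=
  (∀ u, ((nb (gr l) u).card : ℝ) ≤ (1 + P.κ) * (n * ph n P.ζ l.length)) ∧
  ∀ u v w, adj (gr l) u v → adj (gr l) u w →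
    (wk (gr l) u w P.k v : ℝ) ≤ (1 + P.κ) * (n ^ (P.k - 1) * ph n P.ζ l.length ^ (2 * P.k - 1))

def Mart (P : Par) (l : Hs n) : Prop := ∀ u v, |Mt u v l| ≤ P.ζ0

/-- the good event -/
def Good (P : Par) : Hs n → Prop
  | [] => Mart P ([] : Hs n) ∧ Up P ([] : Hs n)
  | t :: l => Good P l ∧ (Mart P (t :: l) ∧ Up P (t :: l))

/-- deterministic consequences of the good event -/
structure Reg (P : Par) (l : Hs n) : Prop where
  card : ((gr l).card : ℝ) = mm n l.length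
  small : ∀ u v, adj (gr l) u v → |xx l u v| ≤ P.ζ
  spec : Spec (gr l) (cb l) P.η
  lo : Real.exp (-P.θ) * (n - 2) * pp n l.length ^ 2 ≤ cb l
  hi : cb l ≤ Real.exp P.θ * n * pp n l.length ^ 2

/-- the annealed functional at time `i` -/
def Tn (P : Par) (i : ℕ) (φ : Ed n → ℝ) : ℝ := Ex i (fun l => ind (Pre (Good P) l) * φ (gr l))

/-- bound for the probability of the bad event -/
def Pfail (n : ℕ) (P : Par) : ℝ :=
  (P.I + 1) * (n ^ 2 * (2 * Real.exp (128 * P.Λ - Real.sqrt P.Dm * P.ζ0)) +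
    (n + n ^ 3) * Real.exp (-(P.j * P.κ / 3)))

/-! ### independent clocks -/

/-- extension by zero of a clock assignment on `J` -/
def ext {ι : Type*} [DecidableEq ι] (J : Finset ι) {N : ℕ} (ω : J → Fin N) (a : ι) : ℕ :=
  if h : a ∈ J then (ω ⟨a, h⟩ : ℕ) else 0

/-- expectation over independent uniform clocks in `{0, …, N-1}` on the coordinates in `J` -/
def EJ {ι : Type*} [DecidableEq ι] (J : Finset ι) (N : ℕ) (φ : (ι → ℕ) → ℝ) : ℝ :=
  (∑ ω : J → Fin N, φ (ext J ω)) / (N : ℝ) ^ J.card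

/-- `φ` depends only on the coordinates in `A` -/
def Dep {ι : Type*} (φ : (ι → ℕ) → ℝ) (A : Set ι) : Prop :=
  ∀ ω ω', (∀ a ∈ A, ω a = ω' a) → φ ω = φ ω'

/-- `gal E ω t u v`: in the greedy process with clocks `ω`, the pair `uv` is alive at time `t` -/
def gal (E : Ed n) (ω : Finset (Fin n) → ℕ) (t : ℕ) (u v : Fin n) : Prop :=
  ∀ w ∈ cn E u v, ∀ _ : ω {u, v, w} < t, ¬ (gal E ω (ω {u, v, w}) u w ∧ gal E ω (ω {u, v, w}) v w)
termination_by t

theorem gal_iff (E : Ed n) (ω : Finset (Fin n) → ℕ) (t : ℕ) (u v : Fin n) :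
    gal E ω t u v ↔ ∀ w ∈ cn E u v, ω {u, v, w} < t →
      ¬ (gal E ω (ω {u, v, w}) u w ∧ gal E ω (ω {u, v, w}) v w) := by
  rw [gal]

/-- the edges alive at time `t` -/
def finE (E : Ed n) (ω : Finset (Fin n) → ℕ) (t : ℕ) : Ed n := by
  classical exact E.filter fun e => ∀ u v, e = s(u, v) → gal E ω t u v

/-! ### stage 2: the tree of non-backtracking walks, with two roots -/

/-- address of an edge node: root, and the steps (new vertex, side), most recent first -/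
abbrev Ad (n : ℕ) := Bool × List (Fin n × Bool)

/-- triangle node: an edge node and a third vertex -/
abbrev Nd (n : ℕ) := Ad n × Fin n

/-- the two root edges -/
abbrev Rt (n : ℕ) := Bool → Fin n × Fin n

/-- state `(x, y, z)` of an edge node: the edge `xy` and the third vertex `z` of the parent triangle -/
def st (ρ : Rt n) (b : Bool) : List (Fin n × Bool) → Fin n × Fin n × Fin n
  | [] => ((ρ b).1, (ρ b).2, (ρ b).1)
  | c :: a => if c.2 then ((st ρ b a).2.1, c.1, (st ρ b a).1) else ((st ρ b a).1, c.1, (st ρ b a).2.1)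

def sx (ρ : Rt n) (a : Ad n) : Fin n := (st ρ a.1 a.2).1
def sy (ρ : Rt n) (a : Ad n) : Fin n := (st ρ a.1 a.2).2.1
def sz (ρ : Rt n) (a : Ad n) : Fin n := (st ρ a.1 a.2).2.2

/-- third vertices of the child triangles -/
def ch (E : Ed n) (ρ : Rt n) (a : Ad n) : Finset (Fin n) := (cn E (sx ρ a) (sy ρ a)).erase (sz ρ a)

/-- the two edge nodes below a triangle node -/
def kid (T : Nd n) (s : Bool) : Ad n := (T.1.1, (T.2, s) :: T.1.2)

/-- the triangle of the graph under a triangle node -/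
def prj (ρ : Rt n) (T : Nd n) : Finset (Fin n) := {sx ρ T.1, sy ρ T.1, T.2}

/-- the edge node `a` is alive at time `t` in its subtree -/
def al (E : Ed n) (ρ : Rt n) (ω : Nd n → ℕ) (t : ℕ) (a : Ad n) : Prop :=
  ∀ w ∈ ch E ρ a, ∀ _ : ω (a, w) < t,
    ¬ (al E ρ ω (ω (a, w)) (kid (a, w) false) ∧ al E ρ ω (ω (a, w)) (kid (a, w) true))
termination_by t

theorem al_iff (E : Ed n) (ρ : Rt n) (ω : Nd n → ℕ) (t : ℕ) (a : Ad n) :
    al E ρ ω t a ↔ ∀ w ∈ ch E ρ a, ω (a, w) < t →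
      ¬ (al E ρ ω (ω (a, w)) (kid (a, w) false) ∧ al E ρ ω (ω (a, w)) (kid (a, w) true)) := by
  rw [al]

/-- alive when the child triangles in `X` are ignored -/
def alE (E : Ed n) (ρ : Rt n) (ω : Nd n → ℕ) (X : Finset (Nd n)) (t : ℕ) (a : Ad n) : Prop :=
  ∀ w ∈ ch E ρ a, (a, w) ∉ X → ω (a, w) < t →
    ¬ (al E ρ ω (ω (a, w)) (kid (a, w) false) ∧ al E ρ ω (ω (a, w)) (kid (a, w) true))

/-- triangle nodes below the edge node `a` -/
def sub (a : Ad n) : Set (Nd n) := {T | T.1.1 = a.1 ∧ a.2 <:+ T.1.2}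

/-- the triangle node `T` and everything below it -/
def subT (T : Nd n) : Set (Nd n) := {T} ∪ (sub (kid T false) ∪ sub (kid T true))

/-- relevant triangle nodes of the exploration -/
def rel (E : Ed n) (ρ : Rt n) (ω : Nd n → ℕ) (b : Bool) : List (Fin n × Bool) → Fin n → Prop
  | [], w => w ∈ ch E ρ (b, [])
  | c :: a, w => rel E ρ ω b a c.1 ∧ w ∈ ch E ρ (b, c :: a) ∧ ω ((b, c :: a), w) < ω ((b, a), c.1) ∧
      al E ρ ω (ω ((b, c :: a), w)) (b, c :: a) ∧ al E ρ ω (ω ((b, c :: a), w)) (b, (c.1, !c.2) :: a)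

/-- visited edge nodes -/
def vis (E : Ed n) (ρ : Rt n) (ω : Nd n → ℕ) : Ad n → Prop
  | (_, []) => True
  | (b, c :: a) => rel E ρ ω b a c.1

/-- the queried clocks -/
def Qs (E : Ed n) (ρ : Rt n) (ω : Nd n → ℕ) : Set (Nd n) := {T | vis E ρ ω T.1 ∧ T.2 ∈ ch E ρ T.1}

/-- addresses all of whose steps follow triangles of the graph -/
def val (E : Ed n) (ρ : Rt n) (b : Bool) : List (Fin n × Bool) → Prop
  | [] => True
  | c :: a => val E ρ b a ∧ c.1 ∈ ch E ρ (b, a)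

/-- step lists of a given length -/
def Ls (n : ℕ) : ℕ → Finset (List (Fin n × Bool))
  | 0 => {[]}
  | k + 1 => (univ ×ˢ Ls n k).image fun q : (Fin n × Bool) × List (Fin n × Bool) => q.1 :: q.2

theorem mem_Ls {k : ℕ} {a : List (Fin n × Bool)} : a ∈ Ls n k ↔ a.length = k := by
  induction k generalizing a with
  | zero => simp [Ls]
  | succ k ih =>
    cases a with
    | nil => simp [Ls]
    | cons c a => simp [Ls, ih]

/-- addresses of length `< K` -/
def Ads (n K : ℕ) : Finset (Ad n) := univ ×ˢ (range K).biUnion (Ls n)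

theorem mem_Ads {K : ℕ} {a : Ad n} : a ∈ Ads n K ↔ a.2.length < K := by
  simp [Ads, mem_Ls]

/-- the coordinates of the truncated tree -/
def Jn (n N : ℕ) : Finset (Nd n) := Ads n (N + 1) ×ˢ univ

theorem mem_Jn {N : ℕ} {T : Nd n} : T ∈ Jn n N ↔ T.1.2.length ≤ N := by
  simp [Jn, mem_Ads, Nat.lt_succ_iff]

/-- triangle nodes on the way from the root -/
def pathL (b : Bool) : List (Fin n × Bool) → Finset (Nd n)
  | [] => ∅
  | c :: a => insert ((b, a), c.1) (pathL b a)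

def path (a : Ad n) : Finset (Nd n) := pathL a.1 a.2

/-- the four root vertices -/
def rv (ρ : Rt n) : Finset (Fin n) := {(ρ false).1, (ρ false).2, (ρ true).1, (ρ true).2}

/-- no vertex is used twice -/
def Fresh (ρ : Rt n) (S : Finset (Nd n)) : Prop :=
  (rv ρ).card = 4 ∧ Set.InjOn Prod.snd (S : Set (Nd n)) ∧ ∀ T ∈ S, T.2 ∉ rv ρ

def VU (ρ : Rt n) (S : Finset (Nd n)) : Finset (Fin n) := rv ρ ∪ S.image Prod.snd

def EU (ρ : Rt n) (S : Finset (Nd n)) : Ed n :=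
  {s((ρ false).1, (ρ false).2), s((ρ true).1, (ρ true).2)} ∪
    S.biUnion fun T => {s(sx ρ T.1, T.2), s(sy ρ T.1, T.2)}

/-- two tree paths on distinct vertices, present in the graph together with one more edge -/
def Cfg (E : Ed n) (ρ : Rt n) (a a' : Ad n) : Prop :=
  Fresh ρ (path a ∪ path a') ∧ EU ρ (path a ∪ path a') ⊆ E ∧
    ∃ u ∈ VU ρ (path a ∪ path a'), ∃ v ∈ VU ρ (path a ∪ path a'),
      adj E u v ∧ s(u, v) ∉ EU ρ (path a ∪ path a')

/-- weight of a path of length `k` -/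
def Gf (h : ℝ) (k : ℕ) : ℝ := h ^ (k - 1) / ((k - 1).factorial : ℝ)

/-- weighted number of bad configurations -/
def Bc (E : Ed n) (h : ℝ) (K : ℕ) : ℝ :=
  ∑ ρ : Rt n, ∑ a ∈ Ads n K, ∑ a' ∈ Ads n K,
    ind (Cfg E ρ a a') * (Gf h a.2.length * Gf h (path a' \ path a).card)

def BcB (n : ℕ) (p h : ℝ) (K : ℕ) : ℝ :=
  n ^ 4 * p ^ 3 * (2 * K + 4) ^ 2 * (2 * (2 * K + 2)) * (1 + 2 * n * p ^ 2 * Real.exp (2 * n * p ^ 2 * h)) ^ 2

/-- cavity survival probability computed from `Y` -/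
def qc (E : Ed n) (Y : Fin n → Fin n → Fin n → ℝ) (x y z : Fin n) : ℝ :=
  ∏ w ∈ (cn E x y).erase z, (1 - Y x y w)

/-- `Yb E N t x y w`: probability that the triangle `xyw` rings before `t` while its two other edges are alive -/
def Yb (E : Ed n) (N : ℕ) : ℕ → Fin n → Fin n → Fin n → ℝ
  | 0 => fun _ _ _ => 0
  | t + 1 => fun x y w => Yb E N t x y w + qc E (Yb E N t) x w y * qc E (Yb E N t) y w x / N

/-- full survival probability on the tree -/
def qf (E : Ed n) (N t : ℕ) (x y : Fin n) : ℝ := ∏ w ∈ cn E x y, (1 - Yb E N t x y w)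

/-- the target value `2 * n^(3/2) / (2 √2)` of twice the final number of edges -/
def Atg (n : ℕ) : ℝ := (n : ℝ) ^ ((3 : ℝ) / 2) / Real.sqrt 2

/-- the final smallness conditions -/
structure Small (n : ℕ) (P : Par) (ε : ℝ) : Prop where
  alpha : Atg n ≤ 2 * mm n P.I
  eq : ∀ D q : ℝ, Real.exp (-P.θ) * (n - 2) * pp n P.I ^ 2 ≤ D → D ≤ Real.exp P.θ * n * pp n P.I ^ 2 →
    0 < q → |Real.log q + Real.log (1 + 2 * D) / 2| ≤ P.ζ2 →
    |2 * mm n P.I * q - Atg n| ≤ ε * (n : ℝ) ^ ((3 : ℝ) / 2)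
  meet : 16 * mm n P.I * n ≤ ε * n ^ 3
  tail : 2 * (2 * mm n P.I) ^ 2 * (2 * (4 * P.DM) ^ P.K * Gf P.hb P.K) ≤ ε * n ^ 3
  bc : 2 * BcB n (Real.exp P.θ * pp n P.I) P.hb P.K ≤ ε * n ^ 3
  fail : n * Pfail n P ≤ ε

end Crest.Agent.R30
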