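import Crest.Agent.R30.Defs
set_option autoImplicit false

noncomputable section

namespace Crest.Agent.R30

open Finset Crest.CombinatoricsR.TriangleRemoval

variable {n : ℕ}

theorem adj_symm {E : Ed n} {u v : Fin n} (h : adj E u v) : adj E v u :=
  ⟨h.1.symm, by rw [Sym2.eq_swap]; exact h.2⟩

theorem mem_nb {E : Ed n} {u v : Fin n} : v ∈ nb E u ↔ adj E u v := by simp [nb]

theorem mem_cn {E : Ed n} {u v w : Fin n} : w ∈ cn E u v ↔ adj E u w ∧ adj E v w := by simp [cn]

theorem cn_comm (E : Ed n) (u v : Fin n) : cn E u v = cn E v u := by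
  ext w; simp [mem_cn, and_comm]

theorem adj_mono {E E' : Ed n} (h : E ⊆ E') {u v : Fin n} (ha : adj E u v) : adj E' u v := ⟨ha.1, h ha.2⟩

theorem adj_sdiff {E : Ed n} {t : Finset (Fin n)} {u v : Fin n} :
    adj (E \ t.sym2) u v ↔ adj E u v ∧ ¬ (u ∈ t ∧ v ∈ t) := by
  simp [adj, Finset.mk_mem_sym2_iff, and_assoc]

theorem gr_sub (l : Hs n) : gr l ⊆ allEdges n := by
  induction l with
  | nil => exact Subset.refl _
  | cons t l ih => exact Finset.sdiff_subset.trans ih

theorem mem_allEdges {u v : Fin n} : s(u, v) ∈ allEdges n ↔ u ≠ v := by simp [allEdges]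

theorem mem_triangles {E : Ed n} {t : Finset (Fin n)} :
    t ∈ triangles E ↔ t.card = 3 ∧ ∀ u ∈ t, ∀ v ∈ t, u ≠ v → s(u, v) ∈ E := by
  simp [triangles, Finset.mem_powersetCard]

theorem adj_of_mem {E : Ed n} (hE : E ⊆ allEdges n) {u v : Fin n} (h : s(u, v) ∈ E) : adj E u v :=
  ⟨mem_allEdges.1 (hE h), h⟩

theorem adj_of_tri {E : Ed n} {t : Finset (Fin n)} (ht : t ∈ triangles E) {u v : Fin n}
    (hu : u ∈ t) (hv : v ∈ t) (h : u ≠ v) : adj E u v :=
  ⟨h, (mem_triangles.1 ht).2 u hu v hv h⟩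

theorem card_three {u v w : Fin n} (h1 : u ≠ v) (h2 : u ≠ w) (h3 : v ≠ w) :
    ({u, v, w} : Finset (Fin n)).card = 3 :=
  Finset.card_eq_three.2 ⟨u, v, w, h1, h2, h3, rfl⟩

theorem eq_three {t : Finset (Fin n)} (ht : t.card = 3) {u v w : Fin n} (hu : u ∈ t) (hv : v ∈ t)
    (hw : w ∈ t) (h1 : u ≠ v) (h2 : u ≠ w) (h3 : v ≠ w) : t = {u, v, w} := by
  refine (Finset.eq_of_subset_of_card_le ?_ ?_).symm
  · intro x hx
    simp only [Finset.mem_insert, Finset.mem_singleton] at hx
    rcases hx with rfl | rfl | rfl <;> assumption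
  · rw [ht, card_three h1 h2 h3]

theorem tri_mem {E : Ed n} {u v w : Fin n} (h : adj E u v) (hw : w ∈ cn E u v) :
    ({u, v, w} : Finset (Fin n)) ∈ triangles E := by
  obtain ⟨h1, h2⟩ := mem_cn.1 hw
  refine mem_triangles.2 ⟨card_three h.1 h1.1 h2.1, fun a ha b hb hab => ?_⟩
  simp only [Finset.mem_insert, Finset.mem_singleton] at ha hb
  rcases ha with rfl | rfl | rfl <;> rcases hb with rfl | rfl | rfl <;>
    first
      | exact absurd rfl hab
      | exact h.2
      | exact (adj_symm h).2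
      | exact h1.2
      | exact (adj_symm h1).2
      | exact h2.2
      | exact (adj_symm h2).2

theorem exists_third {E : Ed n} {t : Finset (Fin n)} (ht : t ∈ triangles E) {u v : Fin n}
    (hu : u ∈ t) (hv : v ∈ t) (h : u ≠ v) : ∃ w ∈ cn E u v, t = {u, v, w} := by
  have h3 := (mem_triangles.1 ht).1
  have h1 : ((t.erase u).erase v).card = 1 := by
    rw [Finset.card_erase_of_mem (Finset.mem_erase.2 ⟨h.symm, hv⟩), Finset.card_erase_of_mem hu, h3]
  obtain ⟨w, hw⟩ := Finset.card_eq_one.1 h1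
  have h2 : w ∈ (t.erase u).erase v := by rw [hw]; exact Finset.mem_singleton_self w
  simp only [Finset.mem_erase] at h2
  exact ⟨w, mem_cn.2 ⟨adj_of_tri ht hu h2.2.2 h2.2.1.symm, adj_of_tri ht hv h2.2.2 h2.1.symm⟩,
    eq_three h3 hu hv h2.2.2 h h2.2.1.symm h2.1.symm⟩

/-- sums over ordered adjacent pairs count every edge twice -/
theorem sum_nb_eq {E : Ed n} (hE : E ⊆ allEdges n) (f : Sym2 (Fin n) → ℝ) :
    ∑ u, ∑ v ∈ nb E u, f s(u, v) = 2 * ∑ e ∈ E, f e := by
  have h1 : ∑ u, ∑ v ∈ nb E u, f s(u, v) =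
      ∑ p ∈ (univ : Finset (Fin n × Fin n)).filter (fun p => adj E p.1 p.2), f s(p.1, p.2) := by
    rw [Finset.sum_filter, Fintype.sum_prod_type]
    refine Finset.sum_congr rfl fun u _ => ?_
    rw [nb, Finset.sum_filter]
  rw [h1, ← Finset.sum_fiberwise_of_maps_to (t := E) (g := fun p : Fin n × Fin n => s(p.1, p.2))
    fun p hp => (Finset.mem_filter.1 hp).2.2, Finset.mul_sum]
  refine Finset.sum_congr rfl fun e he => ?_
  induction e using Sym2.ind with
  | _ a b =>
    have hab := adj_of_mem hE he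
    have h2 : ((univ : Finset (Fin n × Fin n)).filter (fun p => adj E p.1 p.2)).filter
        (fun p => s(p.1, p.2) = s(a, b)) = {(a, b), (b, a)} := by
      ext ⟨x, y⟩
      simp only [Finset.mem_filter, Finset.mem_univ, true_and, Finset.mem_insert,
        Finset.mem_singleton, Prod.mk.injEq, Sym2.eq_iff]
      constructor
      · exact fun h => h.2
      · rintro (⟨rfl, rfl⟩ | ⟨rfl, rfl⟩)
        · exact ⟨hab, Or.inl ⟨rfl, rfl⟩⟩
        · exact ⟨adj_symm hab, Or.inr ⟨rfl, rfl⟩⟩
    rw [h2, Finset.sum_pair (fun h => hab.1 (Prod.mk.inj h).1), Sym2.eq_swap (a := b)]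
    ring

theorem card_allEdges : ((allEdges n).card : ℝ) = (n : ℝ) * (n - 1) / 2 := by
  have h1 := sum_nb_eq (Subset.refl (allEdges n)) fun _ => 1
  have h2 : ∀ u : Fin n, ∑ _v ∈ nb (allEdges n) u, (1 : ℝ) = (n : ℝ) - 1 := by
    intro u
    have : nb (allEdges n) u = univ.erase u := by
      ext v
      simp [mem_nb, adj, mem_allEdges, eq_comm]
    rw [this, Finset.sum_const, Finset.card_erase_of_mem (Finset.mem_univ _), Finset.card_univ,
      Fintype.card_fin, nsmul_eq_mul, mul_one, Nat.cast_sub u.pos, Nat.cast_one]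
  simp only [h2] at h1
  rw [Finset.sum_const, Finset.sum_const, Finset.card_univ, Fintype.card_fin, nsmul_eq_mul,
    nsmul_eq_mul, mul_one] at h1
  linarith

theorem cn_allEdges {u v : Fin n} (h : u ≠ v) : ((cn (allEdges n) u v).card : ℝ) = (n : ℝ) - 2 := by
  have h1 : cn (allEdges n) u v = univ \ {u, v} := by
    ext w
    simp [mem_cn, adj, mem_allEdges, eq_comm]
  have h2 : ({u, v} : Finset (Fin n)).card = 2 := Finset.card_pair h
  have h3 : 2 ≤ n := by
    have := Finset.card_le_univ ({u, v} : Finset (Fin n))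
    rwa [h2, Fintype.card_fin] at this
  rw [h1, Finset.card_univ_sdiff, Fintype.card_fin, h2, Nat.cast_sub h3, Nat.cast_ofNat]

theorem two_card {E : Ed n} (hE : E ⊆ allEdges n) : ∑ u, ((nb E u).card : ℝ) = 2 * E.card := by
  simpa using sum_nb_eq hE fun _ => 1

/-- the triangles containing an edge `uv` correspond to the common neighbours -/
theorem card_tri_edge {E : Ed n} {u v : Fin n} (h : adj E u v) :
    ((triangles E).filter fun t => u ∈ t ∧ v ∈ t).card = (cn E u v).card := by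
  symm
  refine Finset.card_bij (fun w _ => ({u, v, w} : Finset (Fin n))) (fun w hw => ?_)
    (fun w hw w' _ e => ?_) fun t ht => ?_
  · exact Finset.mem_filter.2 ⟨tri_mem h hw, by simp, by simp⟩
  · obtain ⟨h1, h2⟩ := mem_cn.1 hw
    have : w ∈ ({u, v, w'} : Finset (Fin n)) := by rw [← e]; simp
    simp only [Finset.mem_insert, Finset.mem_singleton] at this
    rcases this with e' | e' | e'
    · exact absurd e'.symm h1.1
    · exact absurd e'.symm h2.1
    · exact e'
  · obtain ⟨h1, h2, h3⟩ := Finset.mem_filter.1 ht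
    obtain ⟨w, hw, e⟩ := exists_third h1 h2 h3 h.1
    exact ⟨w, hw, e.symm⟩

theorem sum_tri_edge {E : Ed n} {u v : Fin n} (h : adj E u v) :
    (∑ t ∈ triangles E, if u ∈ t ∧ v ∈ t then (1 : ℝ) else 0) = (cn E u v).card := by
  rw [← card_tri_edge h, Finset.card_filter]
  push_cast
  rfl

theorem six_Qn (E : Ed n) : ∑ u, ∑ v ∈ nb E u, ((cn E u v).card : ℝ) = 6 * Qn E := by
  have h1 : ∑ u, ∑ v ∈ nb E u, ((cn E u v).card : ℝ) =
      ∑ u, ∑ v ∈ nb E u, ∑ t ∈ triangles E, if u ∈ t ∧ v ∈ t then (1 : ℝ) else 0 :=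
    Finset.sum_congr rfl fun u _ => Finset.sum_congr rfl fun v hv =>
      (sum_tri_edge (mem_nb.1 hv)).symm
  rw [h1]
  simp only [Finset.sum_comm (t := triangles E)]
  unfold Qn
  rw [mul_comm, ← nsmul_eq_mul, ← Finset.sum_const]
  refine Finset.sum_congr rfl fun t ht => ?_
  have h3 := (mem_triangles.1 ht).1
  have h2 : ∀ u, (∑ v ∈ nb E u, if u ∈ t ∧ v ∈ t then (1 : ℝ) else 0) = if u ∈ t then 2 else 0 := by
    intro u
    by_cases hu : u ∈ t
    · have : (nb E u).filter (fun v => u ∈ t ∧ v ∈ t) = t.erase u := by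
        ext v
        simp only [Finset.mem_filter, mem_nb, Finset.mem_erase]
        exact ⟨fun h => ⟨h.1.1.symm, h.2.2⟩, fun h => ⟨adj_of_tri ht hu h.2 h.1.symm, hu, h.2⟩⟩
      rw [← Finset.sum_filter, this, Finset.sum_const, Finset.card_erase_of_mem hu, h3, if_pos hu]
      norm_num
    · simp [hu]
  simp only [h2]
  rw [← Finset.sum_filter, Finset.filter_mem_eq_inter, Finset.univ_inter, Finset.sum_const, h3]
  norm_num

theorem card_sdiff_tri {E : Ed n} (hE : E ⊆ allEdges n) {t : Finset (Fin n)} (ht : t ∈ triangles E) :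
    ((E \ t.sym2).card : ℝ) = E.card - 3 := by
  have h3 := (mem_triangles.1 ht).1
  have h1 := two_card hE
  have h2 := two_card (Finset.sdiff_subset.trans hE : E \ t.sym2 ⊆ allEdges n)
  have h4 : ∀ u, ((nb (E \ t.sym2) u).card : ℝ) = (nb E u).card - if u ∈ t then 2 else 0 := by
    intro u
    by_cases hu : u ∈ t
    · have e : nb (E \ t.sym2) u = nb E u \ t.erase u := by
        ext v
        simp only [mem_nb, adj_sdiff, Finset.mem_sdiff, Finset.mem_erase]
        exact ⟨fun h => ⟨h.1, fun h' => h.2 ⟨hu, h'.2⟩⟩,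
          fun h => ⟨h.1, fun h' => h.2 ⟨h.1.1.symm, h'.2⟩⟩⟩
      have hsub : t.erase u ⊆ nb E u := fun v hv =>
        mem_nb.2 (adj_of_tri ht hu (Finset.mem_erase.1 hv).2 (Finset.mem_erase.1 hv).1.symm)
      rw [e, Finset.card_sdiff_of_subset hsub, Nat.cast_sub (Finset.card_le_card hsub),
        Finset.card_erase_of_mem hu, h3, if_pos hu]
      norm_num
    · have e : nb (E \ t.sym2) u = nb E u := by
        ext v
        simp [mem_nb, adj_sdiff, hu]
      rw [e, if_neg hu, sub_zero]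
  simp only [h4] at h2
  rw [Finset.sum_sub_distrib, h1, ← Finset.sum_filter, Finset.filter_mem_eq_inter,
    Finset.univ_inter, Finset.sum_const, h3] at h2
  norm_num at h2
  linarith

theorem xi_eq (E : Ed n) (u v : Fin n) (t : Finset (Fin n)) :
    xi E u v t = -∑ w ∈ cn E u v,
      if ¬ (u ∈ t ∧ v ∈ t) ∧ ((u ∈ t ∧ w ∈ t) ∨ (v ∈ t ∧ w ∈ t)) then (1 : ℝ) else 0 := by
  unfold xi
  split_ifs with h
  · simp [h]
  · have e : cn (E \ t.sym2) u v =
        (cn E u v).filter fun w => ¬ ((u ∈ t ∧ w ∈ t) ∨ (v ∈ t ∧ w ∈ t)) := by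
      ext w
      simp only [mem_cn, adj_sdiff, Finset.mem_filter]
      tauto
    rw [e, Finset.card_filter, Finset.card_eq_sum_ones (cn E u v)]
    push_cast
    rw [← Finset.sum_sub_distrib, ← Finset.sum_neg_distrib]
    refine Finset.sum_congr rfl fun w _ => ?_
    by_cases h' : (u ∈ t ∧ w ∈ t) ∨ (v ∈ t ∧ w ∈ t)
    · rw [if_neg (not_not.2 h'), if_pos ⟨h, h'⟩]; ring
    · rw [if_pos h', if_neg fun h'' => h' h''.2]; ring

theorem xi_bounds {E : Ed n} {t : Finset (Fin n)} (ht : t ∈ triangles E) (u v : Fin n) :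
    -2 ≤ xi E u v t ∧ xi E u v t ≤ 0 := by
  have h3 := (mem_triangles.1 ht).1
  rw [xi_eq, ← Finset.sum_filter, Finset.sum_const, nsmul_eq_mul, mul_one]
  refine ⟨neg_le_neg ?_, neg_nonpos.2 (Nat.cast_nonneg _)⟩
  have key : ∀ x ∈ t, ∀ A : Finset (Fin n), A ⊆ t.erase x → (A.card : ℝ) ≤ 2 := by
    intro x hx A hA
    have := Finset.card_le_card hA
    rw [Finset.card_erase_of_mem hx, h3] at this
    exact_mod_cast this
  by_cases hu : u ∈ t
  · refine key u hu _ fun w hw => ?_
    obtain ⟨h1, _, h2⟩ := Finset.mem_filter.1 hw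
    exact Finset.mem_erase.2 ⟨(mem_cn.1 h1).1.1.symm, h2.elim And.right And.right⟩
  · by_cases hv : v ∈ t
    · refine key v hv _ fun w hw => ?_
      obtain ⟨h1, _, h2⟩ := Finset.mem_filter.1 hw
      exact Finset.mem_erase.2 ⟨(mem_cn.1 h1).2.1.symm, h2.elim And.right And.right⟩
    · simp [hu, hv]

/-- For `w ∈ cn E u v` there are `c(u,w) - 1` triangles containing `u, w` and not `v`. -/
theorem sum_xi {E : Ed n} {u v : Fin n} (h : adj E u v) :
    ∑ t ∈ triangles E, xi E u v t =
      -∑ w ∈ cn E u v, (((cn E u w).card : ℝ) + (cn E v w).card - 2) := by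
  simp only [xi_eq]
  rw [Finset.sum_neg_distrib, Finset.sum_comm]
  congr 1
  refine Finset.sum_congr rfl fun w hw => ?_
  obtain ⟨h1, h2⟩ := mem_cn.1 hw
  have h3 : (∑ t ∈ triangles E, if t = {u, v, w} then (2 : ℝ) else 0) = 2 := by
    rw [Finset.sum_ite_eq', if_pos (tri_mem h hw)]
  rw [← sum_tri_edge h1, ← sum_tri_edge h2, ← Finset.sum_add_distrib]
  conv_rhs => rw [← h3]
  rw [← Finset.sum_sub_distrib]
  refine Finset.sum_congr rfl fun t ht => ?_
  have h4 : t = {u, v, w} ↔ u ∈ t ∧ v ∈ t ∧ w ∈ t :=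
    ⟨fun e => by rw [e]; simp, fun e =>
      eq_three (mem_triangles.1 ht).1 e.1 e.2.1 e.2.2 h.1 h1.1 h2.1⟩
  simp only [h4]
  by_cases hu : u ∈ t <;> by_cases hv : v ∈ t <;> by_cases hw' : w ∈ t <;>
    simp [hu, hv, hw'] <;> norm_num

theorem Qn_bounds {E : Ed n} (hE : E ⊆ allEdges n) {c ζ : ℝ} (hc : 0 < c)
    (h : ∀ u v, adj E u v → |((cn E u v).card : ℝ) / c - 1| ≤ ζ) :
    E.card * c * (1 - ζ) / 3 ≤ Qn E ∧ Qn E ≤ E.card * c * (1 + ζ) / 3 := by
  have h6 := six_Qn E
  have h2 : ∀ x : ℝ, ∑ u, ∑ _v ∈ nb E u, x = 2 * (E.card * x) := by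
    intro x
    rw [sum_nb_eq hE fun _ => x, Finset.sum_const, nsmul_eq_mul]
  have lo : ∑ u, ∑ _v ∈ nb E u, c * (1 - ζ) ≤ ∑ u, ∑ v ∈ nb E u, ((cn E u v).card : ℝ) := by
    refine Finset.sum_le_sum fun u _ => Finset.sum_le_sum fun v hv => ?_
    have := (abs_le.1 (h u v (mem_nb.1 hv))).1
    rw [mul_comm, ← le_div_iff₀ hc]
    linarith
  have hi : ∑ u, ∑ v ∈ nb E u, ((cn E u v).card : ℝ) ≤ ∑ u, ∑ _v ∈ nb E u, c * (1 + ζ) := by
    refine Finset.sum_le_sum fun u _ => Finset.sum_le_sum fun v hv => ?_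
    have := (abs_le.1 (h u v (mem_nb.1 hv))).2
    rw [mul_comm, ← div_le_iff₀ hc]
    linarith
  rw [h2, h6] at lo hi
  constructor <;> linarith

/-- two distinct edges lie in at most one common triangle -/
theorem card_two_edges {E : Ed n} {e e' : Sym2 (Fin n)} (he : e ∈ allEdges n)
    (he' : e' ∈ allEdges n) (hne : e ≠ e') :
    ((triangles E).filter fun t => e ∈ t.sym2 ∧ e' ∈ t.sym2).card ≤ 1 := by
  induction e using Sym2.ind with
  | _ a b =>
  induction e' using Sym2.ind with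
  | _ c d =>
    have hab := mem_allEdges.1 he
    have hcd := mem_allEdges.1 he'
    have hx : ∃ x, (x = c ∨ x = d) ∧ a ≠ x ∧ b ≠ x := by
      by_contra hn
      push Not at hn
      have h1 := hn c (Or.inl rfl)
      have h2 := hn d (Or.inr rfl)
      apply hne
      rw [Sym2.eq_iff]
      by_cases hac : a = c
      · left
        exact ⟨hac, h2 fun e => hcd (hac.symm.trans e)⟩
      · right
        have hbc := h1 hac
        by_cases had : a = d
        · exact ⟨had, hbc⟩
        · exact absurd (hbc.symm.trans (h2 had)) hcd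
    obtain ⟨x, hx, hax, hbx⟩ := hx
    have key : ∀ t ∈ (triangles E).filter fun t => s(a, b) ∈ t.sym2 ∧ s(c, d) ∈ t.sym2,
        t = {a, b, x} := by
      intro t ht
      obtain ⟨h1, h2, h3⟩ := Finset.mem_filter.1 ht
      rw [Finset.mk_mem_sym2_iff] at h2 h3
      refine eq_three (mem_triangles.1 h1).1 h2.1 h2.2 ?_ hab hax hbx
      rcases hx with rfl | rfl
      · exact h3.1
      · exact h3.2
    exact Finset.card_le_one.2 fun t ht t' ht' => (key t ht).trans (key t' ht').symm

/-- Bonferroni: two distinct edges lie in at most one common triangle (induction on `S`). -/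
theorem hit_count {E S : Ed n} (hE : E ⊆ allEdges n) (hS : S ⊆ E) {c0 : ℝ}
    (h : ∀ u v, adj E u v → c0 ≤ (cn E u v).card) :
    (S.card : ℝ) * (c0 - S.card) ≤ ((triangles E).filter fun t => ¬ S ⊆ E \ t.sym2).card := by
  have main : ∀ S : Ed n, S ⊆ E → (S.card : ℝ) * (c0 - S.card) ≤
      ((triangles E).filter fun t => ∃ e ∈ S, e ∈ t.sym2).card := by
    intro S
    induction S using Finset.induction_on with
    | empty => simp
    | insert e S he ih =>
      intro hS
      have heE : e ∈ E := hS (Finset.mem_insert_self _ _)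
      have hS' : S ⊆ E := (Finset.subset_insert _ _).trans hS
      have h1 := ih hS'
      set A := (triangles E).filter fun t => ∃ e ∈ S, e ∈ t.sym2 with hA
      set T := (triangles E).filter fun t => e ∈ t.sym2 with hT
      have h2 : c0 ≤ T.card := by
        induction e using Sym2.ind with
        | _ a b =>
          have hab := adj_of_mem hE heE
          have := h a b hab
          rw [← card_tri_edge hab] at this
          simpa only [hT, Finset.mk_mem_sym2_iff] using this
      have h3 : (T ∩ A).card ≤ S.card := by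
        have hsub : T ∩ A ⊆ S.biUnion fun e' =>
            (triangles E).filter fun t => e ∈ t.sym2 ∧ e' ∈ t.sym2 := by
          intro t ht
          obtain ⟨h4, h5⟩ := Finset.mem_inter.1 ht
          obtain ⟨h6, h7⟩ := Finset.mem_filter.1 h4
          obtain ⟨_, e', h8, h9⟩ := Finset.mem_filter.1 h5
          exact Finset.mem_biUnion.2 ⟨e', h8, Finset.mem_filter.2 ⟨h6, h7, h9⟩⟩
        refine (Finset.card_le_card hsub).trans (Finset.card_biUnion_le.trans ?_)
        rw [Finset.card_eq_sum_ones S]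
        exact Finset.sum_le_sum fun e' he' =>
          card_two_edges (hE heE) (hE (hS' he')) fun e'' => he (e'' ▸ he')
      have h4 : ((triangles E).filter fun t => ∃ e' ∈ insert e S, e' ∈ t.sym2) = T ∪ A := by
        ext t
        simp only [hT, hA, Finset.mem_filter, Finset.mem_union, Finset.mem_insert,
          exists_eq_or_imp]
        tauto
      have h5 := Finset.card_union_add_card_inter T A
      have h6 : ((T ∪ A).card : ℝ) + (T ∩ A).card = T.card + A.card := by exact_mod_cast h5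
      have h7 : ((T ∩ A).card : ℝ) ≤ S.card := by exact_mod_cast h3
      rw [h4, Finset.card_insert_of_notMem he]
      push_cast
      have h8 : (0 : ℝ) ≤ S.card := Nat.cast_nonneg _
      nlinarith
  refine (main S hS).trans (Nat.cast_le.2 (Finset.card_le_card fun t ht => ?_))
  obtain ⟨h1, e, h2, h3⟩ := Finset.mem_filter.1 ht
  exact Finset.mem_filter.2 ⟨h1, fun hsub => (Finset.mem_sdiff.1 (hsub h2)).2 h3⟩

end Crest.Agent.R30
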