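import Crest.Agent.R30.Num0
set_option autoImplicit false

noncomputable section

namespace Crest.Agent.R30

open Finset Filter

theorem numB_left {κ θ x : ℝ} (hκ0 : 0 < κ) (hκ : κ ≤ 1 / 1026) (hθ : θ ≤ κ) (hx : 2 < x)
    (hx' : 2 ≤ κ * (x - 2)) (k : ℕ) (hk : k = 256) :
    (1 + κ) ^ 2 * (Real.exp (3 * θ) * x / (x - 2)) ^ k - (1 - κ ^ 3) ^ k ≤ 2308 * κ := by
  have hx2 : 0 < x - 2 := by linarith
  have hk' : (k : ℝ) = 256 := by rw [hk]; norm_num
  have h1 : 1 + κ ≤ Real.exp κ := by linarith [Real.add_one_le_exp κ]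
  have h2 : Real.exp (3 * θ) * x / (x - 2) ≤ Real.exp (4 * κ) := by
    have h3 : x / (x - 2) ≤ 1 + κ := by
      rw [div_le_iff₀ hx2]
      linarith [show (1 + κ) * (x - 2) = x - 2 + κ * (x - 2) by ring]
    rw [mul_div_assoc, show 4 * κ = 3 * κ + κ by ring, Real.exp_add]
    exact mul_le_mul (Real.exp_le_exp.2 (by linarith)) (h3.trans h1)
      (div_nonneg (by linarith) hx2.le) (Real.exp_pos _).le
  have h4 : (1 + κ) ^ 2 * (Real.exp (3 * θ) * x / (x - 2)) ^ k ≤ Real.exp (1026 * κ) := by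
    have h5 := pow_le_pow_left₀ (div_nonneg (mul_nonneg (Real.exp_pos _).le (by linarith)) hx2.le) h2 k
    have h6 := pow_le_pow_left₀ (by linarith) h1 2
    refine (mul_le_mul h6 h5 (pow_nonneg
      (div_nonneg (mul_nonneg (Real.exp_pos _).le (by linarith)) hx2.le) _) (by positivity)).trans
      (le_of_eq ?_)
    rw [← Real.exp_nat_mul, ← Real.exp_nat_mul, ← Real.exp_add, hk']
    congr 1
    push_cast
    ring
  have h7 := (abs_le.1 (Real.abs_exp_sub_one_le (x := 1026 * κ)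
    (by rw [abs_of_pos (by positivity)]; linarith))).2
  rw [abs_of_pos (by positivity)] at h7
  have h8 : κ ^ 3 ≤ κ := by
    have := pow_le_pow_of_le_one hκ0.le (by linarith) (show 1 ≤ 3 by norm_num)
    rwa [pow_one] at this
  have h9 := one_add_mul_le_pow (a := -κ ^ 3) (by linarith) k
  rw [hk', ← sub_eq_add_neg] at h9
  linarith

theorem numB_right {s : ℝ} (hs : 4 ≤ s) (k : ℕ) (hk : 12 ≤ k) :
    2308 * (s ^ (2 * k))⁻¹ ≤ (s⁻¹ - (s ^ (2 * k))⁻¹ ^ 3) ^ k := by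
  have hs0 : 0 < s := by linarith
  have h1 : (s ^ (2 * k))⁻¹ ^ 3 ≤ s⁻¹ / 2 := by
    rw [inv_pow, ← pow_mul, div_eq_mul_inv, ← mul_inv]
    refine inv_anti₀ (by positivity) ?_
    have := pow_le_pow_right₀ (by linarith : 1 ≤ s) (show 2 ≤ 2 * k * 3 by omega)
    nlinarith
  have h2 : (s⁻¹ / 2) ^ k ≤ (s⁻¹ - (s ^ (2 * k))⁻¹ ^ 3) ^ k :=
    pow_le_pow_left₀ (by positivity) (by linarith) k
  refine le_trans ?_ h2
  have h3 : (2308 : ℝ) ≤ 2 ^ k :=
    le_trans (by norm_num) (pow_le_pow_right₀ (by norm_num : (1 : ℝ) ≤ 2) hk)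
  have h4 : (2 : ℝ) ^ k * 2 ^ k ≤ s ^ k := by
    rw [← mul_pow]
    exact pow_le_pow_left₀ (by norm_num) (by linarith) k
  rw [div_pow, inv_pow, two_mul, pow_add]
  have ht : 0 < s ^ k := by positivity
  have hu : (0 : ℝ) < 2 ^ k := by positivity
  generalize s ^ k = t at *
  generalize (2 : ℝ) ^ k = u at *
  rw [← div_eq_mul_inv, div_le_div_iff₀ (by positivity) hu, ← mul_assoc, inv_mul_cancel₀ ht.ne', one_mul]
  nlinarith

theorem numB_walk {a c p b : ℝ} (hb : 3060 ≤ b) (ha0 : 0 ≤ a) (ha : a ≤ b ^ 3) (hc : b ^ 16 ≤ c)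
    (hp : b⁻¹ ^ 792 ≤ p) :
    a ^ 256 * Real.sqrt c ^ 256 + p * (c + a) ^ 255 ≤ (1 + b⁻¹ / 3) * (p * c ^ 255) := by
  have hb0 : 0 < b := by linarith
  have hb1 : 1 ≤ b := by linarith
  have hc0 : 0 < c := lt_of_lt_of_le (by positivity) hc
  have hp0 : 0 < p := lt_of_lt_of_le (by positivity) hp
  have h1 : Real.sqrt c ^ 256 = c ^ 128 := by
    rw [show 256 = 2 * 128 from rfl, pow_mul, Real.sq_sqrt hc0.le]
  have h2 : a ^ 256 ≤ b⁻¹ / 6 * (p * c ^ 127) := by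
    have h3 : a ^ 256 ≤ b ^ 768 := by
      rw [show 768 = 3 * 256 from rfl, pow_mul]
      exact pow_le_pow_left₀ ha0 ha 256
    have h4 : b ^ 2032 ≤ c ^ 127 := by
      rw [show 2032 = 16 * 127 from rfl, pow_mul]
      exact pow_le_pow_left₀ (by positivity) hc 127
    have h5 : b⁻¹ / 6 * (b⁻¹ ^ 792 * b ^ 2032) ≤ b⁻¹ / 6 * (p * c ^ 127) :=
      mul_le_mul_of_nonneg_left (mul_le_mul hp h4 (by positivity) hp0.le) (by positivity)
    refine h3.trans (le_trans ?_ h5)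
    have h6 : b⁻¹ / 6 * (b⁻¹ ^ 792 * b ^ 2032) = b ^ 1238 * (b / 6) := by
      field_simp
    rw [h6]
    exact (pow_le_pow_right₀ hb1 (by norm_num)).trans
      (le_mul_of_one_le_right (by positivity) (by linarith))
  have h7 : a / c ≤ b⁻¹ ^ 2 := by
    rw [div_le_iff₀ hc0]
    refine ha.trans (le_trans ?_ (mul_le_mul_of_nonneg_left hc (by positivity)))
    have : b⁻¹ ^ 2 * b ^ 16 = b ^ 14 := by field_simp
    rw [this]
    exact pow_le_pow_right₀ hb1 (by norm_num)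
  have h8 : 3060 * b⁻¹ ≤ 1 := by
    rw [← div_eq_mul_inv, div_le_one hb0]
    exact hb
  have hbi : 0 < b⁻¹ := by positivity
  have h9 : 510 * (a / c) ≤ b⁻¹ / 6 := by nlinarith
  have hx0 : 0 ≤ a / c := by positivity
  have h10 : (1 + a / c) ^ 255 ≤ 1 + b⁻¹ / 6 := by
    have h11 : (1 + a / c) ^ 255 ≤ Real.exp (a / c) ^ 255 :=
      pow_le_pow_left₀ (by positivity) (by linarith [Real.add_one_le_exp (a / c)]) 255
    rw [← Real.exp_nat_mul] at h11
    have h12 := (abs_le.1 (Real.abs_exp_sub_one_le (x := (255 : ℕ) * (a / c))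
      (by rw [abs_of_nonneg (by positivity)]; push_cast; linarith))).2
    rw [abs_of_nonneg (by positivity)] at h12
    refine h11.trans ?_
    push_cast at h12 ⊢
    linarith
  have h13 : (c + a) ^ 255 = c ^ 255 * (1 + a / c) ^ 255 := by
    rw [← mul_pow, mul_add, mul_one, mul_div_cancel₀ _ hc0.ne']
  have h14 : p * (c + a) ^ 255 ≤ p * (c ^ 255 * (1 + b⁻¹ / 6)) := by
    rw [h13]
    exact mul_le_mul_of_nonneg_left (mul_le_mul_of_nonneg_left h10 (by positivity)) hp0.le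
  have h15 : a ^ 256 * c ^ 128 ≤ b⁻¹ / 6 * (p * c ^ 127) * c ^ 128 :=
    mul_le_mul_of_nonneg_right h2 (by positivity)
  rw [h1]
  refine (add_le_add h15 h14).trans (le_of_eq ?_)
  ring

theorem numB_j {b : ℝ} (hb : 1 ≤ b) : (⌈b ^ 2⌉₊ : ℝ) ≤ 2 * b ^ 2 := by
  have h1 := Nat.ceil_lt_add_one (sq_nonneg b)
  have h2 := one_le_pow₀ (n := 2) hb
  linarith

/-- the left side is `O(1/b)`, the right side is at least `(η/2)^256 = 2^(-256) b^(-1/2)` -/
theorem ok_spec : ∀ᶠ n : ℕ in atTop,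
    (1 + (par n).κ) ^ 2 * (Real.exp (3 * (par n).θ) * n / (n - 2)) ^ (par n).k - (1 - (par n).ζ) ^ (par n).k ≤
      ((par n).η - (par n).ζ) ^ (par n).k := by
  have hs : Tendsto (fun n : ℕ => bb n ^ ((1 : ℝ) / 512)) atTop atTop :=
    (tendsto_rpow_atTop (by norm_num)).comp tendsto_bb
  filter_upwards [hs.eventually_ge_atTop 4, tendsto_bb.eventually_ge_atTop 1026, theta_le 1 one_pos]
    with n h4 hb hθ
  have hb0 : 0 < bb n := by linarith
  have hb1 : 1 ≤ bb n := by linarith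
  have hi : (bb n)⁻¹ ≤ 1 / 1026 := by
    rw [one_div]
    exact inv_anti₀ (by norm_num) hb
  have hi0 : 0 < (bb n)⁻¹ := by positivity
  have hn : bb n ^ 2 ≤ n := by
    rw [← bb_pow n]
    exact pow_le_pow_right₀ hb1 (by norm_num)
  have h1 := numB_left (θ := (par n).θ) (x := n) hi0 hi (by nlinarith [hθ.2]) (by nlinarith)
    (by rw [inv_mul_eq_div, le_div_iff₀ hb0]; nlinarith) (par n).k (par_k n)
  have h2 := numB_right h4 (par n).k (by rw [par_k]; norm_num)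
  have e1 : (bb n ^ ((1 : ℝ) / 512)) ^ (2 * (par n).k) = bb n := by
    rw [par_k, ← Real.rpow_natCast, ← Real.rpow_mul hb0.le]
    norm_num
  have e2 : (bb n ^ ((1 : ℝ) / 512))⁻¹ = (par n).η := by
    rw [← Real.rpow_neg hb0.le, ← neg_div]
    rfl
  rw [e1, e2] at h2
  exact h1.trans h2

/-- `c = n p² ≥ b^16`, `p ≥ b^(-792)`, `3 + 256 j ≤ 600 b²`, `n^255 p^511 = p c^255` -/
theorem ok_walk : ∀ᶠ n : ℕ in atTop, ∀ p, pp n (par n).I ≤ p → p ≤ 1 →
    Fw n p (par n).k (par n).j ≤ (1 + (par n).κ / 3) * (n ^ ((par n).k - 1) * p ^ (2 * (par n).k - 1)) := by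
  filter_upwards [tendsto_bb.eventually_ge_atTop 3060, pp_par 1 one_pos] with n hb hpp p hp _
  have hb0 : 0 < bb n := by linarith
  have hb1 : 1 ≤ bb n := by linarith
  have hp' := hpp.1.trans hp
  have hj := numB_j hb1
  have ha : 2 * (3 + ((par n).j : ℝ) * (256 : ℕ)) ≤ bb n ^ 3 := by
    have h2 := one_le_pow₀ (n := 2) hb1
    have h3 := mul_le_mul_of_nonneg_right hb (sq_nonneg (bb n))
    have h4 : ((par n).j : ℝ) ≤ 2 * bb n ^ 2 := hj
    push_cast
    linarith [show bb n ^ 3 = bb n * bb n ^ 2 by ring]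
  have hc : bb n ^ 16 ≤ n * p ^ 2 := by
    have h2 := pow_le_pow_left₀ (by positivity) hp' 2
    refine le_trans (le_of_eq ?_) (mul_le_mul_of_nonneg_left h2 (Nat.cast_nonneg n))
    rw [← bb_pow n]
    generalize bb n = b at *
    field_simp
  have h := numB_walk hb (by positivity) ha hc hp'
  rw [par_k]
  unfold Fw
  refine h.trans (le_of_eq ?_)
  show _ = (1 + (bb n)⁻¹ / 3) * ((n : ℝ) ^ 255 * p ^ 511)
  congr 1
  ring

theorem ok_deg : ∀ᶠ n : ℕ in atTop, ∀ p, pp n (par n).I ≤ p → p ≤ 1 →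
    n * p + (par n).j ≤ (1 + (par n).κ / 3) * (n * p) := by
  filter_upwards [tendsto_bb.eventually_ge_atTop 6, pp_par 1 one_pos] with n hb hpp p hp _
  have hb0 : 0 < bb n := by linarith
  have hb1 : 1 ≤ bb n := by linarith
  have hp' := hpp.1.trans hp
  have h4 : ((par n).j : ℝ) ≤ 2 * bb n ^ 2 := numB_j hb1
  have h1 : 2 * bb n ^ 2 ≤ (bb n)⁻¹ / 3 * (n * p) := by
    refine le_trans ?_ (mul_le_mul_of_nonneg_left
      (mul_le_mul_of_nonneg_left hp' (Nat.cast_nonneg n)) (by positivity))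
    rw [← bb_pow n]
    generalize bb n = b at *
    have e : b⁻¹ / 3 * (b ^ 1600 * b⁻¹ ^ 792) = b / 3 * b ^ 806 := by field_simp
    rw [e]
    exact mul_le_mul (by linarith) (pow_le_pow_right₀ hb1 (by norm_num)) (by positivity) (by positivity)
  show _ ≤ (1 + (bb n)⁻¹ / 3) * (n * p)
  linarith [add_mul 1 ((bb n)⁻¹ / 3) (n * p)]

/-- `I ≤ n²`, `√Dm ζ0 ≥ b^4 / 2`, `j κ ≥ b` -/
theorem small_fail (ε : ℝ) (hε : 0 < ε) : ∀ᶠ n : ℕ in atTop, n * Pfail n (par n) ≤ ε := by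
  filter_upwards [tendsto_bb.eventually_ge_atTop 1, tendsto_bb.eventually_ge_atTop (48 / ε),
    log_pow_le 798 1 1 one_pos, eventually_ge_atTop 1] with n hb1 hbε hL hn
  have hb0 : 0 < bb n := by linarith
  have hn1 : (1 : ℝ) ≤ n := by exact_mod_cast hn
  have hn0 : (0 : ℝ) < n := by linarith
  rw [pow_one, Real.rpow_one] at hL
  have hL0 : 0 ≤ Real.log n := Real.log_nonneg hn1
  have hI : ((par n).I : ℝ) + 1 ≤ 2 * n ^ 2 := by
    have h0 : 0 ≤ mm n 0 := by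
      unfold mm
      have := mul_nonneg hn0.le (sub_nonneg.2 hn1)
      push_cast
      linarith
    have h1 : (bb n)⁻¹ ^ 792 ≤ 1 := pow_le_one₀ (by positivity) (inv_le_one_of_one_le₀ hb1)
    have h2 : (0 : ℝ) ≤ (bb n)⁻¹ ^ 792 := by positivity
    have h3 : ((par n).I : ℝ) ≤ mm n 0 * (1 - (bb n)⁻¹ ^ 792) / 3 :=
      Nat.floor_le (div_nonneg (mul_nonneg h0 (sub_nonneg.2 h1)) (by norm_num))
    have h4 := mul_le_mul_of_nonneg_left (show 1 - (bb n)⁻¹ ^ 792 ≤ 1 by linarith) h0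
    have h5 : mm n 0 ≤ n ^ 2 := by
      unfold mm
      push_cast
      nlinarith
    have h6 := one_le_pow₀ (n := 2) hn1
    linarith
  have hD : bb n / 3 ≤ Real.sqrt (par n).Dm * (par n).ζ0 := by
    have h1 : bb n ^ 8 / 2 ≤ Real.sqrt (par n).Dm := by
      refine Real.le_sqrt_of_sq_le ?_
      show _ ≤ 3 / 4 * bb n ^ 16
      have : 0 ≤ bb n ^ 16 := by positivity
      linarith [show (bb n ^ 8 / 2) ^ 2 = bb n ^ 16 / 4 by ring]
    refine le_trans ?_ (mul_le_mul_of_nonneg_right h1 (show 0 ≤ (bb n)⁻¹ ^ 4 by positivity))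
    have e : bb n ^ 8 / 2 * (bb n)⁻¹ ^ 4 = bb n ^ 4 / 2 := by field_simp
    have h2 := pow_le_pow_right₀ hb1 (show 1 ≤ 4 by norm_num)
    rw [pow_one] at h2
    exact le_trans (by linarith) e.ge
  have hj : bb n / 3 ≤ (par n).j * (par n).κ / 3 := by
    have h1 : bb n ^ 2 ≤ ((par n).j : ℝ) := Nat.le_ceil _
    have h2 := mul_le_mul_of_nonneg_right h1 (show 0 ≤ (bb n)⁻¹ by positivity)
    have e : bb n ^ 2 * (bb n)⁻¹ = bb n := by field_simp
    rw [e] at h2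
    exact div_le_div_of_nonneg_right h2 (by norm_num)
  have hE : Real.exp (-(bb n / 6)) ≤ ε / 8 := by
    rw [Real.exp_neg, inv_le_comm₀ (Real.exp_pos _) (by positivity)]
    have h1 := Real.add_one_le_exp (bb n / 6)
    have e : (ε / 8)⁻¹ = 48 / ε / 6 := by
      field_simp
      norm_num
    linarith
  have hp : ∀ k : ℕ, (n : ℝ) ^ k = Real.exp (k * Real.log n) := fun k => by
    rw [Real.exp_nat_mul, Real.exp_log hn0]
  have h1 : (n : ℝ) ^ 5 * Real.exp (128 * (par n).Λ - Real.sqrt (par n).Dm * (par n).ζ0) ≤ ε / 8 := by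
    refine le_trans ?_ hE
    rw [hp, ← Real.exp_add, Real.exp_le_exp]
    show _ + (128 * Real.log n - _) ≤ _
    push_cast
    linarith
  have h2 : (n : ℝ) ^ 6 * Real.exp (-((par n).j * (par n).κ / 3)) ≤ ε / 8 := by
    refine le_trans ?_ hE
    rw [hp, ← Real.exp_add, Real.exp_le_exp]
    push_cast
    linarith
  have h3 : (n : ℝ) + n ^ 3 ≤ 2 * n ^ 3 := by
    have := pow_le_pow_right₀ hn1 (show 1 ≤ 3 by norm_num)
    rw [pow_one] at this
    linarith
  unfold Pfail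
  have hX := Real.exp_pos (128 * (par n).Λ - Real.sqrt (par n).Dm * (par n).ζ0)
  have hY := Real.exp_pos (-((par n).j * (par n).κ / 3))
  generalize Real.exp (128 * (par n).Λ - Real.sqrt (par n).Dm * (par n).ζ0) = X at *
  generalize Real.exp (-((par n).j * (par n).κ / 3)) = Y at *
  have h4 : (n : ℝ) * ((((par n).I : ℝ) + 1) * (n ^ 2 * (2 * X) + (n + n ^ 3) * Y)) ≤
      n * (2 * n ^ 2 * (n ^ 2 * (2 * X) + 2 * n ^ 3 * Y)) := by
    gcongr
  refine h4.trans ?_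
  linarith [show (n : ℝ) * (2 * n ^ 2 * (n ^ 2 * (2 * X) + 2 * n ^ 3 * Y)) =
    4 * (n ^ 5 * X) + 4 * (n ^ 6 * Y) by ring]

end Crest.Agent.R30
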