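import Crest.Agent.R30.Num0
set_option autoImplicit false

noncomputable section

namespace Crest.Agent.R30

open Finset Filter

theorem numc_two_mm {n : ℕ} (h : 3 ≤ n) (i : ℕ) : 2 * mm n i = n * (n - 1) * pp n i := by
  have h3 : (3 : ℝ) ≤ n := by exact_mod_cast h
  have h0 : mm n 0 = n * (n - 1) / 2 := by simp [mm]
  have h1 : (n : ℝ) - 1 ≠ 0 := by linarith
  have h2 : (n : ℝ) ≠ 0 := by linarith
  rw [pp, h0]
  field_simp

theorem numc_rpow (n : ℕ) : (n : ℝ) ^ ((3 : ℝ) / 2) = bb n ^ 2400 := by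
  rw [bb, ← Real.rpow_natCast, ← Real.rpow_mul (Nat.cast_nonneg n)]
  norm_num

theorem numc_rpow_sq (n : ℕ) : ((n : ℝ) ^ ((3 : ℝ) / 2)) ^ 2 = (n : ℝ) ^ 3 := by
  rw [← Real.rpow_natCast, ← Real.rpow_mul (Nat.cast_nonneg n), ← Real.rpow_natCast]
  norm_num

theorem small_alpha : ∀ᶠ n : ℕ in atTop, Atg n ≤ 2 * mm n (par n).I := by
  filter_upwards [pp_par 1 one_pos, eventually_ge_atTop 3, tendsto_bb.eventually_ge_atTop 2]
    with n h1 h2 h3
  have h4 : (3 : ℝ) ≤ n := by exact_mod_cast h2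
  have h5 : 0 < bb n := by linarith
  have h6 : Atg n ≤ bb n ^ 2400 := by
    rw [Atg, numc_rpow]
    exact div_le_self (by positivity) Real.one_lt_sqrt_two.le
  rw [numc_two_mm h2]
  calc Atg n ≤ bb n ^ 2400 * (2 / 2) := by linarith
    _ ≤ bb n ^ 2400 * (bb n ^ 8 / 2) := by
        gcongr
        exact h3.trans (le_self_pow₀ (by linarith) (by norm_num))
    _ = bb n ^ 1600 * (bb n ^ 1600 / 2) * (bb n)⁻¹ ^ 792 := by field_simp
    _ = n * (n / 2) * (bb n)⁻¹ ^ 792 := by rw [bb_pow]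
    _ ≤ n * (n - 1) * pp n (par n).I := by
        have := h1.1
        have : (0 : ℝ) ≤ n - 1 := by linarith
        gcongr
        linarith

theorem numc_eq_aux {m P D q θ ζ t A : ℝ} (ht0 : 0 < t) (ht : t ≤ 1 / 6) (hm : 2 ≤ t * m)
    (hx : 1 ≤ t * (m * P ^ 2)) (hP : 0 ≤ P) (hθ : 2 * θ ≤ t) (hζ : 4 * ζ ≤ t) (hθ0 : 0 ≤ θ)
    (hlo : Real.exp (-θ) * (m - 2) * P ^ 2 ≤ D) (hhi : D ≤ Real.exp θ * m * P ^ 2) (hq : 0 < q)
    (hl : |Real.log q + Real.log (1 + 2 * D) / 2| ≤ ζ) (hA : 0 ≤ A) (hA2 : A ^ 2 = m ^ 3 / 2) :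
    |m * (m - 1) * P * q - A| ≤ 6 * t * A := by
  have hm0 : 12 ≤ m := by nlinarith
  have hexp : ∀ s : ℝ, 2 * s ≤ t → Real.exp s ≤ 1 + t := by
    intro s hs
    have h1 : Real.exp s ≤ Real.exp (t / 2) := Real.exp_le_exp.2 (by linarith)
    have h2 := (abs_le.1 (Real.abs_exp_sub_one_le (x := t / 2)
      (by rw [abs_of_pos (by linarith)]; linarith))).2
    rw [abs_of_pos (by linarith)] at h2
    linarith
  set x := m * P ^ 2 with hxdef
  have hx0 : 0 < x := by nlinarith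
  have h1 : (1 - t) * ((1 - t) * x) ≤ D := by
    refine le_trans ?_ hlo
    have a1 : 1 - t ≤ Real.exp (-θ) := by linarith [Real.add_one_le_exp (-θ)]
    have a2 : (1 - t) * x ≤ (m - 2) * P ^ 2 := by
      rw [hxdef, ← mul_assoc]
      exact mul_le_mul_of_nonneg_right (by linarith) (sq_nonneg _)
    rw [mul_assoc]
    exact mul_le_mul a1 a2 (mul_nonneg (by linarith) hx0.le) (Real.exp_pos _).le
  have h2 : D ≤ (1 + t) * x := by
    refine hhi.trans ?_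
    rw [mul_assoc]
    exact mul_le_mul_of_nonneg_right (hexp θ hθ) hx0.le
  have h3 : 2 * x * (1 - 2 * t) ≤ 1 + 2 * D := by nlinarith [mul_nonneg (sq_nonneg t) hx0.le]
  have h4 : 1 + 2 * D ≤ 2 * x * (1 + 2 * t) := by nlinarith
  have hD : 0 < 1 + 2 * D := lt_of_lt_of_le (mul_pos (by linarith) (by linarith)) h3
  have hg : q ^ 2 * (1 + 2 * D) = Real.exp (2 * (Real.log q + Real.log (1 + 2 * D) / 2)) := by
    rw [show 2 * (Real.log q + Real.log (1 + 2 * D) / 2) =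
      Real.log q + Real.log q + Real.log (1 + 2 * D) by ring, Real.exp_add, Real.exp_add,
      Real.exp_log hq, Real.exp_log hD, sq]
  obtain ⟨l1, l2⟩ := abs_le.1 hl
  have h5 : q ^ 2 * (1 + 2 * D) ≤ 1 + t := by
    rw [hg]
    exact hexp _ (by linarith)
  have h6 : 1 - t ≤ q ^ 2 * (1 + 2 * D) := by
    rw [hg]
    have hz : 0 ≤ ζ := (abs_nonneg _).trans hl
    linarith [Real.add_one_le_exp (2 * (Real.log q + Real.log (1 + 2 * D) / 2))]
  set w := 2 * x * q ^ 2 with hw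
  have hw0 : 0 ≤ w := by positivity
  have h7 : w * (1 - 2 * t) ≤ 1 + t := by
    have := mul_le_mul_of_nonneg_left h3 (sq_nonneg q)
    calc w * (1 - 2 * t) = q ^ 2 * (2 * x * (1 - 2 * t)) := by rw [hw]; ring
      _ ≤ _ := this.trans h5
  have h8 : 1 - t ≤ w * (1 + 2 * t) := by
    have := mul_le_mul_of_nonneg_left h4 (sq_nonneg q)
    calc 1 - t ≤ q ^ 2 * (2 * x * (1 + 2 * t)) := h6.trans this
      _ = _ := by rw [hw]; ring
  have h9 : w ≤ 1 + 6 * t := by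
    refine le_of_mul_le_mul_right (h7.trans ?_) (show 0 < 1 - 2 * t by linarith)
    nlinarith
  have h10 : 1 - 3 * t ≤ w := by
    refine le_of_mul_le_mul_right (le_trans ?_ h8) (show 0 < 1 + 2 * t by linarith)
    nlinarith
  set y := m * (m - 1) * P * q with hy
  have hy0 : 0 ≤ y := by
    have : 0 ≤ m - 1 := by linarith
    positivity
  have hy2 : y ^ 2 = m * (m - 1) ^ 2 * w / 2 := by rw [hy, hw, hxdef]; ring
  have hm3 : 0 ≤ m ^ 3 / 2 := by positivity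
  have up : y ^ 2 ≤ ((1 + 6 * t) * A) ^ 2 := by
    rw [hy2, mul_pow, hA2]
    calc m * (m - 1) ^ 2 * w / 2 ≤ m * m ^ 2 * (1 + 6 * t) / 2 := by
          gcongr
          · linarith
          · linarith
      _ = (1 + 6 * t) * (m ^ 3 / 2) := by ring
      _ ≤ _ := mul_le_mul_of_nonneg_right (by nlinarith) hm3
  have lo : ((1 - 6 * t) * A) ^ 2 ≤ y ^ 2 := by
    rw [mul_pow, hA2, hy2]
    calc (1 - 6 * t) ^ 2 * (m ^ 3 / 2) ≤ ((1 - t) ^ 2 * (1 - 3 * t)) * (m ^ 3 / 2) := by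
          refine mul_le_mul_of_nonneg_right ?_ hm3
          nlinarith [mul_nonneg ht0.le (sq_nonneg t), mul_nonneg ht0.le (sub_nonneg.2 ht)]
      _ = m * ((1 - t) * m) ^ 2 * (1 - 3 * t) / 2 := by ring
      _ ≤ m * (m - 1) ^ 2 * w / 2 := by
          gcongr
          · linarith
          · exact mul_nonneg (by linarith) (by linarith)
          · linarith
  have u1 := (le_abs_self _).trans (abs_le_of_sq_le_sq up (by positivity))
  have u2 := (le_abs_self _).trans (abs_le_of_sq_le_sq lo hy0)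
  rw [abs_le]
  constructor <;> linarith

/-- `2 mm = n (n-1) pp`, `D = (1 + o(1)) n pp² → ∞`, `q = (1 + o(1)) (1 + 2D)^(-1/2)` -/
theorem small_eq (ε : ℝ) (hε : 0 < ε) : ∀ᶠ n : ℕ in atTop, ∀ D q : ℝ,
    Real.exp (-(par n).θ) * (n - 2) * pp n (par n).I ^ 2 ≤ D →
    D ≤ Real.exp (par n).θ * n * pp n (par n).I ^ 2 → 0 < q →
    |Real.log q + Real.log (1 + 2 * D) / 2| ≤ (par n).ζ2 →
    |2 * mm n (par n).I * q - Atg n| ≤ ε * (n : ℝ) ^ ((3 : ℝ) / 2) := by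
  set t := min ε 1 / 6 with ht
  have ht0 : 0 < t := by have := lt_min hε one_pos; positivity
  have ht1 : t ≤ 1 / 6 := by have := min_le_right ε 1; linarith
  have ht2 : 6 * t ≤ ε := by have := min_le_left ε 1; linarith
  filter_upwards [pp_par 1 one_pos, eventually_ge_atTop 3, tendsto_bb.eventually_ge_atTop 1,
    tendsto_bb.eventually_ge_atTop (4 / t), theta_le 1 one_pos] with n h1 h2 h3 h4 h5 D q hlo hhi hq hl
  have hb : 0 < bb n := by linarith
  rw [div_le_iff₀ ht0] at h4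
  have hP : 0 ≤ pp n (par n).I := le_trans (by positivity) h1.1
  have hz : 4 * (bb n)⁻¹ ^ 2 ≤ t := by
    have a1 : (bb n)⁻¹ ^ 2 ≤ (bb n)⁻¹ :=
      pow_le_of_le_one (by positivity) (inv_le_one_of_one_le₀ h3) (by norm_num)
    have a2 : 4 * (bb n)⁻¹ ≤ t := by
      rw [← div_eq_mul_inv, div_le_iff₀ hb]
      linarith
    linarith
  have hm : 2 ≤ t * n := by
    have : bb n ≤ n := by
      conv_rhs => rw [← bb_pow n]
      exact le_self_pow₀ h3 (by norm_num)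
    nlinarith
  have hx : 1 ≤ t * (n * pp n (par n).I ^ 2) := by
    have a1 : bb n ≤ n * pp n (par n).I ^ 2 := by
      calc bb n ≤ bb n ^ 16 := le_self_pow₀ h3 (by norm_num)
        _ = bb n ^ 1600 * ((bb n)⁻¹ ^ 792) ^ 2 := by field_simp
        _ = n * ((bb n)⁻¹ ^ 792) ^ 2 := by rw [bb_pow]
        _ ≤ _ := by have := h1.1; gcongr
    nlinarith
  have hA2 : Atg n ^ 2 = (n : ℝ) ^ 3 / 2 := by
    rw [Atg, div_pow, numc_rpow_sq, Real.sq_sqrt zero_le_two]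
  have hA0 : 0 ≤ Atg n := by rw [Atg]; positivity
  have hz0 : 0 ≤ (bb n)⁻¹ ^ 2 := by positivity
  have key := numc_eq_aux ht0 ht1 hm hx hP (by linarith [h5.2]) (ζ := (par n).ζ2) hz h5.1 hlo hhi hq
    hl hA0 hA2
  rw [numc_two_mm h2]
  refine key.trans (mul_le_mul ht2 ?_ hA0 hε.le)
  exact div_le_self (by positivity) Real.one_lt_sqrt_two.le

theorem small_meet (ε : ℝ) (hε : 0 < ε) : ∀ᶠ n : ℕ in atTop, 16 * mm n (par n).I * n ≤ ε * n ^ 3 := by
  filter_upwards [pp_par 1 one_pos, eventually_ge_atTop 3, tendsto_bb.eventually_ge_atTop 1,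
    tendsto_bb.eventually_ge_atTop (16 / ε)] with n h1 h2 h3 h4
  have hb : 0 < bb n := by linarith
  have h5 : (3 : ℝ) ≤ n := by exact_mod_cast h2
  have hP : 0 ≤ pp n (par n).I := le_trans (by positivity) h1.1
  have a1 : (bb n)⁻¹ ^ 792 ≤ (bb n)⁻¹ :=
    pow_le_of_le_one (by positivity) (inv_le_one_of_one_le₀ h3) (by norm_num)
  have a2 : 16 * (bb n)⁻¹ ≤ ε := by
    rw [div_le_iff₀ hε] at h4
    rw [← div_eq_mul_inv, div_le_iff₀ hb]
    linarith
  have a3 : 8 * pp n (par n).I ≤ ε := by linarith [h1.2]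
  calc 16 * mm n (par n).I * n = 8 * (2 * mm n (par n).I) * n := by ring
    _ = 8 * pp n (par n).I * (n * (n - 1) * n) := by rw [numc_two_mm h2]; ring
    _ ≤ ε * (n * n * n) := by
        gcongr
        · have : (0 : ℝ) ≤ n - 1 := by linarith
          positivity
        · linarith
    _ = ε * n ^ 3 := by ring

theorem numc_DN {n : ℕ} (h3 : 2 ≤ bb n) : 6 * ((par n).DM / (par n).N) ≤ 1 := by
  have hb : 0 < bb n := by linarith
  have h1 : (1 : ℝ) ≤ n := by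
    rw [← bb_pow n]
    exact one_le_pow₀ (by linarith)
  have e : ((par n).N : ℝ) = 2 * (n : ℝ) ^ 6 := by simp [par]
  have h2 : (n : ℝ) ≤ (n : ℝ) ^ 6 := le_self_pow₀ h1 (by norm_num)
  have h4 : 4 * bb n ^ 16 ≤ n := by
    calc 4 * bb n ^ 16 = 2 ^ 2 * bb n ^ 16 := by norm_num
      _ ≤ bb n ^ 2 * bb n ^ 16 := by gcongr
      _ = bb n ^ 18 := by ring
      _ ≤ bb n ^ 1600 := pow_le_pow_right₀ (by linarith) (by norm_num)
      _ = n := bb_pow n
  have h5 : 0 ≤ bb n ^ 16 := by positivity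
  rw [e, ← mul_div_assoc, div_le_one (by positivity)]
  change 6 * (5 / 4 * bb n ^ 16) ≤ _
  linarith

theorem numc_log {n : ℕ} (h3 : 2 ≤ bb n) : 1 + 2 * (par n).DM ≤ 4 * bb n ^ 16 := by
  have : 1 ≤ bb n ^ 16 := one_le_pow₀ (by linarith)
  change 1 + 2 * (5 / 4 * bb n ^ 16) ≤ _
  linarith

theorem numc_Λ2_nonneg {n : ℕ} (h3 : 2 ≤ bb n) : 0 ≤ (par n).Λ2 := by
  have hb : 0 < bb n := by linarith
  have h1 : 0 ≤ (par n).DM := by change 0 ≤ 5 / 4 * bb n ^ 16; positivity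
  have h2 : 0 ≤ Real.log (1 + 2 * (par n).DM) := Real.log_nonneg (by linarith)
  unfold Par.Λ2
  positivity

/-- `x = 4 DM hb ≤ 14 log n` and `x^(K-1) / (K-1)! ≤ exp (2x) / 2^(K-1)` -/
theorem small_tail (ε : ℝ) (hε : 0 < ε) : ∀ᶠ n : ℕ in atTop,
    2 * (2 * mm n (par n).I) ^ 2 * (2 * (4 * (par n).DM) ^ (par n).K * Gf (par n).hb (par n).K) ≤ ε * n ^ 3 := by
  filter_upwards [pp_par 1 one_pos, eventually_ge_atTop 3, tendsto_bb.eventually_ge_atTop 2,
    log_pow_le 100 2 1 two_pos, one_le_log,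
    tendsto_natCast_atTop_atTop.eventually_ge_atTop (20 / ε)] with n h1 h2 h3 h4 h5 h6
  have hb : 0 < bb n := by linarith
  have hn : (3 : ℝ) ≤ n := by exact_mod_cast h2
  have hn0 : (0 : ℝ) < n := by linarith
  rw [pow_one, Real.rpow_two] at h4
  have hK : bb n ^ 2 ≤ (par n).K := Nat.le_ceil _
  obtain ⟨k, hk⟩ : ∃ k, (par n).K = k + 1 := by
    refine Nat.exists_eq_succ_of_ne_zero fun h => ?_
    rw [h, Nat.cast_zero] at hK
    exact absurd hK (not_le.2 (by positivity))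
  rw [hk] at hK ⊢
  push_cast at hK
  have h16 : 4 * bb n ^ 16 ≤ n := by
    calc 4 * bb n ^ 16 = 2 ^ 2 * bb n ^ 16 := by norm_num
      _ ≤ bb n ^ 2 * bb n ^ 16 := by gcongr
      _ = bb n ^ 18 := by ring
      _ ≤ bb n ^ 1600 := pow_le_pow_right₀ (by linarith) (by norm_num)
      _ = n := bb_pow n
  have hDM : (par n).DM = 5 / 4 * bb n ^ 16 := rfl
  have hDM0 : 0 < (par n).DM := by rw [hDM]; positivity
  have hΛ0 := numc_Λ2_nonneg h3
  have hΛ : (par n).Λ2 ≤ Real.log n := by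
    have a1 := numc_DN h3
    have a2 : Real.log (1 + 2 * (par n).DM) ≤ Real.log n :=
      Real.log_le_log (by linarith) ((numc_log h3).trans h16)
    unfold Par.Λ2
    linarith
  have hx : 4 * (par n).DM * (par n).hb = 40 / 3 * (par n).Λ2 := by
    rw [hDM]
    change 4 * (5 / 4 * bb n ^ 16) * (2 * (par n).Λ2 / (3 / 4 * bb n ^ 16)) = _
    field_simp
    ring
  set x := 40 / 3 * (par n).Λ2 with hxdef
  have hx0 : 0 ≤ x := by positivity
  have e1 : (4 * (par n).DM) ^ (k + 1) * Gf (par n).hb (k + 1) =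
      4 * (par n).DM * (x ^ k / k.factorial) := by
    rw [Gf, Nat.add_sub_cancel, ← hx, mul_pow (4 * (par n).DM), pow_succ]
    ring
  have e2 : x ^ k / k.factorial ≤ Real.exp (27 * Real.log n - k / 2) := by
    have a1 := Real.pow_div_factorial_le_exp (2 * x) (by positivity) k
    have a2 : Real.exp (k / 2) ≤ 2 ^ k := by
      have : Real.exp (1 / 2) ≤ 2 := by
        have := Real.log_two_gt_d9
        rw [← Real.le_log_iff_exp_le two_pos]
        linarith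
      rw [show (k : ℝ) / 2 = k * (1 / 2) by ring, Real.exp_nat_mul]
      exact pow_le_pow_left₀ (Real.exp_pos _).le this k
    have a3 : Real.exp (2 * x) ≤ Real.exp (27 * Real.log n) :=
      Real.exp_le_exp.2 (by rw [hxdef]; linarith)
    rw [Real.exp_sub, le_div_iff₀ (Real.exp_pos _)]
    calc x ^ k / k.factorial * Real.exp (k / 2) ≤ x ^ k / k.factorial * 2 ^ k := by gcongr
      _ = (2 * x) ^ k / k.factorial := by rw [mul_pow 2 x]; ring
      _ ≤ _ := a1.trans a3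
  have e3 : Real.exp (27 * Real.log n - k / 2) ≤ ((n : ℝ) ^ 5)⁻¹ := by
    have : ((n : ℝ) ^ 5)⁻¹ = Real.exp (-(5 * Real.log n)) := by
      rw [Real.exp_neg, show (5 : ℝ) * Real.log n = (5 : ℕ) * Real.log n by norm_num,
        Real.exp_nat_mul, Real.exp_log hn0]
    rw [this]
    exact Real.exp_le_exp.2 (by linarith)
  have hP : 0 ≤ pp n (par n).I := le_trans (by positivity) h1.1
  have hP1 : pp n (par n).I ≤ 1 := by
    have a1 : (bb n)⁻¹ ^ 792 ≤ (bb n)⁻¹ :=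
      pow_le_of_le_one (by positivity) (inv_le_one_of_one_le₀ (by linarith)) (by norm_num)
    have a2 : (bb n)⁻¹ ≤ 2⁻¹ := inv_anti₀ two_pos h3
    linarith [h1.2]
  have e4 : (2 * mm n (par n).I) ^ 2 ≤ ((n : ℝ) * n * 1) ^ 2 := by
    rw [numc_two_mm h2]
    have : (0 : ℝ) ≤ n - 1 := by linarith
    gcongr
    linarith
  have e5 : 4 * (par n).DM ≤ 5 * n := by
    have : 0 ≤ bb n ^ 16 := by positivity
    rw [hDM]
    linarith
  rw [div_le_iff₀ hε] at h6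
  rw [mul_assoc 2 (_ ^ (k + 1)), e1]
  calc 2 * (2 * mm n (par n).I) ^ 2 * (2 * (4 * (par n).DM * (x ^ k / k.factorial)))
      ≤ 2 * ((n : ℝ) * n * 1) ^ 2 * (2 * (5 * n * ((n : ℝ) ^ 5)⁻¹)) := by
        have := e2.trans e3
        gcongr
    _ = 20 := by field_simp; ring
    _ ≤ ε * n := by linarith
    _ ≤ ε * n ^ 3 := by
        gcongr
        exact le_self_pow₀ (by linarith) (by norm_num)

/-- `p ≤ 2 b^(-792)`, `c = 2 n p² ≤ 2.2 b^16`, `c hb ≤ 6 Λ2`, `exp (6 Λ2) ≤ e (1 + 2.5 b^16)^3` -/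
theorem small_bc (ε : ℝ) (hε : 0 < ε) : ∀ᶠ n : ℕ in atTop,
    2 * BcB n (Real.exp (par n).θ * pp n (par n).I) (par n).hb (par n).K ≤ ε * n ^ 3 := by
  filter_upwards [pp_par (1 / 50) (by norm_num), tendsto_bb.eventually_ge_atTop 2,
    theta_le (1 / 100) (by norm_num),
    tendsto_bb.eventually_ge_atTop (2 * 8 * 64 * 12 * 500 ^ 2 / ε)] with n h1 h3 h4 h6
  have hb : 0 < bb n := by linarith
  have hb1 : 1 ≤ bb n := by linarith
  have hP : 0 ≤ pp n (par n).I := le_trans (by positivity) h1.1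
  have hθ : Real.exp (par n).θ ≤ 51 / 50 := by
    have a1 : (bb n)⁻¹ ^ 2 ≤ 1 := pow_le_one₀ (by positivity) (inv_le_one_of_one_le₀ hb1)
    have a2 : (par n).θ ≤ 1 / 100 := by linarith [h4.2]
    have a3 := (abs_le.1 (Real.abs_exp_sub_one_le (x := (par n).θ)
      (by rw [abs_of_nonneg h4.1]; linarith))).2
    rw [abs_of_nonneg h4.1] at a3
    linarith
  set p := Real.exp (par n).θ * pp n (par n).I with hp
  have hp0 : 0 ≤ p := by positivity
  have hp1 : p ≤ 53 / 50 * (bb n)⁻¹ ^ 792 := by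
    have : 0 ≤ (bb n)⁻¹ ^ 792 := by positivity
    calc p ≤ 51 / 50 * ((1 + 1 / 50) * (bb n)⁻¹ ^ 792) := mul_le_mul hθ h1.2 hP (by norm_num)
      _ ≤ _ := by linarith
  have hp2 : p ≤ 2 * (bb n)⁻¹ ^ 792 := by
    have : 0 ≤ (bb n)⁻¹ ^ 792 := by positivity
    linarith
  have hc : 2 * n * p ^ 2 ≤ 9 / 4 * bb n ^ 16 := by
    have : 0 ≤ bb n ^ 16 := by positivity
    calc 2 * n * p ^ 2 ≤ 2 * n * (53 / 50 * (bb n)⁻¹ ^ 792) ^ 2 := by gcongr
      _ = 2 * bb n ^ 1600 * (53 / 50 * (bb n)⁻¹ ^ 792) ^ 2 := by rw [bb_pow]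
      _ = 2 * (53 / 50) ^ 2 * bb n ^ 16 := by field_simp
      _ ≤ _ := by linarith
  have hΛ0 := numc_Λ2_nonneg h3
  have hhb : (par n).hb = 2 * (par n).Λ2 / (3 / 4 * bb n ^ 16) := rfl
  have hch : 2 * n * p ^ 2 * (par n).hb ≤ 6 * (par n).Λ2 := by
    calc 2 * n * p ^ 2 * (par n).hb ≤ 9 / 4 * bb n ^ 16 * (par n).hb := by
          refine mul_le_mul_of_nonneg_right hc ?_
          rw [hhb]
          positivity
      _ = 6 * (par n).Λ2 := by rw [hhb]; field_simp; ring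
  have hDM0 : 0 < (par n).DM := by change 0 < 5 / 4 * bb n ^ 16; positivity
  have hexp : Real.exp (2 * n * p ^ 2 * (par n).hb) ≤ 3 * (4 * bb n ^ 16) ^ 3 := by
    refine (Real.exp_le_exp.2 hch).trans ?_
    have a1 : 6 * (par n).Λ2 =
        6 * ((par n).DM / (par n).N) + (3 : ℕ) * Real.log (1 + 2 * (par n).DM) := by
      unfold Par.Λ2
      push_cast
      ring
    rw [a1, Real.exp_add, Real.exp_nat_mul, Real.exp_log (by linarith)]
    have a2 : Real.exp (6 * ((par n).DM / (par n).N)) ≤ 3 :=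
      (Real.exp_le_exp.2 (numc_DN h3)).trans (Real.exp_one_lt_d9.le.trans (by norm_num))
    have a3 := numc_log h3
    gcongr
  have h64 : 1 ≤ bb n ^ 64 := one_le_pow₀ hb1
  have hin : 1 + 2 * n * p ^ 2 * Real.exp (2 * n * p ^ 2 * (par n).hb) ≤ 500 * bb n ^ 64 := by
    have : 2 * n * p ^ 2 * Real.exp (2 * n * p ^ 2 * (par n).hb) ≤
        9 / 4 * bb n ^ 16 * (3 * (4 * bb n ^ 16) ^ 3) :=
      mul_le_mul hc hexp (Real.exp_pos _).le (by positivity)
    have e : 9 / 4 * bb n ^ 16 * (3 * (4 * bb n ^ 16) ^ 3) = 432 * bb n ^ 64 := by ring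
    linarith
  have h2 : 1 ≤ bb n ^ 2 := one_le_pow₀ hb1
  have hK : ((par n).K : ℝ) ≤ bb n ^ 2 + 1 := (Nat.ceil_lt_add_one (by positivity)).le
  have hK1 : 2 * ((par n).K : ℝ) + 4 ≤ 8 * bb n ^ 2 := by linarith
  have hK2 : 2 * (2 * ((par n).K : ℝ) + 2) ≤ 12 * bb n ^ 2 := by linarith
  have hinv : (bb n)⁻¹ ^ 642 ≤ (bb n)⁻¹ :=
    pow_le_of_le_one (by positivity) (inv_le_one_of_one_le₀ hb1) (by norm_num)
  have hC : 2 * 8 * 64 * 12 * 500 ^ 2 * (bb n)⁻¹ ≤ ε := by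
    rw [div_le_iff₀ hε] at h6
    rw [← div_eq_mul_inv, div_le_iff₀ hb]
    linarith
  unfold BcB
  calc 2 * ((n : ℝ) ^ 4 * p ^ 3 * (2 * ((par n).K : ℝ) + 4) ^ 2 * (2 * (2 * ((par n).K : ℝ) + 2)) *
        (1 + 2 * n * p ^ 2 * Real.exp (2 * n * p ^ 2 * (par n).hb)) ^ 2)
      ≤ 2 * ((n : ℝ) ^ 4 * (2 * (bb n)⁻¹ ^ 792) ^ 3 * (8 * bb n ^ 2) ^ 2 * (12 * bb n ^ 2) *
        (500 * bb n ^ 64) ^ 2) := by gcongr
    _ = 2 * (n * (2 * (bb n)⁻¹ ^ 792) ^ 3 * (8 * bb n ^ 2) ^ 2 * (12 * bb n ^ 2) *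
        (500 * bb n ^ 64) ^ 2) * n ^ 3 := by ring
    _ = 2 * (bb n ^ 1600 * (2 * (bb n)⁻¹ ^ 792) ^ 3 * (8 * bb n ^ 2) ^ 2 * (12 * bb n ^ 2) *
        (500 * bb n ^ 64) ^ 2) * n ^ 3 := by rw [bb_pow]
    _ = 2 * 8 * 64 * 12 * 500 ^ 2 * (bb n)⁻¹ ^ 642 * n ^ 3 := by field_simp; ring
    _ ≤ ε * n ^ 3 := by
        refine mul_le_mul_of_nonneg_right (le_trans ?_ hC) (by positivity)
        gcongr

end Crest.Agent.R30
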