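import Crest.Agent.R30.NumA
import Crest.Agent.R30.NumB
import Crest.Agent.R30.NumC
set_option autoImplicit false

noncomputable section

namespace Crest.Agent.R30

open Finset Filter

theorem exists_par (ε : ℝ) (hε : 0 < ε) : ∀ᶠ n : ℕ in atTop, ∃ P : Par, Ok n P ∧ Small n P ε := by
  filter_upwards [okA, ok_amp, ok_gap, ok_spec, ok_walk, ok_deg, small_fail ε hε, small_alpha, small_eq ε hε,
    small_meet ε hε, small_tail ε hε, small_bc ε hε] with n hA hamp hgap hspec hwalk hdeg hfail halpha heq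
    hmeet htail hbc
  obtain ⟨h1, h2, h3, h4, h5, h6, h7, h8, h9, h10, h11, h12, h13, h14, h15, h16, h17, h18, h19⟩ := hA
  exact ⟨par n, ⟨h1, h2, h3, h4, h5, h6, h7, h8, h9, h10, h11, h12, hamp.1, h13, hgap, hspec, h14, h15, hwalk, hdeg,
    le_rfl, h16, h17, h18, hamp.2, h19⟩, ⟨halpha, heq, hmeet, htail, hbc, hfail⟩⟩

end Crest.Agent.R30
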