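import Crest.Agent.R30.Graph
set_option autoImplicit false

noncomputable section

namespace Crest.Agent.R30

open Finset Crest.CombinatoricsR.TriangleRemoval

variable {n : ℕ}

variable {P : Par}

theorem mm_succ (i : ℕ) : mm n (i + 1) = mm n i - 3 := by
  unfold mm; push_cast; ring

theorem mm_anti {i j : ℕ} (h : i ≤ j) : mm n j ≤ mm n i := by
  unfold mm
  have : (i : ℝ) ≤ j := by exact_mod_cast h
  linarith

theorem Ok.mm_pos (hP : Ok n P) {i : ℕ} (hi : i ≤ P.I) : 0 < mm n i :=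
  (div_pos (by norm_num) hP.ζpos).trans_le (hP.mI.trans (mm_anti hi))

theorem Ok.rho_le (hP : Ok n P) {i : ℕ} (hi : i ≤ P.I) : 3 / mm n i ≤ P.ζ := by
  have h := hP.mI.trans (mm_anti hi)
  rw [div_le_iff₀ hP.ζpos] at h
  rw [div_le_iff₀ (hP.mm_pos hi)]
  linarith

theorem Ok.rho_pos (hP : Ok n P) {i : ℕ} (hi : i ≤ P.I) : 0 < 3 / mm n i :=
  div_pos (by norm_num) (hP.mm_pos hi)

theorem Ok.θ_nonneg (hP : Ok n P) : 0 ≤ P.θ := by
  have h1 := hP.ζpos
  have h2 := hP.Λ1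
  unfold Par.θ
  positivity

theorem Ok.pp_succ (hP : Ok n P) {i : ℕ} (hi : i ≤ P.I) :
    pp n (i + 1) = pp n i * (1 - 3 / mm n i) := by
  have h := (hP.mm_pos hi).ne'
  unfold pp
  rw [mm_succ]
  field_simp

theorem Ok.pp_zero (hP : Ok n P) : pp n 0 = 1 := div_self (hP.mm_pos (Nat.zero_le _)).ne'

/-- `ρ_j = 3 / mm j`, `1 - ρ_j = mm (j+1) / mm j`, `ρ ≤ - log (1 - ρ)`. -/
theorem Ok.sum_rho (hP : Ok n P) {i : ℕ} (hi : i ≤ P.I) : ∑ j ∈ range i, 3 / mm n j ≤ P.Λ := by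
  have key : ∀ i, i ≤ P.I →
      ∑ j ∈ range i, 3 / mm n j ≤ Real.log (mm n 0) - Real.log (mm n i) := by
    intro i
    induction i with
    | zero => simp
    | succ i ih =>
      intro hi
      have h0 := hP.mm_pos (Nat.le_of_succ_le hi)
      have h1 := hP.mm_pos hi
      have h2 := Real.log_le_sub_one_of_pos (div_pos h1 h0)
      rw [Real.log_div h1.ne' h0.ne'] at h2
      have h3 : mm n (i + 1) / mm n i - 1 = -(3 / mm n i) := by
        rw [mm_succ]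
        field_simp
        ring
      rw [Finset.sum_range_succ]
      linarith [ih (Nat.le_of_succ_le hi)]
  have h1 := hP.logm
  rw [Real.log_div (hP.mm_pos (Nat.zero_le _)).ne' (hP.mm_pos le_rfl).ne'] at h1
  have h2 := Real.log_le_log (hP.mm_pos le_rfl) (mm_anti (n := n) hi)
  linarith [key i hi]

theorem Ok.pp_bounds (hP : Ok n P) {i : ℕ} (hi : i ≤ P.I) :
    0 < pp n P.I ∧ pp n P.I ≤ pp n i ∧ pp n i ≤ 1 := by
  have h0 := hP.mm_pos (Nat.zero_le P.I)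
  exact ⟨div_pos (hP.mm_pos le_rfl) h0, div_le_div_of_nonneg_right (mm_anti hi) h0.le,
    (div_le_one h0).2 (mm_anti (Nat.zero_le _))⟩

theorem Ok.pp_pos (hP : Ok n P) {i : ℕ} (hi : i ≤ P.I) : 0 < pp n i :=
  (hP.pp_bounds hi).1.trans_le (hP.pp_bounds hi).2.1

theorem Ok.exp_le (hP : Ok n P) {i : ℕ} (hi : i ≤ P.I) :
    10 * P.ζ * ∑ j ∈ range i, 3 / mm n j ≤ P.θ := by
  have h1 := mul_le_mul_of_nonneg_left (hP.sum_rho hi) hP.ζpos.le
  have h2 : 0 ≤ P.ζ * P.Λ := mul_nonneg hP.ζpos.le (by linarith [hP.Λ1])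
  unfold Par.θ
  linarith

theorem Ok.ph_bounds (hP : Ok n P) {i : ℕ} (hi : i ≤ P.I) :
    pp n i ≤ ph n P.ζ i ∧ ph n P.ζ i ≤ 1 ∧ ph n P.ζ i ≤ Real.exp P.θ * pp n i := by
  have key : ∀ i, i ≤ P.I → pp n i ≤ ph n P.ζ i ∧ ph n P.ζ i ≤ 1 ∧
      ph n P.ζ i ≤ Real.exp (10 * P.ζ * ∑ j ∈ range i, 3 / mm n j) * pp n i := by
    intro i
    induction i with
    | zero => simp [ph, hP.pp_zero]
    | succ i ih =>
      intro hi
      have hi' := Nat.le_of_succ_le hi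
      obtain ⟨h1, h2, h3⟩ := ih hi'
      have hp := hP.pp_pos hi'
      have hρ0 := hP.rho_pos hi'
      have hρ1 := hP.rho_le hi'
      have hζ0 := hP.ζpos
      have hζ1 := hP.ζle
      have e : ph n P.ζ (i + 1) = ph n P.ζ i * (1 - (1 - 3 * P.ζ) * (3 / mm n i)) := by
        unfold ph; rw [Finset.prod_range_succ]
      rw [e, hP.pp_succ hi', Finset.sum_range_succ, mul_add, Real.exp_add]
      generalize 3 / mm n i = ρ at *
      have hx : 0 ≤ P.ζ * ρ := by positivity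
      have k1 : 1 - ρ ≤ 1 - (1 - 3 * P.ζ) * ρ := by linarith
      have k2 : 1 - (1 - 3 * P.ζ) * ρ ≤ 1 := by nlinarith
      have k3 : 1 - (1 - 3 * P.ζ) * ρ ≤ Real.exp (10 * P.ζ * ρ) * (1 - ρ) := by
        have := mul_le_mul_of_nonneg_right (Real.add_one_le_exp (10 * P.ζ * ρ))
          (by linarith : 0 ≤ 1 - ρ)
        nlinarith
      refine ⟨mul_le_mul h1 k1 (by linarith) (by linarith), ?_, ?_⟩
      · exact mul_le_one₀ h2 (by linarith) k2
      · refine (mul_le_mul h3 k3 (by linarith) (by positivity)).trans (le_of_eq ?_)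
        ring
  obtain ⟨h1, h2, h3⟩ := key i hi
  refine ⟨h1, h2, h3.trans ?_⟩
  exact mul_le_mul_of_nonneg_right (Real.exp_le_exp.2 (hP.exp_le hi)) (hP.pp_pos hi).le

/-- `exp (-y - 2y²) ≤ 1 - y ≤ exp (-y)` for `0 ≤ y ≤ 1/2`, `ρ_j ≤ ζ`, `∑ ρ_j ≤ Λ`. -/
theorem Ok.cb_range (hP : Ok n P) {i : ℕ} (hi : i ≤ P.I) (r c : ℕ → ℝ) (h0 : c 0 = n - 2)
    (hc : ∀ j, j < i → c (j + 1) = c j * (1 - 2 * r j))
    (hr : ∀ j, j < i → 3 / (mm n j * (1 + P.ζ)) ≤ r j ∧ r j ≤ 3 / (mm n j * (1 - P.ζ))) :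
    Real.exp (-P.θ) * (n - 2) * pp n i ^ 2 ≤ c i ∧ c i ≤ Real.exp P.θ * n * pp n i ^ 2 := by
  have hn : (0 : ℝ) ≤ (n : ℝ) - 2 := by
    have : (3 : ℝ) ≤ n := by exact_mod_cast hP.n3
    linarith
  have key : ∀ k, k ≤ i →
      Real.exp (-(10 * P.ζ * ∑ j ∈ range k, 3 / mm n j)) * (n - 2) * pp n k ^ 2 ≤ c k ∧
      c k ≤ Real.exp (10 * P.ζ * ∑ j ∈ range k, 3 / mm n j) * (n - 2) * pp n k ^ 2 := by
    intro k
    induction k with
    | zero => simp [hP.pp_zero, h0]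
    | succ k ih =>
      intro hk
      have hk' : k ≤ P.I := (Nat.le_of_succ_le hk).trans hi
      obtain ⟨h1, h2⟩ := ih (Nat.le_of_succ_le hk)
      obtain ⟨h3, h4⟩ := hr k hk
      have hρ0 := hP.rho_pos hk'
      have hρ1 := hP.rho_le hk'
      have hζ0 := hP.ζpos
      have hζ1 := hP.ζle
      rw [← div_div, div_le_iff₀ (by linarith)] at h3
      rw [← div_div, le_div_iff₀ (by linarith)] at h4
      rw [hc k hk, hP.pp_succ hk', Finset.sum_range_succ, mul_add, neg_add, Real.exp_add,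
        Real.exp_add]
      generalize 3 / mm n k = ρ at *
      generalize r k = q at *
      have hx : 0 ≤ P.ζ * ρ := by positivity
      have hq0 : 0 ≤ q := by nlinarith
      have hq1 : q ≤ 2 * ρ := by nlinarith
      have hq2 : P.ζ * q ≤ 2 * (P.ζ * ρ) := by nlinarith
      have hq3 : q ≤ ρ + 2 * (P.ζ * ρ) := by linarith
      have hq4 : ρ - 2 * (P.ζ * ρ) ≤ q := by linarith
      have hρρ : ρ * ρ ≤ P.ζ * ρ := by gcongr
      have hE := Real.add_one_le_exp (10 * P.ζ * ρ)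
      have k0 : 9 / 10 ≤ 1 - 2 * q := by linarith
      have k1 : Real.exp (-(10 * P.ζ * ρ)) * (1 - ρ) ^ 2 ≤ 1 - 2 * q := by
        rw [Real.exp_neg, inv_mul_le_iff₀ (Real.exp_pos _)]
        have a1 := mul_le_mul_of_nonneg_right hE (by linarith : 0 ≤ 1 - 2 * q)
        have a2 := mul_le_mul_of_nonneg_left k0 hx
        nlinarith
      have k2 : 1 - 2 * q ≤ Real.exp (10 * P.ζ * ρ) * (1 - ρ) ^ 2 := by
        have a1 := mul_le_mul_of_nonneg_right hE (sq_nonneg (1 - ρ))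
        have a2 : 9 / 10 ≤ (1 - ρ) ^ 2 := by nlinarith
        have a3 := mul_le_mul_of_nonneg_left a2 hx
        nlinarith
      constructor
      · refine le_trans (le_of_eq ?_) (mul_le_mul h1 k1 (by positivity)
          (le_trans (by positivity) h1))
        ring
      · refine (mul_le_mul h2 k2 (by linarith) (by positivity)).trans (le_of_eq ?_)
        ring
  obtain ⟨h1, h2⟩ := key i le_rfl
  have h3 := hP.exp_le hi
  constructor
  · refine le_trans ?_ h1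
    gcongr
  · refine h2.trans ?_
    gcongr
    linarith

theorem Ok.one_le_np (hP : Ok n P) {p : ℝ} (hp : pp n P.I ≤ p) : 1 ≤ n * p ^ 2 := by
  have hn : (3 : ℝ) ≤ n := by exact_mod_cast hP.n3
  have h0 := hP.pp_pos le_rfl
  have h1 : Real.exp (-P.θ) ≤ 1 := Real.exp_le_one_iff.2 (by linarith [hP.θ_nonneg])
  have h2 : Real.exp (-P.θ) * (n - 2) * pp n P.I ^ 2 ≤ 1 * n * p ^ 2 := by
    gcongr
    · linarith
    · linarith
  linarith [hP.Dm16, hP.Dmle]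

theorem Reg.Dm_le (hP : Ok n P) {l : Hs n} (hl : l.length ≤ P.I) (h : Reg P l) : P.Dm ≤ cb l := by
  have hn : (3 : ℝ) ≤ n := by exact_mod_cast hP.n3
  obtain ⟨h0, h1, -⟩ := hP.pp_bounds hl
  refine hP.Dmle.trans (le_trans ?_ h.lo)
  have : (0 : ℝ) ≤ n - 2 := by linarith
  gcongr

theorem Reg.cb_pos (hP : Ok n P) {l : Hs n} (hl : l.length ≤ P.I) (h : Reg P l) : 0 < cb l := by
  linarith [h.Dm_le hP hl, hP.Dm16]

/-- from `Qn_bounds` -/
theorem Reg.rate (hP : Ok n P) {l : Hs n} (hl : l.length ≤ P.I) (h : Reg P l) :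
    0 < Qn (gr l) ∧ 3 / (mm n l.length * (1 + P.ζ)) ≤ cb l / Qn (gr l) ∧
      cb l / Qn (gr l) ≤ 3 / (mm n l.length * (1 - P.ζ)) ∧ cb l / Qn (gr l) ≤ 2 * (3 / mm n l.length) := by
  have hc := h.cb_pos hP hl
  obtain ⟨h1, h2⟩ := Qn_bounds (gr_sub l) hc h.small
  rw [h.card] at h1 h2
  have hm := hP.mm_pos hl
  have hζ0 := hP.ζpos
  have hζ1 : 0 < 1 - P.ζ := by linarith [hP.ζle]
  have hQ : 0 < Qn (gr l) := lt_of_lt_of_le (by positivity) h1
  have h3 : cb l / Qn (gr l) ≤ 3 / (mm n l.length * (1 - P.ζ)) := by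
    rw [div_le_div_iff₀ hQ (by positivity)]
    linarith
  refine ⟨hQ, ?_, h3, h3.trans ?_⟩
  · rw [div_le_div_iff₀ (by positivity) hQ]
    linarith
  · rw [← div_div, div_le_iff₀ hζ1]
    have := hP.rho_pos hl
    nlinarith [hP.ζle]

theorem Reg.cod (hP : Ok n P) {l : Hs n} (hl : l.length ≤ P.I) (h : Reg P l) {u v : Fin n}
    (ha : adj (gr l) u v) :
    (1 - P.ζ) * cb l ≤ (cn (gr l) u v).card ∧ ((cn (gr l) u v).card : ℝ) ≤ 2 * cb l := by
  have hc := h.cb_pos hP hl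
  obtain ⟨h1, h2⟩ := abs_le.1 (h.small u v ha)
  unfold xx at h1 h2
  constructor
  · rw [← le_div_iff₀ hc]
    linarith
  · rw [← div_le_iff₀ hc]
    linarith [hP.ζle]

end Crest.Agent.R30
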