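import Crest.Agent.R30.Cav
set_option autoImplicit false

noncomputable section

namespace Crest.Agent.R30

open Finset Crest.CombinatoricsR.TriangleRemoval

variable {n : ℕ}

namespace Vis

theorem mem_path {T : Nd n} {a : Ad n} :
    T ∈ path a ↔ T.1.1 = a.1 ∧ ∃ s, (T.2, s) :: T.1.2 <:+ a.2 := by
  obtain ⟨b, a⟩ := a
  unfold path
  induction a with
  | nil => simp [pathL]
  | cons c a ih =>
    simp only [pathL, mem_insert, List.suffix_cons_iff] at ih ⊢
    rw [ih]
    obtain ⟨⟨b', a'⟩, w⟩ := T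
    constructor
    · rintro (h | ⟨h, s, hs⟩)
      · simp only [Prod.mk.injEq] at h
        obtain ⟨⟨rfl, rfl⟩, rfl⟩ := h
        exact ⟨rfl, c.2, Or.inl rfl⟩
      · exact ⟨h, s, Or.inr hs⟩
    · rintro ⟨h, s, hs | hs⟩
      · left
        simp only [List.cons.injEq] at hs h
        obtain ⟨rfl, rfl⟩ := hs
        rw [h]
      · exact Or.inr ⟨h, s, hs⟩

theorem path_len {T : Nd n} {a : Ad n} (h : T ∈ path a) : T.1.2.length < a.2.length := by
  obtain ⟨-, s, hs⟩ := mem_path.1 h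
  exact hs.length_le

theorem path_trans {T : Nd n} {a : Ad n} (h : T ∈ path a) : path T.1 ⊆ path a := by
  intro U hU
  obtain ⟨h1, s, hs⟩ := mem_path.1 h
  obtain ⟨h2, s', hs'⟩ := mem_path.1 hU
  exact mem_path.2 ⟨h2.trans h1, s', hs'.trans ((List.suffix_cons _ _).trans hs)⟩

theorem path_eq {T U : Nd n} {a : Ad n} (h : T ∈ path a) (h' : U ∈ path a)
    (hl : T.1.2.length = U.1.2.length) : T = U := by
  obtain ⟨h1, s, hs⟩ := mem_path.1 h
  obtain ⟨h2, s', hs'⟩ := mem_path.1 h'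
  have := (List.suffix_of_suffix_length_le hs hs' (by simp [hl])).eq_of_length (by simp [hl])
  simp only [List.cons.injEq, Prod.mk.injEq] at this
  exact Prod.ext (Prod.ext (h1.trans h2.symm) this.2) this.1.1

theorem path_lt {T U : Nd n} {a : Ad n} (h : T ∈ path a) (h' : U ∈ path a)
    (hl : T.1.2.length < U.1.2.length) : T ∈ path U.1 := by
  obtain ⟨h1, s, hs⟩ := mem_path.1 h
  obtain ⟨h2, s', hs'⟩ := mem_path.1 h'
  exact mem_path.2 ⟨h1.trans h2.symm, s,
    List.suffix_of_suffix_length_le hs ((List.suffix_cons _ _).trans hs') hl⟩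

theorem exists_depth (b : Bool) (a : List (Fin n × Bool)) {k : ℕ} (hk : k < a.length) :
    ∃ T ∈ path (b, a), T.1.2.length = k := by
  induction a with
  | nil => simp at hk
  | cons c a ih =>
    rcases (Nat.lt_succ_iff.1 hk).eq_or_lt with h | h
    · exact ⟨((b, a), c.1), mem_insert_self _ _, h.symm⟩
    · obtain ⟨T, hT, hl⟩ := ih h
      exact ⟨T, mem_insert_of_mem hT, hl⟩

theorem card_path' (b : Bool) (a : List (Fin n × Bool)) : (path (b, a)).card = a.length := by
  induction a with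
  | nil => rfl
  | cons c a ih =>
    have : ((b, a), c.1) ∉ path (b, a) := fun h => lt_irrefl _ (path_len h)
    exact (card_insert_of_notMem this).trans (by rw [ih]; rfl)

/-- a triangle node and its ancestors -/
def pT (T : Nd n) : Finset (Nd n) := insert T (path T.1)

theorem pT_eq (T : Nd n) (s : Bool) : pT T = path (kid T s) := rfl

theorem mem_pT {T U : Nd n} : T ∈ pT U ↔ T = U ∨ T ∈ path U.1 := mem_insert

theorem self_pT (T : Nd n) : T ∈ pT T := mem_insert_self _ _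

theorem pT_len {T U : Nd n} (h : T ∈ pT U) : T.1.2.length ≤ U.1.2.length := by
  rcases mem_pT.1 h with rfl | h
  · exact le_rfl
  · exact (path_len h).le

theorem pT_sub {T : Nd n} {a : Ad n} (h : T ∈ path a) : pT T ⊆ path a :=
  insert_subset h (path_trans h)

theorem pT_trans {T U : Nd n} (h : T ∈ pT U) : pT T ⊆ pT U := pT_sub (a := kid U false) h

theorem path_le {T U : Nd n} {a : Ad n} (h : T ∈ path a) (h' : U ∈ path a)
    (hl : T.1.2.length ≤ U.1.2.length) : T ∈ pT U := by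
  rcases hl.eq_or_lt with hl | hl
  · exact mem_pT.2 (Or.inl (path_eq h h' hl))
  · exact mem_pT.2 (Or.inr (path_lt h h' hl))

theorem mem_subT {T U : Nd n} : U ∈ subT T ↔ T ∈ pT U := by
  rw [mem_pT, mem_path]
  simp only [subT, sub, kid, Set.mem_union, Set.mem_singleton_iff, Set.mem_setOf_eq]
  constructor
  · rintro (h | h | h)
    · exact Or.inl h.symm
    · exact Or.inr ⟨h.1.symm, false, h.2⟩
    · exact Or.inr ⟨h.1.symm, true, h.2⟩
  · rintro (h | ⟨h, s, hs⟩)
    · exact Or.inl h.symm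
    · cases s
      · exact Or.inr (Or.inl ⟨h.symm, hs⟩)
      · exact Or.inr (Or.inr ⟨h.symm, hs⟩)

theorem iff_of_ind {P Q : Prop} (h : ind P = ind Q) : P ↔ Q := by
  by_cases hP : P <;> by_cases hQ : Q <;> simp_all [ind]

variable (E : Ed n) (ρ : Rt n) (N : ℕ) (B : Nd n) (d : ℕ)

/-- the weakened chain event -/
def R (ω : Nd n → ℕ) (b : Bool) : List (Fin n × Bool) → Fin n → Prop
  | [], _ => True
  | c :: a, w => a.length < d ∨ (R ω b a c.1 ∧ ω ((b, c :: a), w) < ω ((b, a), c.1) ∧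
      ω ((b, c :: a), w) + (a.length + 1) < N ∧
      alE E ρ ω {((b, c :: a), w), B} (ω ((b, c :: a), w)) (b, c :: a) ∧
      alE E ρ ω {((b, c :: a), w), B} (ω ((b, c :: a), w)) (b, (c.1, !c.2) :: a))

/-- the coordinates on which `R` depends -/
def DS (T : Nd n) : Set (Nd n) :=
  {U | (U ∈ pT T ∧ d ≤ U.1.2.length) ∨ ∃ V, V ∉ pT T ∧ path V.1 ⊆ pT T ∧ V ≠ B ∧
    d < V.1.2.length ∧ V.1.2.length ≤ T.1.2.length ∧ V ∈ pT U}

variable {E ρ N B d}

theorem alE_of_al {ω : Nd n → ℕ} (X : Finset (Nd n)) {t : ℕ} {a : Ad n} (h : al E ρ ω t a) :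
    alE E ρ ω X t a := fun w hw _ hlt => (al_iff E ρ ω t a).1 h w hw hlt

theorem R_of_rel {ω : Nd n → ℕ} (hω : ∀ T, ω T < N) {b : Bool} {a : List (Fin n × Bool)}
    {w : Fin n} (h : rel E ρ ω b a w) : R E ρ N B d ω b a w := by
  induction a generalizing w with
  | nil => trivial
  | cons c a ih =>
    have hd := rel_depth hω h
    obtain ⟨h1, -, h3, h4, h5⟩ := h
    exact Or.inr ⟨ih h1, h3, hd, alE_of_al _ h4, alE_of_al _ h5⟩

theorem DS_mono (b : Bool) (c : Fin n × Bool) (a : List (Fin n × Bool)) (w : Fin n) :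
    DS B d ((b, a), c.1) ⊆ DS B d ((b, c :: a), w) := by
  have hs : pT ((b, a), c.1) ⊆ pT ((b, c :: a), w) := subset_insert _ _
  rintro U (⟨h1, h2⟩ | ⟨V, h1, h2, h3, h4, h5, h6⟩)
  · exact Or.inl ⟨hs h1, h2⟩
  · refine Or.inr ⟨V, fun hV => ?_, h2.trans hs, h3, h4, h5.trans (Nat.le_succ _), h6⟩
    rcases mem_pT.1 hV with rfl | hV
    · exact absurd h5 (by simp)
    · exact h1 hV

theorem alE_congr {ω ω' : Nd n → ℕ} {X : Finset (Nd n)} {t : ℕ} {a : Ad n}
    (h : ∀ U w, (a, w) ∉ X → (a, w) ∈ pT U → ω U = ω' U) :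
    alE E ρ ω X t a ↔ alE E ρ ω' X t a :=
  iff_of_ind (dep_alE E ρ X t a ω ω' fun U ⟨w, h1, h2⟩ => h U w h1 (mem_subT.1 h2))

theorem R_congr {ω ω' : Nd n → ℕ} {b : Bool} {a : List (Fin n × Bool)} {w : Fin n}
    (h : ∀ U ∈ DS B d ((b, a), w), ω U = ω' U) : R E ρ N B d ω b a w ↔ R E ρ N B d ω' b a w := by
  induction a generalizing w with
  | nil => exact Iff.rfl
  | cons c a ih =>
    by_cases hd : a.length < d
    · simp only [R, hd, true_or]
    have hd' : d ≤ a.length := not_lt.1 hd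
    have e1 : ω ((b, c :: a), w) = ω' ((b, c :: a), w) :=
      h _ (Or.inl ⟨self_pT _, hd'.trans (Nat.le_succ _)⟩)
    have e2 : ω ((b, a), c.1) = ω' ((b, a), c.1) :=
      h _ (DS_mono b c a w (Or.inl ⟨self_pT _, hd'⟩))
    have e3 := ih (w := c.1) fun U hU => h U (DS_mono b c a w hU)
    have e4 : ∀ (s : Bool) (t : ℕ), alE E ρ ω {((b, c :: a), w), B} t (b, (c.1, s) :: a) ↔
        alE E ρ ω' {((b, c :: a), w), B} t (b, (c.1, s) :: a) := by
      intro s t
      refine alE_congr fun U w' h1 h2 => h U (Or.inr ⟨((b, (c.1, s) :: a), w'), fun hV => ?_,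
        subset_insert _ _, ?_,
        Nat.lt_succ_of_le hd', le_rfl, h2⟩)
      · rcases mem_pT.1 hV with hV | hV
        · exact h1 (mem_insert.2 (Or.inl hV))
        · exact lt_irrefl _ (path_len hV)
      · intro hV
        exact h1 (mem_insert.2 (Or.inr (mem_singleton.2 hV)))
    have e5 : ∀ t : ℕ, alE E ρ ω {((b, c :: a), w), B} t (b, c :: a) ↔
        alE E ρ ω' {((b, c :: a), w), B} t (b, c :: a) := e4 c.2
    simp only [R, e1, e2, e3, e4, e5]

theorem DS_below {T U : Nd n} (hU : U ∈ DS B d T) (h : T ∈ path U.1) : False := by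
  rcases hU with ⟨h1, -⟩ | ⟨V, h1, -, -, -, h5, h6⟩
  · exact absurd (path_len h) (not_lt.2 (pT_len h1))
  · exact h1 (path_le (a := kid U false) h6 (mem_insert_of_mem h) h5)

theorem DS_out {T U : Nd n} (hB : B ∉ pT T) (hB' : path B.1 ⊆ pT T) (hU : U ∈ DS B d T) :
    U ∉ subT B := by
  rw [mem_subT]
  intro h
  rcases hU with ⟨h1, -⟩ | ⟨V, h1, h2, h3, -, -, h6⟩
  · exact hB (pT_trans h1 h)
  · rcases lt_trichotomy V.1.2.length B.1.2.length with hl | hl | hl
    · exact h1 (hB' (path_lt (a := kid U false) h6 h hl))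
    · exact h3 (path_eq (a := kid U false) h6 h hl)
    · exact hB (h2 (path_lt (a := kid U false) h h6 hl))

theorem DS_in {T U : Nd n} (hB : B ∈ pT T) (hU : U ∈ DS B B.1.2.length T) : U ∈ subT B := by
  rw [mem_subT]
  rcases hU with ⟨h1, h2⟩ | ⟨V, -, h2, -, h4, -, h6⟩
  · exact path_le (a := kid T false) hB h1 h2
  · obtain ⟨B', hB', hl⟩ := exists_depth V.1.1 V.1.2 h4
    have : B' = B := path_eq (a := kid T false) (h2 hB') hB hl
    exact pT_trans h6 (mem_insert_of_mem (this ▸ hB'))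

theorem sum_pow_le (u : ℕ → ℝ) (hu : ∀ s, 0 ≤ u s) (j t : ℕ) :
    ∑ s ∈ range t, u s * ((∑ r ∈ range s, u r) ^ j / j.factorial) ≤
      (∑ r ∈ range t, u r) ^ (j + 1) / (j + 1).factorial := by
  induction t with
  | zero => simp
  | succ t ih =>
    rw [sum_range_succ, sum_range_succ]
    set x := ∑ r ∈ range t, u r
    have hx : 0 ≤ x := sum_nonneg fun r _ => hu r
    have h1 : x ^ (j + 1) + (j + 1 : ℕ) * x ^ j * u t ≤ (x + u t) ^ (j + 1) := by
      exact pow_add_mul_le_add_pow hx (by linarith [hu t]) (j + 1)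
    have hf : (0 : ℝ) < j.factorial := by positivity
    have h2 : u t * (x ^ j / j.factorial) = (j + 1 : ℕ) * x ^ j * u t / (j + 1).factorial := by
      rw [Nat.factorial_succ]
      push_cast
      field_simp
    rw [h2]
    refine (add_le_add ih le_rfl).trans ?_
    rw [← add_div]
    exact div_le_div_of_nonneg_right h1 (by positivity)

theorem EJ_nonneg (hN : 0 < N) {φ : (Nd n → ℕ) → ℝ} (h : ∀ ω, 0 ≤ φ ω) : 0 ≤ EJ (Jn n N) N φ := by
  have := EJ_mono (Jn n N) hN (φ := fun _ => 0) (ψ := φ) fun ω _ => h ω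
  rwa [EJ_const _ hN] at this

theorem step (hN : 0 < N) (hρ : ∀ b, adj E (ρ b).1 (ρ b).2) (g : ℕ → ℝ) (hg : ∀ t, 0 ≤ g t)
    (hq : ∀ (X : Finset (Nd n)) (a : Ad n) (t : ℕ), X.card ≤ 2 → adj E (sx ρ a) (sy ρ a) →
      a.2.length + t ≤ N → EJ (Jn n N) N (fun ω => ind (alE E ρ ω X t a)) ≤ g t)
    {b : Bool} {c : Fin n × Bool} {a : List (Fin n × Bool)} (w : Fin n) (hv : val E ρ b (c :: a))
    (hd : ¬ a.length < d) (j : ℕ) :
    EJ (Jn n N) N (fun ω => ind (R E ρ N B d ω b (c :: a) w) *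
        ((∑ r ∈ range (ω ((b, c :: a), w)), g r ^ 2 / N) ^ j / j.factorial)) ≤
      EJ (Jn n N) N (fun ω => ind (R E ρ N B d ω b a c.1) *
        ((∑ r ∈ range (ω ((b, a), c.1)), g r ^ 2 / N) ^ (j + 1) / (j + 1).factorial)) := by
  set T : Nd n := ((b, c :: a), w) with hT
  set T0 : Nd n := ((b, a), c.1) with hT0
  set H : ℕ → ℝ := fun t => ∑ r ∈ range t, g r ^ 2 / N with hH
  have hH0 : ∀ t, 0 ≤ H t := fun t => sum_nonneg fun r _ => by positivity
  by_cases hlen : ¬ a.length + 1 ≤ N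
  · refine EJ_mono _ hN fun ω _ => ?_
    rw [ind_neg, zero_mul]
    · have := hH0 (ω T0)
      exact mul_nonneg (ind_nonneg _) (by positivity)
    · rintro (h | ⟨-, -, h, -⟩)
      · exact hd h
      · omega
  rw [not_not] at hlen
  have hTJ : T ∈ Jn n N := mem_Jn.2 hlen
  let k : Bool → Ad n := fun s => (b, (c.1, s) :: a)
  let A : Bool → Set (Nd n) := fun s => {U | ∃ w', (k s, w') ∉ ({T, B} : Finset (Nd n)) ∧
    U ∈ subT (k s, w')}
  let f0 : ℕ → (Nd n → ℕ) → ℝ := fun t ω => ind (R E ρ N B d ω b a c.1) * ind (t < ω T0)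
  let f : Bool → ℕ → (Nd n → ℕ) → ℝ := fun s t ω => ind (alE E ρ ω {T, B} t (k s))
  let A0 : Set (Nd n) := {U | T0 ∉ path U.1}
  have hf0 : ∀ t, Dep (f0 t) A0 := fun t ω ω' h => by
    have e1 : ω T0 = ω' T0 := h _ fun h' => lt_irrefl _ (path_len h')
    have e2 : R E ρ N B d ω b a c.1 ↔ R E ρ N B d ω' b a c.1 :=
      R_congr fun U hU => h U fun h' => DS_below hU h'
    simp only [f0, e1, e2]
  have hf : ∀ s t, Dep (f s t) (A s) := fun s t => dep_alE E ρ _ t (k s)
  have hA0 : ∀ s, ∀ U ∈ A s, U ∉ A0 := by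
    rintro s U ⟨w', -, hU⟩ h0
    apply h0
    have h1 : T0 ∈ path (k s) := mem_insert_self _ _
    rcases mem_pT.1 (mem_subT.1 hU) with h2 | h2
    · rw [← h2]; exact h1
    · exact path_trans h2 h1
  have hAA : Disjoint (A c.2) (A (!c.2)) := by
    rw [Set.disjoint_left]
    rintro U ⟨w1, -, h1⟩ ⟨w2, -, h2⟩
    have := path_eq (a := kid U false) (mem_subT.1 h1) (mem_subT.1 h2) rfl
    have h3 := congrArg (fun T : Nd n => T.1.2.head?.map Prod.snd) this
    simp [k] at h3
  have hTA : ∀ s, T ∉ A s := by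
    rintro s ⟨w', h1, h2⟩
    rcases mem_pT.1 (mem_subT.1 h2) with h2 | h2
    · exact h1 (mem_insert.2 (Or.inl h2))
    · exact lt_irrefl _ (path_len h2)
  let F : ℕ → (Nd n → ℕ) → ℝ := fun t ω =>
    (ind (t + (a.length + 1) < N) * (H t ^ j / j.factorial)) *
      (f0 t ω * (f c.2 t ω * f (!c.2) t ω))
  have hF : ∀ t, Dep (F t) (A0 ∪ (A c.2 ∪ A (!c.2))) := fun t ω ω' h => by
    have e1 := hf0 t ω ω' fun U hU => h U (Or.inl hU)
    have e2 := hf c.2 t ω ω' fun U hU => h U (Or.inr (Or.inl hU))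
    have e3 := hf (!c.2) t ω ω' fun U hU => h U (Or.inr (Or.inr hU))
    simp only [F, e1, e2, e3]
  have hTn : T ∉ A0 ∪ (A c.2 ∪ A (!c.2)) := by
    rintro (h | h | h)
    · exact h (mem_insert_self _ _)
    · exact hTA _ h
    · exact hTA _ h
  have hadj : ∀ s, adj E (sx ρ (k s)) (sy ρ (k s)) := fun s => val_adj hρ (a := k s) hv
  have hEF : ∀ t, EJ (Jn n N) N (F t) ≤
      (g t ^ 2 * (H t ^ j / j.factorial)) * EJ (Jn n N) N (f0 t) := by
    intro t
    have hHt := hH0 t
    have h0 : 0 ≤ EJ (Jn n N) N (f0 t) :=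
      EJ_nonneg hN fun ω => mul_nonneg (ind_nonneg _) (ind_nonneg _)
    simp only [F]
    rw [EJ_const_mul]
    by_cases ht : t + (a.length + 1) < N
    swap
    · rw [ind_neg ht, zero_mul, zero_mul]
      positivity
    have hdep : Dep (fun ω => f c.2 t ω * f (!c.2) t ω) (A c.2 ∪ A (!c.2)) := fun ω ω' h => by
      have e2 := hf c.2 t ω ω' fun U hU => h U (Or.inl hU)
      have e3 := hf (!c.2) t ω ω' fun U hU => h U (Or.inr hU)
      simp only [e2, e3]
    rw [ind_pos ht, one_mul, EJ_mul _ hN (hf0 t) hdep (Set.disjoint_right.2 (by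
      rintro U (h | h)
      · exact hA0 _ U h
      · exact hA0 _ U h)), EJ_mul _ hN (hf c.2 t) (hf (!c.2) t) hAA]
    have hb : ∀ s, EJ (Jn n N) N (f s t) ≤ g t := fun s =>
      hq {T, B} (k s) t card_le_two (hadj s) (by
        show (a.length + 1) + t ≤ N
        omega)
    have hb0 : ∀ s, 0 ≤ EJ (Jn n N) N (f s t) := fun s => EJ_nonneg hN fun ω => ind_nonneg _
    have h1 : EJ (Jn n N) N (f c.2 t) * EJ (Jn n N) N (f (!c.2) t) ≤ g t ^ 2 := by
      rw [sq]
      exact mul_le_mul (hb _) (hb _) (hb0 _) (hg t)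
    calc H t ^ j / j.factorial * (EJ (Jn n N) N (f0 t) *
          (EJ (Jn n N) N (f c.2 t) * EJ (Jn n N) N (f (!c.2) t)))
        ≤ H t ^ j / j.factorial * (EJ (Jn n N) N (f0 t) * g t ^ 2) :=
          mul_le_mul_of_nonneg_left (mul_le_mul_of_nonneg_left h1 h0)
            (div_nonneg (pow_nonneg hHt _) (Nat.cast_nonneg _))
      _ = _ := by ring
  have hN' : (0 : ℝ) < N := by exact_mod_cast hN
  calc EJ (Jn n N) N (fun ω => ind (R E ρ N B d ω b (c :: a) w) * (H (ω T) ^ j / j.factorial))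
      = EJ (Jn n N) N (fun ω => F (ω T) ω) := by
        refine EJ_congr _ hN fun ω _ => ?_
        simp only [R, hd, false_or, ind_and, F, f0, f, k]
        ring
    _ = (∑ t ∈ range N, EJ (Jn n N) N (F t)) / N := EJ_cond _ hN hTJ F _ hF hTn
    _ ≤ (∑ t ∈ range N, (g t ^ 2 * (H t ^ j / j.factorial)) * EJ (Jn n N) N (f0 t)) / N :=
        div_le_div_of_nonneg_right (sum_le_sum fun t _ => hEF t) hN'.le
    _ = EJ (Jn n N) N (fun ω => ∑ t ∈ range N,
          (g t ^ 2 / N * (H t ^ j / j.factorial)) * f0 t ω) := by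
        rw [EJ_sum, sum_div]
        refine sum_congr rfl fun t _ => ?_
        rw [EJ_const_mul]
        ring
    _ ≤ _ := by
        refine EJ_mono _ hN fun ω hω => ?_
        have e : ∑ t ∈ range N, (g t ^ 2 / N * (H t ^ j / j.factorial)) * f0 t ω =
            ind (R E ρ N B d ω b a c.1) *
              ∑ t ∈ range (ω T0), g t ^ 2 / N * (H t ^ j / j.factorial) := by
          rw [mul_sum, ← sum_subset (range_subset_range.2 (hω T0).le)]
          · refine sum_congr rfl fun t ht => ?_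
            simp only [f0, ind_pos (mem_range.1 ht)]
            ring
          · intro t _ ht
            simp only [f0, ind_neg (fun h => ht (mem_range.2 h))]
            ring
        rw [e]
        exact mul_le_mul_of_nonneg_left
          (sum_pow_le (fun r => g r ^ 2 / N) (fun r => by positivity) j _) (ind_nonneg _)

theorem chain (hN : 0 < N) (hρ : ∀ b, adj E (ρ b).1 (ρ b).2) (g : ℕ → ℝ) (hg : ∀ t, 0 ≤ g t)
    (hq : ∀ (X : Finset (Nd n)) (a : Ad n) (t : ℕ), X.card ≤ 2 → adj E (sx ρ a) (sy ρ a) →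
      a.2.length + t ≤ N → EJ (Jn n N) N (fun ω => ind (alE E ρ ω X t a)) ≤ g t)
    (h : ℝ) (hh : (∑ t ∈ range N, g t ^ 2) / N ≤ h)
    {b : Bool} (a : List (Fin n × Bool)) (w : Fin n) (hv : val E ρ b a) (j : ℕ) :
    EJ (Jn n N) N (fun ω => ind (R E ρ N B d ω b a w) *
        ((∑ r ∈ range (ω ((b, a), w)), g r ^ 2 / N) ^ j / j.factorial)) ≤
      h ^ (a.length - d + j) / (a.length - d + j).factorial := by
  have base : ∀ (a : List (Fin n × Bool)) (w : Fin n) (j : ℕ),
      EJ (Jn n N) N (fun ω => ind (R E ρ N B d ω b a w) *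
        ((∑ r ∈ range (ω ((b, a), w)), g r ^ 2 / N) ^ j / j.factorial)) ≤ h ^ j / j.factorial := by
    intro a w j
    rw [← EJ_const (Jn n N) hN (h ^ j / j.factorial)]
    refine EJ_mono _ hN fun ω hω => ?_
    have h0 : 0 ≤ ∑ r ∈ range (ω ((b, a), w)), g r ^ 2 / N := sum_nonneg fun r _ => by positivity
    have h1 : ∑ r ∈ range (ω ((b, a), w)), g r ^ 2 / N ≤ h := by
      refine le_trans ?_ hh
      rw [sum_div]
      exact sum_le_sum_of_subset_of_nonneg (range_subset_range.2 (hω _).le)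
        fun r _ _ => by positivity
    refine (mul_le_of_le_one_left (by positivity) (ind_le_one _)).trans ?_
    gcongr
  induction a generalizing w j with
  | nil => simpa using base [] w j
  | cons c a ih =>
    by_cases hd : a.length < d
    · have : (c :: a).length - d + j = j := by simp only [List.length_cons]; omega
      rw [this]
      exact base _ _ _
    · have : (c :: a).length - d + j = a.length - d + (j + 1) := by
        simp only [List.length_cons]; omega
      rw [this]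
      exact (step hN hρ g hg hq w hv hd j).trans (ih c.1 hv.1 (j + 1))

theorem exists_ev (hN : 0 < N) (hρ : ∀ b, adj E (ρ b).1 (ρ b).2) (g : ℕ → ℝ) (hg : ∀ t, 0 ≤ g t)
    (hq : ∀ (X : Finset (Nd n)) (a : Ad n) (t : ℕ), X.card ≤ 2 → adj E (sx ρ a) (sy ρ a) →
      a.2.length + t ≤ N → EJ (Jn n N) N (fun ω => ind (alE E ρ ω X t a)) ≤ g t)
    (h : ℝ) (hh : (∑ t ∈ range N, g t ^ 2) / N ≤ h) (a : Ad n) (B : Nd n) (d : ℕ) :
    ∃ φ : (Nd n → ℕ) → Prop, (∀ ω, (∀ T, ω T < N) → vis E ρ ω a → φ ω) ∧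
      EJ (Jn n N) N (fun ω => ind (φ ω)) ≤ Gf h (a.2.length - d) ∧
      (B ∉ path a → path B.1 ⊆ path a → Dep (fun ω => ind (φ ω)) (subT B)ᶜ) ∧
      (B ∈ path a → d = B.1.2.length → Dep (fun ω => ind (φ ω)) (subT B)) := by
  have hh0 : 0 ≤ h := le_trans (by positivity) hh
  by_cases hv : val E ρ a.1 a.2
  swap
  · refine ⟨fun _ => False, fun ω _ h' => hv (vis_val h'), ?_, fun _ _ _ _ _ => rfl,
      fun _ _ _ _ _ => rfl⟩
    rw [EJ_const _ hN, ind_neg not_false]
    unfold Gf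
    positivity
  obtain ⟨b, a⟩ := a
  cases a with
  | nil =>
    refine ⟨fun _ => True, fun _ _ _ => trivial, ?_, fun _ _ _ _ _ => rfl, fun _ _ _ _ _ => rfl⟩
    rw [EJ_const _ hN, ind_pos trivial]
    simp [Gf]
  | cons c a =>
    refine ⟨fun ω => R E ρ N B d ω b a c.1, fun ω hω h' => R_of_rel hω h', ?_,
      fun h1 h2 ω ω' h' => ind_congr (R_congr fun U hU => h' U (DS_out h1 h2 hU)),
      fun h1 h2 ω ω' h' => ind_congr (R_congr fun U hU => h' U (DS_in h1 (h2 ▸ hU)))⟩
    have := chain (B := B) (d := d) hN hρ g hg hq h hh a c.1 hv.1 0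
    have e : (c :: a).length - d - 1 = a.length - d := by simp only [List.length_cons]; omega
    simpa only [Gf, e, pow_zero, Nat.factorial_zero, Nat.cast_one, div_one, mul_one, add_zero]
      using this

theorem card_val (hρ : ∀ b, adj E (ρ b).1 (ρ b).2) {cm : ℝ} (hcm : 0 ≤ cm)
    (hcod : ∀ u v, adj E u v → ((cn E u v).card : ℝ) ≤ cm) (b : Bool) (K : ℕ) :
    ∃ S : Finset (List (Fin n × Bool)), (S.card : ℝ) ≤ (2 * cm) ^ K ∧
      ∀ a, a ∈ S ↔ val E ρ b a ∧ a.length = K := by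
  induction K with
  | zero =>
    refine ⟨{[]}, by simp, fun a => ?_⟩
    cases a <;> simp [val]
  | succ K ih =>
    obtain ⟨S, hS, hm⟩ := ih
    refine ⟨S.biUnion fun a => (ch E ρ (b, a) ×ˢ univ).image fun c => c :: a, ?_, fun a => ?_⟩
    · have h1 : ∀ a ∈ S, (((ch E ρ (b, a) ×ˢ (univ : Finset Bool)).image
          fun c => c :: a).card : ℝ) ≤ 2 * cm := by
        intro a ha
        have h2 : ((ch E ρ (b, a) ×ˢ (univ : Finset Bool)).image fun c => c :: a).card ≤
            (cn E (sx ρ (b, a)) (sy ρ (b, a))).card * 2 := by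
          refine card_image_le.trans ?_
          rw [card_product, card_univ, Fintype.card_bool]
          exact Nat.mul_le_mul_right _ card_erase_le
        have h3 := hcod _ _ (val_adj hρ (a := (b, a)) ((hm a).1 ha).1)
        have h4 : (((ch E ρ (b, a) ×ˢ (univ : Finset Bool)).image fun c => c :: a).card : ℝ) ≤
            ((cn E (sx ρ (b, a)) (sy ρ (b, a))).card : ℝ) * 2 := by exact_mod_cast h2
        linarith
      calc ((S.biUnion fun a => (ch E ρ (b, a) ×ˢ univ).image fun c => c :: a).card : ℝ)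
          ≤ ∑ a ∈ S, (((ch E ρ (b, a) ×ˢ (univ : Finset Bool)).image
            fun c => c :: a).card : ℝ) := by exact_mod_cast card_biUnion_le
        _ ≤ ∑ _a ∈ S, 2 * cm := sum_le_sum h1
        _ = S.card * (2 * cm) := by rw [sum_const, nsmul_eq_mul]
        _ ≤ (2 * cm) ^ K * (2 * cm) := by gcongr
        _ = _ := (pow_succ _ _).symm
    · simp only [mem_biUnion, mem_image, mem_product, mem_univ, and_true]
      constructor
      · rintro ⟨a', ha', c, hc, rfl⟩
        exact ⟨⟨((hm a').1 ha').1, hc⟩, by rw [List.length_cons, ((hm a').1 ha').2]⟩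
      · rintro ⟨h1, h2⟩
        cases a with
        | nil => simp at h2
        | cons c a => exact ⟨a, (hm a).2 ⟨h1.1, by simpa using h2⟩, c, h1.2, rfl⟩

end Vis

/-- Probability that two nodes are visited. Fix a triangle node `B` and a depth `d`, and define a weakened chain event
`R (b, a) w` by recursion on `a`: true if `a.length ≤ d`; for `a = c :: a₀` longer: `R (b, a₀) c.1`, `ω T < ω ((b,a₀), c.1)`,
`ω T + a.length < N`, `alE {T, B} (ω T) (b, a)` and `alE {T, B} (ω T) (b, (c.1, !c.2) :: a₀)`, where `T = ((b,a), w)`.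
`rel` implies `R` (`rel_depth`). `R (b,a₀) c.1` does not depend on the nodes strictly below `((b,a₀), c.1)`, so with `H t = ∑_{s<t} g s² / N`,
`EJ (ind (R (b,a) w) * H (ω T)^j / j!) ≤ EJ (ind (R (b,a₀) c.1) * H (ω ((b,a₀), c.1))^(j+1) / (j+1)!)` (`EJ_cond`, `EJ_mul`, `hq`; invalid addresses have probability zero),
and by induction `≤ h^(a.length - d + j) / (a.length - d + j)!`. For the pair write `a'.2 = γ ++ c` with
`γ.length = (path a' \ path a).card`; if `γ ≠ []` let `B` be the first triangle node of `γ` (it is not on `path a`). The event for `a` (`d = 0`) does not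
depend on `subT B`; the event for `a'` with `d = c.length` depends only on `subT B`. -/
theorem vis_pair (E : Ed n) (ρ : Rt n) {N : ℕ} (hN : 0 < N) (hρ : ∀ b, adj E (ρ b).1 (ρ b).2) (g : ℕ → ℝ)
    (hg : ∀ t, 0 ≤ g t)
    (hq : ∀ (X : Finset (Nd n)) (a : Ad n) (t : ℕ), X.card ≤ 2 → adj E (sx ρ a) (sy ρ a) → a.2.length + t ≤ N →
      EJ (Jn n N) N (fun ω => ind (alE E ρ ω X t a)) ≤ g t)
    (h : ℝ) (hh : (∑ t ∈ range N, g t ^ 2) / N ≤ h) (a a' : Ad n) :
    EJ (Jn n N) N (fun ω => ind (vis E ρ ω a ∧ vis E ρ ω a')) ≤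
      Gf h a.2.length * Gf h (path a' \ path a).card := by
  by_cases hs : path a' ⊆ path a
  · obtain ⟨φ, h1, h2, -⟩ := Vis.exists_ev hN hρ g hg hq h hh a (a, (ρ false).1) 0
    rw [sdiff_eq_empty_iff_subset.2 hs]
    have : Gf h (∅ : Finset (Nd n)).card = 1 := by simp [Gf]
    rw [this, mul_one]
    exact (EJ_mono _ hN fun ω hω => ind_mono fun h' => h1 ω hω h'.1).trans h2
  have hne : (path a' \ path a).Nonempty := sdiff_nonempty.2 hs
  obtain ⟨B, hB, hmin⟩ := exists_min_image _ (fun T : Nd n => T.1.2.length) hne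
  obtain ⟨hB1, hB2⟩ := mem_sdiff.1 hB
  have hB3 : path B.1 ⊆ path a := fun U hU => by
    by_contra hn
    exact absurd (Vis.path_len hU) (not_lt.2 (hmin U (mem_sdiff.2 ⟨Vis.path_trans hB1 hU, hn⟩)))
  have e : path a' \ path a = path a' \ path B.1 := by
    ext U
    simp only [mem_sdiff]
    refine and_congr_right fun hU => ⟨fun h1 h2 => h1 (hB3 h2), fun h1 h2 => ?_⟩
    rcases lt_or_ge U.1.2.length B.1.2.length with hl | hl
    · exact h1 (Vis.path_lt hU hB1 hl)
    · exact hB2 (Vis.pT_sub h2 (Vis.path_le hB1 hU hl))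
  have e' : (path a' \ path a).card = a'.2.length - B.1.2.length := by
    rw [e, card_sdiff_of_subset (Vis.path_trans hB1), Vis.card_path' a'.1 a'.2,
      Vis.card_path' B.1.1 B.1.2]
  obtain ⟨φ, h1, h2, h3, -⟩ := Vis.exists_ev hN hρ g hg hq h hh a B 0
  obtain ⟨φ', h1', h2', -, h3'⟩ := Vis.exists_ev hN hρ g hg hq h hh a' B B.1.2.length
  rw [e']
  calc EJ (Jn n N) N (fun ω => ind (vis E ρ ω a ∧ vis E ρ ω a'))
      ≤ EJ (Jn n N) N (fun ω => ind (φ ω) * ind (φ' ω)) := EJ_mono _ hN fun ω hω => by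
        rw [← ind_and]
        exact ind_mono fun h' => ⟨h1 ω hω h'.1, h1' ω hω h'.2⟩
    _ = EJ (Jn n N) N (fun ω => ind (φ ω)) * EJ (Jn n N) N (fun ω => ind (φ' ω)) :=
        EJ_mul _ hN (h3 hB2 hB3) (h3' hB1 rfl) disjoint_compl_left
    _ ≤ _ := mul_le_mul h2 h2' (Vis.EJ_nonneg hN fun ω => ind_nonneg _)
        ((Vis.EJ_nonneg hN fun ω => ind_nonneg _).trans h2)

/-- union bound over the valid addresses of length `K` (at most `2 (2 cm)^K`), `vis_suffix`, `vis_pair` with `a' = a` -/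
theorem vis_deep (E : Ed n) (ρ : Rt n) {N : ℕ} (hN : 0 < N) (hρ : ∀ b, adj E (ρ b).1 (ρ b).2) (h cm : ℝ)
    (hh : 0 ≤ h) (hcm : 0 ≤ cm) (hcod : ∀ u v, adj E u v → ((cn E u v).card : ℝ) ≤ cm) (K : ℕ)
    (hv : ∀ a : Ad n, EJ (Jn n N) N (fun ω => ind (vis E ρ ω a)) ≤ Gf h a.2.length) :
    EJ (Jn n N) N (fun ω => ind (∃ a, vis E ρ ω a ∧ K ≤ a.2.length)) ≤ 2 * (2 * cm) ^ K * Gf h K := by
  choose S hS hm using fun b => Vis.card_val (ρ := ρ) hρ hcm hcod b K
  have hG : 0 ≤ Gf h K := by unfold Gf; positivity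
  calc EJ (Jn n N) N (fun ω => ind (∃ a, vis E ρ ω a ∧ K ≤ a.2.length))
      ≤ EJ (Jn n N) N (fun ω => ∑ b : Bool, ∑ a ∈ S b, ind (vis E ρ ω (b, a))) := by
        refine EJ_mono _ hN fun ω _ => ?_
        by_cases he : ∃ a, vis E ρ ω a ∧ K ≤ a.2.length
        · rw [ind_pos he]
          obtain ⟨⟨b, a⟩, h1, h2⟩ := he
          have h3 : vis E ρ ω (b, a.drop (a.length - K)) := vis_suffix h1 (List.drop_suffix _ _)
          have h4 : a.drop (a.length - K) ∈ S b :=
            (hm b _).2 ⟨vis_val h3, by simp only [List.length_drop] at h2 ⊢; omega⟩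
          rw [← ind_pos h3]
          refine (single_le_sum (f := fun a => ind (vis E ρ ω (b, a)))
            (fun _ _ => ind_nonneg _) h4).trans ?_
          exact single_le_sum (f := fun b => ∑ a ∈ S b, ind (vis E ρ ω (b, a)))
            (fun _ _ => sum_nonneg fun _ _ => ind_nonneg _) (mem_univ b)
        · rw [ind_neg he]
          exact sum_nonneg fun _ _ => sum_nonneg fun _ _ => ind_nonneg _
    _ = ∑ b : Bool, ∑ a ∈ S b, EJ (Jn n N) N (fun ω => ind (vis E ρ ω (b, a))) := by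
        rw [EJ_sum]
        exact sum_congr rfl fun b _ => EJ_sum _ _ _ _
    _ ≤ ∑ _b : Bool, (2 * cm) ^ K * Gf h K := by
        refine sum_le_sum fun b _ => ?_
        calc ∑ a ∈ S b, EJ (Jn n N) N (fun ω => ind (vis E ρ ω (b, a)))
            ≤ ∑ _a ∈ S b, Gf h K := sum_le_sum fun a ha => by
              have := hv (b, a)
              rwa [((hm b a).1 ha).2] at this
          _ = (S b).card * Gf h K := by rw [sum_const, nsmul_eq_mul]
          _ ≤ _ := mul_le_mul_of_nonneg_right (hS b) hG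
    _ = _ := by
        rw [sum_const, card_univ, Fintype.card_bool, nsmul_eq_mul]
        push_cast
        ring

end Crest.Agent.R30
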