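import Crest.Agent.R30.Order
import Crest.Agent.R30.BP
import Crest.Agent.R30.Vis
import Crest.Agent.R30.Count
import Crest.Agent.R30.Scal
set_option autoImplicit false

noncomputable section

namespace Crest.Agent.R30

open Finset Crest.CombinatoricsR.TriangleRemoval

variable {n : ℕ}

/-- the pair of roots -/
def mkR (e e' : Fin n × Fin n) : Rt n := fun b => bif b then e' else e

/-- ordered adjacent pairs -/
def prs (E : Ed n) : Finset (Fin n × Fin n) := univ.filter fun e => adj E e.1 e.2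

theorem sum_prs (E : Ed n) (f : Fin n → Fin n → ℝ) : ∑ e ∈ prs E, f e.1 e.2 = ∑ u, ∑ v ∈ nb E u, f u v := by
  unfold prs nb
  rw [Finset.sum_filter, Fintype.sum_prod_type]
  exact Finset.sum_congr rfl fun u _ => (Finset.sum_filter _ _).symm

theorem card_prs {E : Ed n} (hE : E ⊆ allEdges n) : ((prs E).card : ℝ) = 2 * E.card := by
  have := sum_prs E (fun _ _ => (1 : ℝ))
  simp only [Finset.sum_const, nsmul_eq_mul, mul_one] at this
  rw [this, two_card hE]

theorem ind_or_le' (p q : Prop) : ind (p ∨ q) ≤ ind p + ind q := by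
  by_cases h : p
  · rw [ind_pos (Or.inl h), ind_pos h]; linarith [ind_nonneg q]
  · rw [ind_neg h, zero_add]; exact ind_mono fun h' => h'.resolve_left h

theorem ind_exists_mem_le {ι : Type*} (s : Finset ι) (p : ι → Prop) : ind (∃ a ∈ s, p a) ≤ ∑ a ∈ s, ind (p a) := by
  by_cases h : ∃ a ∈ s, p a
  · obtain ⟨a, has, ha⟩ := h
    rw [ind_pos ⟨a, has, ha⟩, ← ind_pos ha]
    exact Finset.single_le_sum (f := fun a => ind (p a)) (fun a _ => ind_nonneg _) has
  · rw [ind_neg h]; exact Finset.sum_nonneg fun a _ => ind_nonneg _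

theorem sum_meet {E : Ed n} {e : Fin n × Fin n} (he : e ∈ prs E) :
    ∑ e' ∈ prs E, ind ((rv (mkR e e')).card ≠ 4) ≤ 4 * n := by
  have he' : e.1 ≠ e.2 := (mem_filter.1 he).2.1
  have h1 : ∀ e' ∈ prs E, ind ((rv (mkR e e')).card ≠ 4) ≤
      (ind (e'.1 = e.1) + ind (e'.1 = e.2)) + (ind (e'.2 = e.1) + ind (e'.2 = e.2)) := by
    intro e' he2
    have he2' : e'.1 ≠ e'.2 := (mem_filter.1 he2).2.1
    refine le_trans (ind_mono (Q := (e'.1 = e.1 ∨ e'.1 = e.2) ∨ (e'.2 = e.1 ∨ e'.2 = e.2)) fun h => ?_)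
      ((ind_or_le' _ _).trans (add_le_add (ind_or_le' _ _) (ind_or_le' _ _)))
    by_contra hc
    push Not at hc
    apply h
    have : rv (mkR e e') = {e.1, e.2, e'.1, e'.2} := rfl
    rw [this, card_insert_of_notMem, card_insert_of_notMem, card_insert_of_notMem, card_singleton]
    · simpa using he2'
    · simp only [mem_insert, mem_singleton, not_or]; exact ⟨fun h => hc.1.2 h.symm, fun h => hc.2.2 h.symm⟩
    · simp only [mem_insert, mem_singleton, not_or]
      exact ⟨he', fun h => hc.1.1 h.symm, fun h => hc.2.1 h.symm⟩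
  have h2 : ∀ x : Fin n, ∑ e' : Fin n × Fin n, ind (e'.1 = x) = n := by
    intro x; rw [Fintype.sum_prod_type]
    rw [Finset.sum_eq_single x (fun b _ hb => by simp [ind_neg hb]) (by simp)]
    simp [ind_pos]
  have h3 : ∀ x : Fin n, ∑ e' : Fin n × Fin n, ind (e'.2 = x) = n := by
    intro x; rw [Fintype.sum_prod_type_right]
    rw [Finset.sum_eq_single x (fun b _ hb => by simp [ind_neg hb]) (by simp)]
    simp [ind_pos]
  refine (Finset.sum_le_sum h1).trans ((Finset.sum_le_sum_of_subset_of_nonneg (subset_univ _) fun e' _ _ =>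
    add_nonneg (add_nonneg (ind_nonneg _) (ind_nonneg _)) (add_nonneg (ind_nonneg _) (ind_nonneg _))).trans
    (le_of_eq ?_))
  simp only [Finset.sum_add_distrib, h2, h3]; ring

theorem sum_mkR_le (E : Ed n) (f : Rt n → ℝ) (hf : ∀ ρ, 0 ≤ f ρ) :
    ∑ e ∈ prs E, ∑ e' ∈ prs E, f (mkR e e') ≤ ∑ ρ, f ρ := by
  rw [← Finset.sum_product']
  have hinj : Set.InjOn (fun q : (Fin n × Fin n) × (Fin n × Fin n) => mkR q.1 q.2)
      ((prs E ×ˢ prs E : Finset _) : Set _) := by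
    intro q _ q' _ h
    exact Prod.ext (congrFun h false) (congrFun h true)
  rw [← Finset.sum_image (f := f) hinj]
  exact Finset.sum_le_sum_of_subset_of_nonneg (subset_univ _) fun ρ _ _ => hf ρ

theorem pair_bound {P : Par} (hP : Ok n P) {E : Ed n} {D : ℝ} (hD : P.Dm ≤ D) (hD' : D ≤ P.DM)
    (hcod : ∀ u v, adj E u v → |((cn E u v).card : ℝ) / D - 1| ≤ P.ζ) (hspec : Spec E D P.η)
    {α εq : ℝ} (hα0 : 0 ≤ α) (hα1 : α ≤ 1)
    (hq : ∀ q, 0 < q → |Real.log q + Real.log (1 + 2 * D) / 2| ≤ P.ζ2 → |q - α| ≤ εq)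
    (ρ : Rt n) (hρ : ∀ b, adj E (ρ b).1 (ρ b).2) :
    EJ (univ : Finset (Finset (Fin n))) P.N (fun ω => (ind (gal E ω P.N (ρ false).1 (ρ false).2) - α) *
      (ind (gal E ω P.N (ρ true).1 (ρ true).2) - α)) ≤
      εq ^ 2 + 2 * (ind ((rv ρ).card ≠ 4) + 2 * (4 * P.DM) ^ P.K * Gf P.hb P.K +
        ∑ a ∈ Ads n P.K, ∑ a' ∈ Ads n P.K, ind (Cfg E ρ a a') * (Gf P.hb a.2.length * Gf P.hb (path a' \ path a).card)) := by
  have hN : 0 < P.N := lt_of_lt_of_le (by have := hP.n3; positivity) hP.Npos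
  have hNr : (0 : ℝ) < P.N := by exact_mod_cast hN
  have hDm : 0 < P.Dm := by linarith [hP.Dm16]
  have hD0 : 0 < D := by linarith
  have hDM : 0 < P.DM := by linarith
  have hΛ2D : D / P.N + Real.log (1 + 2 * D) / 2 ≤ P.Λ2 := by
    unfold Par.Λ2
    gcongr
  have hΛ0 : 0 ≤ P.Λ := by linarith [hP.Λ1]
  have hbp := bp_bounds E P.N P.k' D P.ζ P.ζ2 P.η P.Λ hD0 hN hP.ζpos hP.ζle hP.ζ2le (hP.ζpos.le.trans hP.ζη) hP.Λ1
    hcod hspec hP.gap (le_trans (by gcongr) hP.DN) (hΛ2D.trans hP.Λ2le) (le_trans (by gcongr) hP.ybar) hP.amp2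
  -- cavity bound
  set g : ℕ → ℝ := fun t => Real.sqrt (2 / (1 + 2 * D * t / P.N)) with hg
  have hcav : ∀ (X : Finset (Nd n)) (a : Ad n) (t : ℕ), X.card ≤ 2 → adj E (sx ρ a) (sy ρ a) →
      a.2.length + t ≤ P.N → EJ (Jn n P.N) P.N (fun ω => ind (alE E ρ ω X t a)) ≤ g t := by
    intro X a t hX ha ht
    rw [prob_alE E ρ hN X t a ht]
    obtain ⟨b1, b2, b3⟩ := hbp t (by omega) _ _ ha
    refine cav_le E P.N t _ P.ζ P.ζ2 (by positivity) hP.ζle hP.ζ2le _ _ b1 b2 b3 _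
      ((filter_subset _ _).trans (erase_subset _ _)) ?_
    have h1 : cn E (sx ρ a) (sy ρ a) ⊆
        (ch E ρ a).filter (fun w => (a, w) ∉ X) ∪ insert (sz ρ a) (X.image Prod.snd) := by
      intro w hw
      simp only [mem_union, mem_filter, mem_insert, mem_image, ch, mem_erase]
      by_cases h1 : w = sz ρ a
      · exact Or.inr (Or.inl h1)
      by_cases h2 : (a, w) ∈ X
      · exact Or.inr (Or.inr ⟨_, h2, rfl⟩)
      · exact Or.inl ⟨⟨h1, hw⟩, h2⟩
    have h2 := (card_le_card h1).trans (card_union_le _ _)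
    have h3 := card_insert_le (sz ρ a) (X.image Prod.snd)
    have h4 := card_image_le (s := X) (f := Prod.snd)
    omega
  have hh : (∑ t ∈ range P.N, g t ^ 2) / P.N ≤ P.hb := by
    have h1 : (∑ t ∈ range P.N, g t ^ 2) / P.N = 2 / D * ∑ t ∈ range P.N, D / (P.N + 2 * D * t) := by
      rw [Finset.sum_div, Finset.mul_sum]
      refine Finset.sum_congr rfl fun t _ => ?_
      rw [hg]; dsimp only
      rw [Real.sq_sqrt (by positivity)]
      field_simp
    have h2 := sum_rate hD0 hN (le_refl P.N)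
    have h3 : 0 ≤ ∑ t ∈ range P.N, D / (P.N + 2 * D * t) := Finset.sum_nonneg fun t _ => by positivity
    rw [h1]
    calc 2 / D * ∑ t ∈ range P.N, D / (P.N + 2 * D * t) ≤ 2 / P.Dm * P.Λ2 := by
          gcongr; exact h2.trans hΛ2D
      _ = P.hb := by unfold Par.hb; ring
  have hb0 : 0 ≤ P.hb := le_trans (by positivity) hh
  have hvp := vis_pair E ρ hN hρ g (fun t => Real.sqrt_nonneg _) hcav P.hb hh
  have hv1 : ∀ a : Ad n, EJ (Jn n P.N) P.N (fun ω => ind (vis E ρ ω a)) ≤ Gf P.hb a.2.length := by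
    intro a
    have := hvp a a
    simpa [Gf] using this
  have hdeep := vis_deep E ρ hN hρ P.hb (2 * P.DM) hb0 (by positivity) (fun u v ha => by
    have h1 := (abs_le.1 (hcod u v ha)).2
    have h2 : ((cn E u v).card : ℝ) / D ≤ 2 := by linarith [hP.ζle]
    rw [div_le_iff₀ hD0] at h2
    linarith) P.K hv1
  -- coupling
  set φ : (Nd n → ℕ) → ℝ := fun ω => (ind (al E ρ ω P.N (false, [])) - α) * (ind (al E ρ ω P.N (true, [])) - α)
    with hφ
  have habs : ∀ p : Prop, |ind p - α| ≤ 1 := fun p =>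
    abs_le.2 ⟨by linarith [ind_nonneg p], by linarith [ind_le_one p]⟩
  have hc := coupling (Jn n P.N) hN (prj ρ) (Qs E ρ) φ (fun ω hω => Qs_sub hω) (fun ω ω' h => by
    obtain ⟨h1, h2⟩ := stop h
    refine ⟨h1, ?_⟩
    simp only [hφ]
    rw [ind_congr (h2 false P.N), ind_congr (h2 true P.N)]) (fun ω => by
    simp only [hφ]
    rw [abs_mul]
    exact mul_le_one₀ (habs _) (abs_nonneg _) (habs _))
  have hpull : (fun ω : Finset (Fin n) → ℕ => φ fun a => ω (prj ρ a)) =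
      fun ω => (ind (gal E ω P.N (ρ false).1 (ρ false).2) - α) * (ind (gal E ω P.N (ρ true).1 (ρ true).2) - α) := by
    funext ω
    simp only [hφ]
    rw [ind_congr (pull ω P.N false), ind_congr (pull ω P.N true)]
  rw [hpull] at hc
  have hroot : EJ (Jn n P.N) P.N φ ≤ εq ^ 2 := by
    rw [hφ, root_pair E ρ hN α]
    have h1 : ∀ b, |qf E P.N P.N (ρ b).1 (ρ b).2 - α| ≤ εq := by
      intro b
      obtain ⟨b1, b2, _⟩ := hbp P.N le_rfl _ _ (hρ b)
      refine hq _ b1 ?_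
      rwa [mul_div_assoc, div_self hNr.ne', mul_one] at b2
    refine (le_abs_self _).trans ?_
    rw [abs_mul, sq]
    exact mul_le_mul (h1 false) (h1 true) (abs_nonneg _) ((abs_nonneg _).trans (h1 false))
  have hbad : EJ (Jn n P.N) P.N (fun ω => ind (¬ Set.InjOn (prj ρ) (Qs E ρ ω))) ≤
      ind ((rv ρ).card ≠ 4) + 2 * (4 * P.DM) ^ P.K * Gf P.hb P.K +
        ∑ a ∈ Ads n P.K, ∑ a' ∈ Ads n P.K,
          ind (Cfg E ρ a a') * (Gf P.hb a.2.length * Gf P.hb (path a' \ path a).card) := by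
    have h1 : ∀ ω : Nd n → ℕ, ind (¬ Set.InjOn (prj ρ) (Qs E ρ ω)) ≤
        (ind ((rv ρ).card ≠ 4) + ind (∃ a, vis E ρ ω a ∧ P.K ≤ a.2.length)) +
          ∑ a ∈ Ads n P.K, ∑ a' ∈ Ads n P.K, ind (Cfg E ρ a a') * ind (vis E ρ ω a ∧ vis E ρ ω a') := by
      intro ω
      refine le_trans (ind_mono (Q := ((rv ρ).card ≠ 4 ∨ ∃ a, vis E ρ ω a ∧ P.K ≤ a.2.length) ∨
        ∃ a ∈ Ads n P.K, ∃ a' ∈ Ads n P.K, Cfg E ρ a a' ∧ (vis E ρ ω a ∧ vis E ρ ω a')) fun h => ?_)
        ((ind_or_le' _ _).trans (add_le_add (ind_or_le' _ _) ?_))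
      · rcases two_tree hρ h with h | ⟨a, a', ha, ha', hc⟩
        · exact Or.inl (Or.inl h)
        · by_cases h1 : P.K ≤ a.2.length
          · exact Or.inl (Or.inr ⟨a, ha, h1⟩)
          by_cases h2 : P.K ≤ a'.2.length
          · exact Or.inl (Or.inr ⟨a', ha', h2⟩)
          exact Or.inr ⟨a, mem_Ads.2 (by omega), a', mem_Ads.2 (by omega), hc, ha, ha'⟩
      · refine (ind_exists_mem_le _ _).trans (Finset.sum_le_sum fun a _ => (ind_exists_mem_le _ _).trans
          (Finset.sum_le_sum fun a' _ => le_of_eq (ind_and _ _)))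
    refine (EJ_mono _ hN fun ω _ => h1 ω).trans ?_
    rw [EJ_add, EJ_add, EJ_const _ hN, EJ_sum]
    refine add_le_add (add_le_add le_rfl (hdeep.trans (le_of_eq (by ring)))) (Finset.sum_le_sum fun a _ => ?_)
    rw [EJ_sum]
    refine Finset.sum_le_sum fun a' _ => ?_
    rw [EJ_const_mul]
    exact mul_le_mul_of_nonneg_left (hvp a a') (ind_nonneg _)
  have := (abs_le.1 hc).2
  linarith

theorem stage2 {P : Par} (hP : Ok n P) {E : Ed n} (hE : E ⊆ allEdges n) {D : ℝ} (hD : P.Dm ≤ D) (hD' : D ≤ P.DM)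
    (hcod : ∀ u v, adj E u v → |((cn E u v).card : ℝ) / D - 1| ≤ P.ζ) (hspec : Spec E D P.η)
    {α εq : ℝ} (hα0 : 0 ≤ α) (hα1 : α ≤ 1)
    (hq : ∀ q, 0 < q → |Real.log q + Real.log (1 + 2 * D) / 2| ≤ P.ζ2 → |q - α| ≤ εq) :
    EJ (univ : Finset (Finset (Fin n))) P.N (fun ω => (2 * ((finE E ω P.N).card : ℝ) - 2 * E.card * α) ^ 2) ≤
      (2 * E.card) ^ 2 * εq ^ 2 + 2 * (2 * E.card * (4 * n) +
        (2 * E.card) ^ 2 * (2 * (4 * P.DM) ^ P.K * Gf P.hb P.K) + Bc E P.hb P.K) := by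
  have hDm : 0 < P.Dm := by linarith [hP.Dm16]
  have hDM : 0 ≤ P.DM := by linarith
  have hb0 : 0 ≤ P.hb := by
    have h3 : 0 ≤ Real.log (1 + 2 * P.DM) := Real.log_nonneg (by linarith)
    unfold Par.hb Par.Λ2; positivity
  have h1 : (fun ω : Finset (Fin n) → ℕ => (2 * ((finE E ω P.N).card : ℝ) - 2 * E.card * α) ^ 2) =
      fun ω => ∑ e ∈ prs E, ∑ e' ∈ prs E,
        (ind (gal E ω P.N e.1 e.2) - α) * (ind (gal E ω P.N e'.1 e'.2) - α) := by
    funext ω
    rw [← Finset.sum_mul_sum, ← sq, two_card_finE hE, ← sum_prs E (fun u v => ind (gal E ω P.N u v)),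
      Finset.sum_sub_distrib, Finset.sum_const, nsmul_eq_mul, card_prs hE]
  rw [h1, EJ_sum]
  set τ : ℝ := 2 * (4 * P.DM) ^ P.K * Gf P.hb P.K with hτ
  set f : Rt n → ℝ := fun ρ => ∑ a ∈ Ads n P.K, ∑ a' ∈ Ads n P.K,
    ind (Cfg E ρ a a') * (Gf P.hb a.2.length * Gf P.hb (path a' \ path a).card) with hf
  have h2 : ∀ e ∈ prs E, EJ (univ : Finset (Finset (Fin n))) P.N (fun ω => ∑ e' ∈ prs E,
        (ind (gal E ω P.N e.1 e.2) - α) * (ind (gal E ω P.N e'.1 e'.2) - α)) ≤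
      2 * E.card * (εq ^ 2 + 2 * τ) + 2 * (4 * n) + 2 * ∑ e' ∈ prs E, f (mkR e e') := by
    intro e he
    rw [EJ_sum]
    have h3 : ∀ e' ∈ prs E, EJ (univ : Finset (Finset (Fin n))) P.N (fun ω =>
        (ind (gal E ω P.N e.1 e.2) - α) * (ind (gal E ω P.N e'.1 e'.2) - α)) ≤
        (εq ^ 2 + 2 * τ) + 2 * ind ((rv (mkR e e')).card ≠ 4) + 2 * f (mkR e e') := by
      intro e' he'
      have := pair_bound hP hD hD' hcod hspec hα0 hα1 hq (mkR e e') (fun b => by
        cases b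
        · exact (mem_filter.1 he).2
        · exact (mem_filter.1 he').2)
      refine le_trans this (le_of_eq ?_)
      simp only [hτ, hf]; ring
    refine (Finset.sum_le_sum h3).trans ?_
    simp only [Finset.sum_add_distrib, ← Finset.mul_sum, Finset.sum_const, nsmul_eq_mul, card_prs hE]
    have := sum_meet he
    linarith
  refine (Finset.sum_le_sum h2).trans ?_
  simp only [Finset.sum_add_distrib, ← Finset.mul_sum, Finset.sum_const, nsmul_eq_mul, card_prs hE]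
  have h4 : ∑ e ∈ prs E, ∑ e' ∈ prs E, f (mkR e e') ≤ Bc E P.hb P.K :=
    sum_mkR_le E f fun ρ => Finset.sum_nonneg fun a _ => Finset.sum_nonneg fun a' _ =>
      mul_nonneg (ind_nonneg _) (mul_nonneg (Gf_nonneg hb0 _) (Gf_nonneg hb0 _))
  nlinarith

end Crest.Agent.R30
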