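import Crest.Agent.R30.Stage1
import Crest.Agent.R30.Stage2
import Crest.Agent.R30.Num
set_option autoImplicit false

noncomputable section

namespace Crest.Agent.R30

open Finset Filter Crest.CombinatoricsR.TriangleRemoval

variable {n : ℕ}

/-- the functional of the statement -/
def phi (n : ℕ) (e : ℕ) : ℝ := ((e : ℝ) / (n : ℝ) ^ ((3 : ℝ) / 2) - 1 / (2 * Real.sqrt 2)) ^ 2

theorem rpow_sq (hn : (0 : ℝ) < n) : ((n : ℝ) ^ ((3 : ℝ) / 2)) ^ 2 = (n : ℝ) ^ 3 := by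
  rw [← Real.rpow_natCast, ← Real.rpow_mul hn.le]; norm_num

theorem phi_eq (hn : (0 : ℝ) < n) (e : ℕ) : phi n e = (2 * (e : ℝ) - Atg n) ^ 2 / (4 * n ^ 3) := by
  have h1 : (0 : ℝ) < (n : ℝ) ^ ((3 : ℝ) / 2) := Real.rpow_pos_of_pos hn _
  have h2 : (0 : ℝ) < Real.sqrt 2 := by positivity
  rw [← rpow_sq hn]
  unfold phi Atg
  field_simp
  ring

theorem phi_le (hn : 1 ≤ n) (e : ℕ) (he : (e : ℝ) ≤ n ^ 2) : phi n e ≤ 4 * n := by
  have hn1 : (1 : ℝ) ≤ n := by exact_mod_cast hn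
  have hn0 : (0 : ℝ) < n := by linarith
  have h1 : (0 : ℝ) < (n : ℝ) ^ ((3 : ℝ) / 2) := Real.rpow_pos_of_pos hn0 _
  have h2 : (1 : ℝ) ≤ Real.sqrt 2 := by rw [Real.one_le_sqrt]; norm_num
  set x : ℝ := (e : ℝ) / (n : ℝ) ^ ((3 : ℝ) / 2) with hx
  have hx0 : 0 ≤ x := by positivity
  have hx2 : x ^ 2 ≤ n := by
    rw [hx, div_pow, rpow_sq hn0, div_le_iff₀ (by positivity)]
    calc (e : ℝ) ^ 2 ≤ ((n : ℝ) ^ 2) ^ 2 := by gcongr
      _ = (n : ℝ) * (n : ℝ) ^ 3 := by ring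
  set a : ℝ := 1 / (2 * Real.sqrt 2) with ha
  have ha0 : 0 ≤ a := by positivity
  have ha1 : a ≤ 1 := by rw [ha, div_le_one (by positivity)]; linarith
  unfold phi
  rw [← hx, ← ha]
  nlinarith [mul_nonneg hx0 ha0]

theorem good_bound {P : Par} {ε : ℝ} (hP : Ok n P) (hS : Small n P ε) (l : Hs n) (hR : Reach l)
    (hl : l.length = P.I) (hG : Good P l) (fuel : ℕ) (hf : mm n P.I ≤ fuel) :
    expectFinal (phi n) fuel (gr l) ≤ (ε ^ 2 + 2 * ε) / 2 + Bc (gr l) P.hb P.K / n ^ 3 := by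
  have hn3 : (3 : ℝ) ≤ n := by exact_mod_cast hP.n3
  have hn : (0 : ℝ) < n := by linarith
  have hreg := reg_of_good hP l hR hl.le hG
  have hcard : ((gr l).card : ℝ) = mm n P.I := by rw [hreg.card, hl]
  have hm : 0 < mm n P.I := hP.mm_pos le_rfl
  have hN : 0 < P.N := lt_of_lt_of_le (by have := hP.n3; positivity) hP.Npos
  have hA0 : 0 ≤ Atg n := by unfold Atg; positivity
  have h1 := order_le (gr_sub l) (phi n) (fun m => sq_nonneg _) fuel P.N (by exact_mod_cast hcard.le.trans hf) hN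
    hP.Npos
  have hlo := hreg.lo
  have hhi := hreg.hi
  rw [hl] at hlo hhi
  have h2 := stage2 hP (gr_sub l) (hreg.Dm_le hP hl.le) (hhi.trans hP.DMge) hreg.small hreg.spec
    (α := Atg n / (2 * mm n P.I)) (εq := ε * (n : ℝ) ^ ((3 : ℝ) / 2) / (2 * mm n P.I)) (by positivity)
    (by rw [div_le_one (by positivity)]; exact hS.alpha) (fun q hq hq' => by
      have := hS.eq (cb l) q hlo hhi hq hq'
      rw [le_div_iff₀ (by positivity)]
      calc |q - Atg n / (2 * mm n P.I)| * (2 * mm n P.I) = |(q - Atg n / (2 * mm n P.I)) * (2 * mm n P.I)| := by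
            rw [abs_mul, abs_of_pos (by positivity : 0 < 2 * mm n P.I)]
        _ = |2 * mm n P.I * q - Atg n| := by congr 1; field_simp
        _ ≤ _ := this)
  rw [hcard] at h2
  have e1 : 2 * mm n P.I * (Atg n / (2 * mm n P.I)) = Atg n := by field_simp
  have e2 : (2 * mm n P.I) ^ 2 * (ε * (n : ℝ) ^ ((3 : ℝ) / 2) / (2 * mm n P.I)) ^ 2 = ε ^ 2 * n ^ 3 := by
    rw [← rpow_sq hn]; field_simp
  rw [e1, e2] at h2
  have e3 : EJ (univ : Finset (Finset (Fin n))) P.N (fun ω => phi n (finE (gr l) ω P.N).card) =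
      (1 / (4 * n ^ 3)) * EJ (univ : Finset (Finset (Fin n))) P.N
        (fun ω => (2 * ((finE (gr l) ω P.N).card : ℝ) - Atg n) ^ 2) := by
    rw [← EJ_const_mul]; congr 1; funext ω; rw [phi_eq hn]; ring
  rw [e3] at h1
  have h3 := hS.meet
  have h4 := hS.tail
  have hn3' : (0 : ℝ) < n ^ 3 := by positivity
  refine h1.trans ?_
  have h5 : EJ (univ : Finset (Finset (Fin n))) P.N (fun ω => (2 * ((finE (gr l) ω P.N).card : ℝ) - Atg n) ^ 2) ≤
      (ε ^ 2 + 2 * ε) * n ^ 3 + 2 * Bc (gr l) P.hb P.K := by linarith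
  calc 2 * (1 / (4 * n ^ 3) * EJ (univ : Finset (Finset (Fin n))) P.N
        (fun ω => (2 * ((finE (gr l) ω P.N).card : ℝ) - Atg n) ^ 2))
      ≤ 2 * (1 / (4 * n ^ 3) * ((ε ^ 2 + 2 * ε) * n ^ 3 + 2 * Bc (gr l) P.hb P.K)) := by gcongr
    _ = _ := by field_simp; ring

theorem hb_nonneg {P : Par} (hP : Ok n P) : 0 ≤ P.hb := by
  have h1 : 0 < P.Dm := by linarith [hP.Dm16]
  have h2 : 0 ≤ P.DM := le_trans (by positivity) hP.DMge
  have h3 : 0 ≤ Real.log (1 + 2 * P.DM) := Real.log_nonneg (by linarith)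
  unfold Par.hb Par.Λ2; positivity

theorem total_bound {P : Par} {ε : ℝ} (hε : 0 < ε) (hP : Ok n P) (hS : Small n P ε) :
    expectFinal (phi n) (n ^ 2) (allEdges n) ≤ ε ^ 2 / 2 + 6 * ε := by
  have hn3 : (3 : ℝ) ≤ n := by exact_mod_cast hP.n3
  have hn : (0 : ℝ) < n := by linarith
  have hm : 0 < mm n P.I := hP.mm_pos le_rfl
  have hI0 : (0 : ℝ) ≤ P.I := Nat.cast_nonneg _
  have hI : (P.I : ℝ) ≤ n ^ 2 := by unfold mm at hm; nlinarith
  have hI' : P.I ≤ n ^ 2 := by exact_mod_cast hI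
  have hf : mm n P.I ≤ ((n ^ 2 - P.I : ℕ) : ℝ) := by
    rw [Nat.cast_sub hI']; push_cast; unfold mm; nlinarith
  have hfin := Ex_final (n := n) (phi n) P.I (n ^ 2 - P.I)
  rw [Nat.sub_add_cancel hI'] at hfin
  rw [hfin]
  have hb0 := hb_nonneg hP
  have key : ∀ l : Hs n, Reach l → l.length = P.I → expectFinal (phi n) (n ^ 2 - P.I) (gr l) ≤
      (ε ^ 2 + 2 * ε) / 2 + ((1 / n ^ 3) * (ind (Pre (Good P) l) * Bc (gr l) P.hb P.K) +
        4 * n * ind (¬ Good P l)) := by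
    intro l hR hl
    by_cases hG : Good P l
    · rw [ind_neg (not_not.2 hG), ind_pos ((good_iff P l).1 hG).1]
      have := good_bound hP hS l hR hl hG _ hf
      calc _ ≤ _ := this
        _ = _ := by ring
    · rw [ind_pos hG]
      have h1 : expectFinal (phi n) (n ^ 2 - P.I) (gr l) ≤ 4 * n := by
        refine expectFinal_le _ _ _ _ fun m hm => phi_le (by have := hP.n3; omega) m ?_
        have h2 : ((gr l).card : ℝ) ≤ (allEdges n).card := by exact_mod_cast card_le_card (gr_sub l)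
        rw [card_allEdges] at h2
        have h3 : (m : ℝ) ≤ (gr l).card := by exact_mod_cast hm
        nlinarith
      have h2 : 0 ≤ (1 / (n : ℝ) ^ 3) * (ind (Pre (Good P) l) * Bc (gr l) P.hb P.K) :=
        mul_nonneg (by positivity) (mul_nonneg (ind_nonneg _) (Bc_nonneg _ hb0 _))
      nlinarith [sq_nonneg ε]
  refine (Ex_mono _ _ _ key).trans ?_
  rw [Ex_add, Ex_add, Ex_const, Ex_const_mul, Ex_const_mul]
  have hpb := hP.ph_bounds le_rfl
  have hpp := hP.pp_bounds le_rfl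
  have hp0 : 0 ≤ ph n P.ζ P.I := hpp.1.le.trans hpb.1
  have h1 : Tn P P.I (fun E : Ed n => Bc E P.hb P.K) ≤ BcB n (Real.exp P.θ * pp n P.I) P.hb P.K :=
    (bc_bound _ (fn_Tn P P.I) _ _ hp0 hb0 _ P.K (surv hP le_rfl hP.size2) le_rfl).trans
      (BcB_mono hp0 hpb.2.2 hb0 _)
  have h2 := hS.bc
  have h3 := fail_le hP
  have h4 := hS.fail
  have h5 : (1 / (n : ℝ) ^ 3) * Ex P.I (fun l : Hs n => ind (Pre (Good P) l) * Bc (gr l) P.hb P.K) ≤ ε / 2 := by
    have : Ex P.I (fun l : Hs n => ind (Pre (Good P) l) * Bc (gr l) P.hb P.K) ≤ ε * n ^ 3 / 2 := by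
      unfold Tn at h1; linarith
    calc _ ≤ (1 / (n : ℝ) ^ 3) * (ε * n ^ 3 / 2) := by gcongr
      _ = _ := by field_simp
  have h6 : 4 * n * Ex P.I (fun l : Hs n => ind (¬ Good P l)) ≤ 4 * ε := by
    calc _ ≤ 4 * n * Pfail n P := by gcongr
      _ ≤ _ := by linarith
  linarith

theorem main : Tendsto (fun n : ℕ => expectFinal (phi n) (n ^ 2) (allEdges n)) atTop (nhds 0) := by
  rw [Metric.tendsto_nhds]
  intro δ hδ
  have hε : 0 < min 1 (δ / 8) := lt_min one_pos (by linarith)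
  filter_upwards [exists_par _ hε] with n hn
  obtain ⟨P, hP, hS⟩ := hn
  have h := total_bound hε hP hS
  have h0 := expectFinal_nonneg (n := n) (phi n) (fun m => sq_nonneg _) (n ^ 2) (allEdges n)
  rw [Real.dist_eq, sub_zero, abs_of_nonneg h0]
  have h1 : min 1 (δ / 8) ≤ 1 := min_le_left _ _
  have h2 : min 1 (δ / 8) ≤ δ / 8 := min_le_right _ _
  nlinarith

end Crest.Agent.R30
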