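import Crest.Agent.R30.Boot
set_option autoImplicit false

noncomputable section

namespace Crest.Agent.R30

open Finset Crest.CombinatoricsR.TriangleRemoval

variable {n : ℕ}

theorem avg_exp_le {ι : Type*} (T : Finset ι) (y : ι → ℝ) (h1 : ∀ t ∈ T, |y t| ≤ 1)
    (h0 : ∑ t ∈ T, y t = 0) {b : ℝ} (h2 : ∑ t ∈ T, y t ^ 2 ≤ T.card * b) :
    ∑ t ∈ T, Real.exp (y t) ≤ T.card * Real.exp b := by
  have h3 : ∑ t ∈ T, Real.exp (y t) ≤ ∑ t ∈ T, (1 + y t + y t ^ 2) :=
    Finset.sum_le_sum fun t ht => by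
      linarith [(abs_le.1 (Real.abs_exp_sub_one_sub_id_le (h1 t ht))).2]
  rw [Finset.sum_add_distrib, Finset.sum_add_distrib, h0, Finset.sum_const, nsmul_eq_mul] at h3
  have h4 := mul_le_mul_of_nonneg_left (Real.add_one_le_exp b) (Nat.cast_nonneg (α := ℝ) T.card)
  linarith

theorem mart_step {P : Par} (hP : Ok n P) (u v : Fin n) {ε : ℝ} (hε : ε ^ 2 = P.Dm) (l : Hs n)
    (hR : Reach l) (hl : l.length < P.I) (hG : Good P l) :
    Kr (fun l : Hs n => Real.exp (ε * Mt u v l - 128 * ∑ j ∈ range l.length, 3 / mm n j)) l ≤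
      Real.exp (ε * Mt u v l - 128 * ∑ j ∈ range l.length, 3 / mm n j) := by
  have hreg := reg_of_good hP l hR hl.le hG
  obtain ⟨hQ, -, -, hr⟩ := hreg.rate hP hl.le
  have hρ0 := hP.rho_pos hl.le
  have hρ1 := hP.rho_le hl.le
  have hζ1 := hP.ζle
  have hne : (triangles (gr l)).card ≠ 0 := by
    intro h0
    rw [Qn, h0] at hQ
    simp at hQ
  have hc := hreg.cb_pos hP hl.le
  have hD := hreg.Dm_le hP hl.le
  have h16 := hP.Dm16
  rw [Kr, if_neg hne, inv_mul_le_iff₀ hQ]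
  by_cases ha : adj (gr l) u v
  swap
  · simp only [Mt, if_neg ha, add_zero, List.length_cons, Finset.sum_range_succ, Finset.sum_const,
      nsmul_eq_mul]
    refine mul_le_mul_of_nonneg_left (Real.exp_le_exp.2 (by linarith)) hQ.le
  obtain ⟨c', hc'⟩ : ∃ c', c' = cb l * (1 - 2 * (cb l / Qn (gr l))) := ⟨_, rfl⟩
  obtain ⟨m, hm⟩ : ∃ m, m = (Qn (gr l))⁻¹ * ∑ t' ∈ triangles (gr l), xi (gr l) u v t' := ⟨_, rfl⟩
  have hc2 : cb l / 2 ≤ c' := by
    rw [hc']
    have := mul_le_mul_of_nonneg_left (by linarith : 1 / 2 ≤ 1 - 2 * (cb l / Qn (gr l))) hc.le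
    linarith
  have hc0 : 0 < c' := by linarith
  have hm' : ∑ t' ∈ triangles (gr l), xi (gr l) u v t' = Qn (gr l) * m := by
    rw [hm, ← mul_assoc, mul_inv_cancel₀ hQ.ne', one_mul]
  have hm0 : m ≤ 0 := by
    rw [hm]
    exact mul_nonpos_of_nonneg_of_nonpos (inv_pos.2 hQ).le
      (Finset.sum_nonpos fun t ht => (xi_bounds ht u v).2)
  have hm2 : -2 ≤ m := by
    have h := Finset.sum_le_sum (s := triangles (gr l)) (f := fun _ => (-2 : ℝ))
      fun t ht => (xi_bounds ht u v).1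
    rw [hm', Finset.sum_const, nsmul_eq_mul] at h
    exact le_of_mul_le_mul_left h hQ
  have hm8 : -(Qn (gr l) * m) ≤ 8 * cb l ^ 2 := by
    rw [← hm', sum_xi ha, neg_neg]
    have h := Finset.sum_le_sum (s := cn (gr l) u v) (g := fun _ => 4 * cb l)
      (f := fun w => ((cn (gr l) u w).card : ℝ) + (cn (gr l) v w).card - 2) fun w hw => by
        linarith [(hreg.cod hP hl.le (mem_cn.1 hw).1).2, (hreg.cod hP hl.le (mem_cn.1 hw).2).2]
    rw [Finset.sum_const, nsmul_eq_mul] at h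
    have := mul_le_mul_of_nonneg_right (hreg.cod hP hl.le ha).2 (by positivity : 0 ≤ 4 * cb l)
    linarith
  have hsq : ∑ t ∈ triangles (gr l), (xi (gr l) u v t - m) ^ 2 ≤ 16 * cb l ^ 2 := by
    have h := Finset.sum_le_sum (s := triangles (gr l))
      (f := fun t => (xi (gr l) u v t - m) ^ 2)
      (g := fun t => (-2 - 2 * m) * xi (gr l) u v t + m ^ 2) fun t ht => by
        obtain ⟨k1, k2⟩ := xi_bounds ht u v
        nlinarith
    rw [Finset.sum_add_distrib, ← Finset.mul_sum, hm', Finset.sum_const, nsmul_eq_mul] at h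
    have : 0 ≤ Qn (gr l) * m ^ 2 := by positivity
    change _ ≤ _ + Qn (gr l) * m ^ 2 at h
    linarith
  have key := avg_exp_le (triangles (gr l)) (fun t => ε * ((xi (gr l) u v t - m) / c'))
    (fun t ht => ?_) ?_ (b := 128 * (3 / mm n l.length)) ?_
  · have e : ∀ t, Real.exp (ε * Mt u v (t :: l) - 128 * ∑ j ∈ range (t :: l).length, 3 / mm n j) =
        Real.exp (ε * Mt u v l - 128 * ∑ j ∈ range l.length, 3 / mm n j -
          128 * (3 / mm n l.length)) * Real.exp (ε * ((xi (gr l) u v t - m) / c')) := by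
      intro t
      rw [← Real.exp_add]
      simp only [Mt, if_pos ha, List.length_cons, Finset.sum_range_succ, cb, ← hc', ← hm]
      congr 1
      ring
    simp only [e]
    rw [← Finset.mul_sum]
    refine (mul_le_mul_of_nonneg_left key (Real.exp_pos _).le).trans (le_of_eq ?_)
    rw [mul_left_comm, ← Real.exp_add, sub_add_cancel]
    rfl
  · rw [← sq_le_one_iff_abs_le_one, mul_pow, hε, div_pow, ← mul_div_assoc,
      div_le_one (by positivity)]
    obtain ⟨k1, k2⟩ := xi_bounds ht u v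
    have k3 : (xi (gr l) u v t - m) ^ 2 ≤ 4 := by nlinarith
    have k4 : (P.Dm / 2) ^ 2 ≤ c' ^ 2 := by gcongr; linarith
    nlinarith
  · rw [← Finset.mul_sum, ← Finset.sum_div, Finset.sum_sub_distrib, hm', Finset.sum_const,
      nsmul_eq_mul]
    change ε * ((Qn (gr l) * m - Qn (gr l) * m) / c') = 0
    simp
  · simp only [mul_pow, div_pow, hε]
    rw [← Finset.mul_sum, ← Finset.sum_div]
    have k1 : (∑ t ∈ triangles (gr l), (xi (gr l) u v t - m) ^ 2) / c' ^ 2 ≤ 64 := by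
      rw [div_le_iff₀ (by positivity)]
      have : (cb l / 2) ^ 2 ≤ c' ^ 2 := by gcongr
      linarith
    have k2 := mul_le_mul hD k1 (by positivity) hc.le
    rw [div_le_iff₀ hQ] at hr
    change _ ≤ Qn (gr l) * _
    linarith

/-- `super` with `Z l = exp (± λ Mt u v l - 128 ∑_{j < l.length} ρ_j)`, `λ = √Dm`. The increment `Δ` has mean zero,
`|Δ| ≤ 2 / cb (t :: l) ≤ 4 / Dm`, so `λ |Δ| ≤ 1` and `exp y ≤ 1 + y + y²`; `E Δ² ≤ E xi² / cb'² ≤ 2 E|xi| · 4 / cb²`,
`E |xi| ≤ 8 cb² / Q` (`sum_xi`, `xi_bounds`, `Reg.cod`), so `E Δ² ≤ 64 / Q ≤ 128 ρ / Dm`. -/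
theorem mart_tail {P : Par} (hP : Ok n P) {i : ℕ} (hi : i ≤ P.I) (u v : Fin n) :
    Ex i (fun l : Hs n => ind (Pre (Good P) l) * ind (P.ζ0 < |Mt u v l|)) ≤
      2 * Real.exp (128 * P.Λ - Real.sqrt P.Dm * P.ζ0) := by
  have hD : 0 ≤ P.Dm := by linarith [hP.Dm16]
  have key : ∀ ε : ℝ, ε ^ 2 = P.Dm → Ex i (fun l : Hs n => ind (Pre (Good P) l) *
      Real.exp (ε * Mt u v l - 128 * ∑ j ∈ range l.length, 3 / mm n j)) ≤ 1 := by
    intro ε hε
    have h := super (Good P)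
      (fun l : Hs n => Real.exp (ε * Mt u v l - 128 * ∑ j ∈ range l.length, 3 / mm n j)) P.I
      (fun _ _ h => h.tail) (fun _ => (Real.exp_pos _).le) (mart_step hP u v hε) i hi
    simpa [Mt] using h
  have h1 := key (Real.sqrt P.Dm) (Real.sq_sqrt hD)
  have h2 := key (-Real.sqrt P.Dm) (by rw [neg_sq, Real.sq_sqrt hD])
  have h3 := Ex_mono i (fun l : Hs n => ind (Pre (Good P) l) * ind (P.ζ0 < |Mt u v l|))
    (fun l => Real.exp (128 * P.Λ - Real.sqrt P.Dm * P.ζ0) * (ind (Pre (Good P) l) *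
      Real.exp (Real.sqrt P.Dm * Mt u v l - 128 * ∑ j ∈ range l.length, 3 / mm n j) +
      ind (Pre (Good P) l) *
      Real.exp (-Real.sqrt P.Dm * Mt u v l - 128 * ∑ j ∈ range l.length, 3 / mm n j))) ?_
  · rw [Ex_const_mul, Ex_add] at h3
    refine h3.trans ?_
    rw [mul_comm]
    gcongr
    linarith
  intro l _ hl
  rw [← mul_add, mul_left_comm]
  refine mul_le_mul_of_nonneg_left ?_ (ind_nonneg _)
  by_cases hM : P.ζ0 < |Mt u v l|
  swap
  · rw [ind_neg hM]; positivity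
  have hS := hP.sum_rho hi
  rw [ind_pos hM, mul_add, ← Real.exp_add, ← Real.exp_add, hl]
  have hs := Real.sqrt_nonneg P.Dm
  rcases lt_abs.1 hM with h | h
  · have := mul_le_mul_of_nonneg_left h.le hs
    exact le_add_of_le_of_nonneg (Real.one_le_exp (by linarith)) (Real.exp_pos _).le
  · have := mul_le_mul_of_nonneg_left h.le hs
    exact le_add_of_nonneg_of_le (Real.exp_pos _).le (Real.one_le_exp (by linarith))

end Crest.Agent.R30
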