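import Crest.Agent.R30.Defs
set_option autoImplicit false

noncomputable section

namespace Crest.Agent.R30

open Finset Filter

/-- the base scale, `bb n ^ 1600 = n` -/
def bb (n : ℕ) : ℝ := (n : ℝ) ^ ((1 : ℝ) / 1600)

/-- The parameters. Never let `ring`/`norm_num`/`simp` expand powers with exponent `k'` or `k = 256`; generalize them. -/
def par (n : ℕ) : Par where
  I := ⌊mm n 0 * (1 - (bb n)⁻¹ ^ 792) / 3⌋₊
  j := ⌈bb n ^ 2⌉₊
  l := 7
  k' := 2097152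
  K := ⌈bb n ^ 2⌉₊
  N := 2 * n ^ 6
  ζ0 := (bb n)⁻¹ ^ 4
  ζ := (bb n)⁻¹ ^ 3
  ζ2 := (bb n)⁻¹ ^ 2
  κ := (bb n)⁻¹
  η := bb n ^ (-(1 : ℝ) / 512)
  Λ := Real.log n
  Dm := 3 / 4 * bb n ^ 16
  DM := 5 / 4 * bb n ^ 16

theorem par_k (n : ℕ) : (par n).k = 256 := by
  show 2 ^ (7 + 1) = 256
  norm_num

theorem bb_pow (n : ℕ) : bb n ^ 1600 = n := by
  rw [bb, one_div]
  exact_mod_cast Real.rpow_inv_natCast_pow (n := 1600) (Nat.cast_nonneg n) (by norm_num)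

theorem tendsto_bb : Tendsto bb atTop atTop := by
  exact (tendsto_rpow_atTop (by norm_num)).comp tendsto_natCast_atTop_atTop

theorem one_le_log : ∀ᶠ n : ℕ in atTop, 1 ≤ Real.log n :=
  (Real.tendsto_log_atTop.comp tendsto_natCast_atTop_atTop).eventually_ge_atTop 1

theorem le_mm_zero {n : ℕ} (h : 3 ≤ n) : (n : ℝ) ≤ mm n 0 := by
  have : (3 : ℝ) ≤ n := by exact_mod_cast h
  simp only [mm, Nat.cast_zero]
  nlinarith

/-- powers of the logarithm are smaller than any positive power of `bb` -/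
theorem log_pow_le (C a : ℝ) (k : ℕ) (ha : 0 < a) : ∀ᶠ n : ℕ in atTop, C * Real.log n ^ k ≤ bb n ^ a := by
  have h := ((isLittleO_log_rpow_rpow_atTop (k : ℝ)
    (show 0 < 1 / 1600 * a by positivity)).const_mul_left C).eventuallyLE
  filter_upwards [tendsto_natCast_atTop_atTop.eventually h] with n hn
  rw [Real.rpow_natCast, Real.norm_eq_abs, Real.norm_of_nonneg (by positivity)] at hn
  rw [bb, ← Real.rpow_mul (Nat.cast_nonneg n)]
  exact (le_abs_self _).trans hn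

theorem amp_le (a : ℝ) (k : ℕ) (ha : 0 < a) : ∀ᶠ n : ℕ in atTop, Amp (4 * Real.log n) k * Real.log n ≤ bb n ^ a := by
  filter_upwards [log_pow_le (1 + 8 * k * 36 * 217 ^ k) a (2 * k + 3) ha, one_le_log] with n h1 h2
  refine le_trans ?_ h1
  generalize Real.log n = L at h2
  have h3 : 4 * L + 2 * (4 * L) ^ 2 ≤ 36 * L ^ 2 := by nlinarith
  have h4 : 6 * (4 * L + 2 * (4 * L) ^ 2) + 1 ≤ 217 * L ^ 2 := by nlinarith
  calc _ ≤ (L ^ (2 * k + 2) + 8 * k * (36 * L ^ 2) * (217 * L ^ 2) ^ k) * L := by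
        unfold Amp
        gcongr
        exact one_le_pow₀ h2
    _ = _ := by rw [mul_pow, ← pow_mul]; ring

theorem theta_le (δ : ℝ) (hδ : 0 < δ) : ∀ᶠ n : ℕ in atTop, 0 ≤ (par n).θ ∧ (par n).θ ≤ δ * (bb n)⁻¹ ^ 2 := by
  filter_upwards [log_pow_le (40 / δ) 1 1 one_pos, one_le_log, tendsto_bb.eventually_gt_atTop 0]
    with n h1 h2 h3
  show 0 ≤ 40 * (bb n)⁻¹ ^ 3 * Real.log n ∧ 40 * (bb n)⁻¹ ^ 3 * Real.log n ≤ _
  refine ⟨by positivity, ?_⟩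
  rw [pow_one, Real.rpow_one, div_mul_eq_mul_div, div_le_iff₀ hδ] at h1
  calc _ = (bb n)⁻¹ ^ 3 * (40 * Real.log n) := by ring
    _ ≤ (bb n)⁻¹ ^ 3 * (bb n * δ) := by gcongr
    _ = _ := by field_simp

/-- the density at the end of stage 1 -/
theorem pp_par (δ : ℝ) (hδ : 0 < δ) : ∀ᶠ n : ℕ in atTop,
    (bb n)⁻¹ ^ 792 ≤ pp n (par n).I ∧ pp n (par n).I ≤ (1 + δ) * (bb n)⁻¹ ^ 792 := by
  filter_upwards [eventually_ge_atTop 3, tendsto_bb.eventually_ge_atTop 1,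
    tendsto_bb.eventually_ge_atTop (3 / δ)] with n h1 h2 h3
  have h4 := le_mm_zero h1
  have h5 : (0 : ℝ) < n := by positivity
  have h6 : 0 < mm n 0 := h5.trans_le h4
  have h7 : (bb n)⁻¹ ^ 792 ≤ 1 := pow_le_one₀ (by positivity) (inv_le_one_of_one_le₀ h2)
  have h8 : 3 ≤ δ * (bb n)⁻¹ ^ 792 * mm n 0 := by
    rw [div_le_iff₀ hδ] at h3
    calc 3 ≤ bb n * δ := h3
      _ ≤ bb n ^ 808 * δ := by gcongr; exact le_self_pow₀ h2 (by norm_num)
      _ = δ * (bb n)⁻¹ ^ 792 * n := by rw [← bb_pow n]; field_simp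
      _ ≤ _ := by gcongr
  have e : mm n (par n).I = mm n 0 - 3 * (⌊mm n 0 * (1 - (bb n)⁻¹ ^ 792) / 3⌋₊ : ℕ) := by
    simp [mm, par]
  have f1 := Nat.floor_le (show 0 ≤ mm n 0 * (1 - (bb n)⁻¹ ^ 792) / 3 by
    have := sub_nonneg.2 h7; positivity)
  have f2 := Nat.lt_floor_add_one (mm n 0 * (1 - (bb n)⁻¹ ^ 792) / 3)
  rw [pp, le_div_iff₀ h6, div_le_iff₀ h6, e]
  constructor <;> linarith

end Crest.Agent.R30
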