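import Crest.Agent.R30.Num0
set_option autoImplicit false

noncomputable section

namespace Crest.Agent.R30

open Finset Filter

/-- the easy fields of `Ok` -/
theorem okA : ∀ᶠ n : ℕ in atTop, 3 ≤ n ∧ 0 < (par n).ζ ∧ (par n).ζ ≤ 1 / 100 ∧ 0 < (par n).κ ∧ (par n).κ ≤ 1 ∧
    (par n).ζ ≤ (par n).η ∧ 3 / (par n).ζ ≤ mm n (par n).I ∧ 1 ≤ (par n).Λ ∧
    Real.log (mm n 0 / mm n (par n).I) ≤ (par n).Λ ∧ 16 ≤ (par n).Dm ∧
    (par n).Dm ≤ Real.exp (-(par n).θ) * (n - 2) * pp n (par n).I ^ 2 ∧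
    Real.exp (par n).θ * n * pp n (par n).I ^ 2 ≤ (par n).DM ∧ 0 ≤ (par n).ζ0 ∧
    ((2 + 2 * (par n).j * (par n).k : ℕ) : ℝ) ≤ (par n).ζ * (par n).Dm ∧
    ((4 * (par n).K + 3 : ℕ) : ℝ) ≤ (par n).ζ * (par n).Dm ∧
    (par n).DM / (par n).N ≤ (par n).ζ ∧ (par n).Λ2 ≤ (par n).Λ ∧ 2 * (par n).Λ / (par n).Dm ≤ (par n).ζ ∧
    (par n).ζ2 ≤ 1 / 100 := by
  filter_upwards [eventually_ge_atTop 3, tendsto_bb.eventually_ge_atTop 100, one_le_log,
    log_pow_le 1 1 1 one_pos, theta_le (1 / 20) (by norm_num), pp_par (1 / 20) (by norm_num)]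
    with n h1 hb h2 h3 ⟨h4, h5⟩ ⟨h6, h7⟩
  have hn := bb_pow n
  have h8 := le_mm_zero h1
  have n3 : (3 : ℝ) ≤ n := by exact_mod_cast h1
  have h9 : mm n (par n).I = pp n (par n).I * mm n 0 := by rw [pp, div_mul_cancel₀ _ (by linarith)]
  have hj : (⌈bb n ^ 2⌉₊ : ℝ) ≤ bb n ^ 2 + 1 := (Nat.ceil_lt_add_one (by positivity)).le
  rw [h9, par_k]
  generalize (par n).θ = θ at *
  generalize pp n (par n).I = p at *
  simp only [par, Par.Λ2]
  generalize bb n = b at *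
  generalize mm n 0 = m at *
  rw [one_mul, pow_one, Real.rpow_one] at h3
  have b1 : 1 ≤ b := by linarith
  have b0 : 0 < b := by linarith
  have pw : ∀ {i j : ℕ}, i ≤ j → b ^ i ≤ b ^ j := pow_le_pow_right₀ b1
  have pw' : ∀ {i j : ℕ}, i < j → 100 * b ^ i ≤ b ^ j := fun {i j} h =>
    (mul_le_mul_of_nonneg_right hb (by positivity)).trans ((pow_succ' b i).ge.trans (pw h))
  have pw2 : ∀ {i j : ℕ}, i + 1 < j → 10000 * b ^ i ≤ b ^ j := fun {i j} h => by
    linarith [pw' (i.lt_add_one), pw' h]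
  have i1 : ∀ {i : ℕ}, 0 < i → b⁻¹ ^ i ≤ 1 / 100 := fun {i} h => by
    rw [inv_pow, one_div]
    exact inv_anti₀ (by norm_num) (by simpa using pw' h)
  have θ1 : θ ≤ 1 / 20 := by linarith [i1 two_pos]
  have p0 : 0 < p := lt_of_lt_of_le (by positivity) h6
  have e1 : b⁻¹ ^ 3 * (3 / 4 * b ^ 16) = 3 / 4 * b ^ 13 := by field_simp
  have e2 : (b⁻¹ ^ 792) ^ 2 * n = b ^ 16 := by rw [← hn]; field_simp
  have e3 : 5 / 4 * b ^ 16 / (2 * n ^ 6 : ℕ) ≤ b⁻¹ ^ 3 := by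
    rw [inv_pow, div_le_iff₀ (by positivity), le_inv_mul_iff₀ (by positivity)]
    push_cast
    nlinarith [pw (show 19 ≤ 1600 by norm_num), le_self_pow₀ (show (1 : ℝ) ≤ n by linarith)
      (show 6 ≠ 0 by norm_num)]
  refine ⟨h1, by positivity, i1 three_pos, by positivity, inv_le_one_of_one_le₀ b1, ?_, ?_, h2, ?_, ?_, ?_, ?_,
    by positivity, ?_, ?_, e3, ?_, ?_, i1 two_pos⟩
  · rw [inv_pow, ← Real.rpow_natCast, ← Real.rpow_neg b0.le]
    exact Real.rpow_le_rpow_of_exponent_le b1 (by norm_num)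
  · calc 3 / b⁻¹ ^ 3 = 3 * b ^ 3 := by field_simp
      _ ≤ b ^ 808 := by linarith [pw' (show 3 < 808 by norm_num), pow_pos b0 3]
      _ = b⁻¹ ^ 792 * n := by rw [← hn]; field_simp
      _ ≤ _ := by gcongr
  · refine Real.log_le_log (by have : 0 < m := by linarith
                               positivity) ?_
    rw [div_mul_cancel_right₀ (by linarith), ← hn]
    refine (inv_anti₀ (by positivity) h6).trans ?_
    rw [inv_pow, inv_inv]
    exact pw (by norm_num)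
  · have := pw' (show 0 < 16 by norm_num)
    rw [pow_zero] at this
    linarith
  · have n100 : (100 : ℝ) ≤ n := by simpa [hn] using pw' (show 0 < 1600 by norm_num)
    calc _ ≤ 19 / 20 * (9 / 10 * n) * (b⁻¹ ^ 792) ^ 2 := by
          rw [← e2]; nlinarith [show 0 ≤ (b⁻¹ ^ 792) ^ 2 * n by positivity]
      _ ≤ _ := by
          have : 0 ≤ (n : ℝ) - 2 := by linarith
          gcongr
          · linarith [Real.add_one_le_exp (-θ)]
          · linarith
  · have : Real.exp θ ≤ 11 / 10 := (Real.exp_bound_div_one_sub_of_interval h4 (by linarith)).trans (by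
      rw [div_le_iff₀ (by linarith)]; linarith)
    calc _ ≤ 11 / 10 * n * ((1 + 1 / 20) * b⁻¹ ^ 792) ^ 2 := by gcongr
      _ ≤ _ := by rw [← e2]; nlinarith [show 0 ≤ (b⁻¹ ^ 792) ^ 2 * n by positivity]
  · rw [e1]
    push_cast
    linarith [pw2 (show 2 + 1 < 13 by norm_num), one_le_pow₀ (n := 2) b1]
  · rw [e1]
    push_cast
    linarith [pw2 (show 2 + 1 < 13 by norm_num), one_le_pow₀ (n := 2) b1]
  · have : Real.log (1 + 2 * (5 / 4 * b ^ 16)) ≤ Real.log n := Real.log_le_log (by positivity) (by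
      linarith [pw' (show 16 < 1600 by norm_num), one_le_pow₀ (n := 16) b1])
    linarith [i1 three_pos]
  · rw [div_le_iff₀ (by positivity), e1]
    linarith [pw' (show 1 < 13 by norm_num), pow_one b]

theorem ok_amp : ∀ᶠ n : ℕ in atTop,
    Amp (4 * (par n).Λ) (par n).k' * ((par n).ζ0 + 16 * (par n).Λ / (par n).Dm) ≤ (par n).ζ ∧
    Amp (4 * (par n).Λ) (par n).k' * ((par n).Λ * (100 * ((par n).ζ + (par n).ζ2 ^ 2))) ≤ (par n).ζ2 := by
  filter_upwards [amp_le (1 / 2) (par 0).k' (by norm_num), one_le_log,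
    ((tendsto_rpow_atTop (show (0 : ℝ) < 1 / 2 by norm_num)).comp tendsto_bb).eventually_ge_atTop 200,
    tendsto_bb.eventually_ge_atTop 100] with n h1 h2 h3 hb
  have e : (bb n ^ (1 / 2 : ℝ)) ^ 2 = bb n := by
    rw [← Real.rpow_natCast, ← Real.rpow_mul (by linarith)]; norm_num
  have A0 : 0 ≤ Amp (4 * Real.log n) (par n).k' := by unfold Amp; positivity
  show Amp (4 * Real.log n) (par n).k' * ((bb n)⁻¹ ^ 4 + 16 * Real.log n / (3 / 4 * bb n ^ 16)) ≤
    (bb n)⁻¹ ^ 3 ∧ Amp (4 * Real.log n) (par n).k' * (Real.log n * (100 * ((bb n)⁻¹ ^ 3 +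
      ((bb n)⁻¹ ^ 2) ^ 2))) ≤ (bb n)⁻¹ ^ 2
  change Amp _ (par n).k' * _ ≤ _ at h1
  simp only [Function.comp] at h3
  generalize Amp (4 * Real.log n) (par n).k' = A at *
  generalize bb n ^ (1 / 2 : ℝ) = c at *
  generalize bb n = b at *
  generalize Real.log n = L at *
  have b0 : 0 < b := by linarith
  have h4 : 200 * (A * L) ≤ b := by nlinarith
  have h5 : b⁻¹ ≤ 1 := inv_le_one_of_one_le₀ (by linarith)
  have h6 : 200 * (A * L) * b⁻¹ ≤ 1 := by rwa [← div_eq_mul_inv, div_le_one b0]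
  rw [show 16 * L / (3 / 4 * b ^ 16) = 64 / 3 * L * b⁻¹ ^ 16 by field_simp; norm_num]
  have x0 : 0 < b⁻¹ := by positivity
  generalize b⁻¹ = x at *
  have h7 : x ^ 16 ≤ x ^ 4 := pow_le_pow_of_le_one x0.le h5 (by norm_num)
  have h8 : x ^ 4 ≤ x ^ 3 := pow_le_pow_of_le_one x0.le h5 (by norm_num)
  constructor
  · calc _ ≤ A * (L * x ^ 4 + 199 * L * x ^ 4) := by
          gcongr
          · exact le_mul_of_one_le_left (by positivity) h2
          · norm_num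
      _ = 200 * (A * L) * x * x ^ 3 := by ring
      _ ≤ _ := mul_le_of_le_one_left (by positivity) h6
  · calc _ ≤ A * (L * (100 * (x ^ 3 + x ^ 3))) := by rw [← pow_mul]; gcongr
      _ = 200 * (A * L) * x * x ^ 2 := by ring
      _ ≤ _ := mul_le_of_le_one_left (by positivity) h6

/-- eventually `2 B ≤ b^(1/1024)`, so the base is `≤ b^(-1/1024)`, and `b^(-2048) b^1600 ≤ 1/2` -/
theorem ok_gap : ∀ᶠ n : ℕ in atTop,
    (2 * (4 * (par n).Λ + 2 * (4 * (par n).Λ) ^ 2) * (par n).η) ^ (par n).k' * n ≤ 1 / 2 := by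
  filter_upwards [log_pow_le 72 (1 / 1024) 2 (by norm_num), one_le_log,
    tendsto_bb.eventually_ge_atTop 2] with n h1 h2 hb
  have b0 : 0 < bb n := by linarith
  show (2 * (4 * Real.log n + 2 * (4 * Real.log n) ^ 2) * bb n ^ (-(1 : ℝ) / 512)) ^ 2097152 * n ≤ 1 / 2
  have h3 : 2 * (4 * Real.log n + 2 * (4 * Real.log n) ^ 2) * bb n ^ (-(1 : ℝ) / 512) ≤
      bb n ^ (-(1 : ℝ) / 1024) := by
    rw [show -(1 : ℝ) / 1024 = 1 / 1024 + -1 / 512 by norm_num, Real.rpow_add b0]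
    gcongr
    nlinarith
  refine (mul_le_mul_of_nonneg_right (pow_le_pow_left₀ (by positivity) h3 _) (Nat.cast_nonneg n)).trans ?_
  rw [← Real.rpow_natCast, ← Real.rpow_mul b0.le, ← bb_pow n, ← Real.rpow_natCast, ← Real.rpow_add b0]
  refine (Real.rpow_le_rpow_of_exponent_le (by linarith) (show _ ≤ -1 by norm_num)).trans ?_
  rw [Real.rpow_neg_one, one_div]
  exact inv_anti₀ two_pos hb

end Crest.Agent.R30
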