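import Crest.Agent.R30.Graph
import Crest.Agent.R30.Chain
import Crest.Agent.R30.Prob
set_option autoImplicit false

noncomputable section

namespace Crest.Agent.R30

open Finset Crest.CombinatoricsR.TriangleRemoval

variable {n : ℕ}

theorem gal_symm (E : Ed n) (ω : Finset (Fin n) → ℕ) (t : ℕ) (u v : Fin n) (h : gal E ω t u v) : gal E ω t v u := by
  rw [gal_iff] at h ⊢
  intro w hw hlt
  rw [cn_comm] at hw
  rw [Finset.insert_comm] at hlt ⊢
  exact fun h' => h w hw hlt h'.symm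

theorem mem_finE {E : Ed n} {ω : Finset (Fin n) → ℕ} {t : ℕ} {u v : Fin n} :
    s(u, v) ∈ finE E ω t ↔ s(u, v) ∈ E ∧ gal E ω t u v := by
  classical
  unfold finE
  rw [Finset.mem_filter]
  refine and_congr_right fun _ => ⟨fun h => h u v rfl, fun h a b e => ?_⟩
  rcases Sym2.eq_iff.1 e with ⟨rfl, rfl⟩ | ⟨rfl, rfl⟩
  · exact h
  · exact gal_symm _ _ _ _ _ h

theorem finE_sub (E : Ed n) (ω : Finset (Fin n) → ℕ) (t : ℕ) : finE E ω t ⊆ E := by
  classical
  unfold finE
  exact Finset.filter_subset _ _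

theorem two_card_finE {E : Ed n} (hE : E ⊆ allEdges n) (ω : Finset (Fin n) → ℕ) (t : ℕ) :
    2 * ((finE E ω t).card : ℝ) = ∑ u, ∑ v ∈ nb E u, ind (gal E ω t u v) := by
  have h1 := sum_nb_eq hE fun e => if e ∈ finE E ω t then (1 : ℝ) else 0
  rw [← Finset.sum_filter, Finset.filter_mem_eq_inter,
    Finset.inter_eq_right.2 (finE_sub E ω t), Finset.sum_const, nsmul_eq_mul, mul_one] at h1
  rw [← h1]
  refine Finset.sum_congr rfl fun u _ => Finset.sum_congr rfl fun v hv => ?_
  have h2 := (mem_nb.1 hv).2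
  by_cases h : gal E ω t u v
  · rw [ind_pos h, if_pos (mem_finE.2 ⟨h2, h⟩)]
  · rw [ind_neg h, if_neg fun h' => h (mem_finE.1 h').2]

section step
variable {E : Ed n} {ω : Finset (Fin n) → ℕ} {T₀ : Finset (Fin n)}

theorem gal_early (hmin : ∀ T ∈ triangles E, T ≠ T₀ → ω T₀ < ω T) {u v : Fin n} (h : adj E u v) :
    gal E ω (ω T₀) u v := by
  rw [gal_iff]
  intro w hw hlt
  exfalso
  by_cases e : ({u, v, w} : Finset (Fin n)) = T₀
  · rw [e] at hlt
    exact lt_irrefl _ hlt
  · exact lt_asymm hlt (hmin _ (tri_mem h hw) e)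

theorem gal_dead (hT : T₀ ∈ triangles E) (hmin : ∀ T ∈ triangles E, T ≠ T₀ → ω T₀ < ω T)
    {u v : Fin n} (hu : u ∈ T₀) (hv : v ∈ T₀) (huv : u ≠ v) {t : ℕ} (ht : ω T₀ < t) :
    ¬ gal E ω t u v := by
  obtain ⟨w, hw, e⟩ := exists_third hT hu hv huv
  rw [gal_iff]
  intro h
  have h1 := h w hw
  rw [← e] at h1
  exact h1 ht ⟨gal_early hmin (mem_cn.1 hw).1, gal_early hmin (mem_cn.1 hw).2⟩

theorem gal_sdiff (hT : T₀ ∈ triangles E) (hmin : ∀ T ∈ triangles E, T ≠ T₀ → ω T₀ < ω T)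
    (t : ℕ) : ∀ u v, adj (E \ T₀.sym2) u v → (gal E ω t u v ↔ gal (E \ T₀.sym2) ω t u v) := by
  induction t using Nat.strong_induction_on with
  | _ t ih =>
    intro u v huv
    rw [gal_iff E, gal_iff (E \ T₀.sym2)]
    constructor
    · intro h w hw hlt
      obtain ⟨h1, h2⟩ := mem_cn.1 hw
      rw [← ih _ hlt u w h1, ← ih _ hlt v w h2]
      exact h w (mem_cn.2 ⟨(adj_sdiff.1 h1).1, (adj_sdiff.1 h2).1⟩) hlt
    · intro h w hw hlt
      obtain ⟨h1, h2⟩ := mem_cn.1 hw
      obtain ⟨h3, h4⟩ := adj_sdiff.1 huv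
      have hlt' : ω T₀ < ω {u, v, w} := hmin _ (tri_mem h3 hw) fun e => h4 (by rw [← e]; simp)
      by_cases hu : u ∈ T₀ ∧ w ∈ T₀
      · exact fun h' => gal_dead hT hmin hu.1 hu.2 h1.1 hlt' h'.1
      by_cases hv : v ∈ T₀ ∧ w ∈ T₀
      · exact fun h' => gal_dead hT hmin hv.1 hv.2 h2.1 hlt' h'.2
      have h5 := adj_sdiff.2 ⟨h1, hu⟩
      have h6 := adj_sdiff.2 ⟨h2, hv⟩
      rw [ih _ hlt u w h5, ih _ hlt v w h6]
      exact h w (mem_cn.2 ⟨h5, h6⟩) hlt

end step

/-- If the clocks are injective on the triangles and `T₀` has the smallest one, the final graph of `E` is that of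
`E \ T₀.sym2`: the edges of `T₀` are dead after `ω T₀`, and for the other pairs `gal` is the same in both graphs
(strong induction on `t`). -/
theorem finE_step {E : Ed n} (hE : E ⊆ allEdges n) (ω : Finset (Fin n) → ℕ) (N : ℕ) (T₀ : Finset (Fin n))
    (hT : T₀ ∈ triangles E) (hmin : ∀ T ∈ triangles E, T ≠ T₀ → ω T₀ < ω T) (hN : ω T₀ < N) :
    finE E ω N = finE (E \ T₀.sym2) ω N := by
  ext e
  induction e using Sym2.ind with
  | _ u v =>
    rw [mem_finE, mem_finE]
    constructor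
    · rintro ⟨h1, h2⟩
      have h3 := adj_of_mem hE h1
      have h4 : adj (E \ T₀.sym2) u v :=
        adj_sdiff.2 ⟨h3, fun h => gal_dead hT hmin h.1 h.2 h3.1 hN h2⟩
      exact ⟨h4.2, (gal_sdiff hT hmin N u v h4).1 h2⟩
    · rintro ⟨h1, h2⟩
      have h3 := adj_of_mem (Finset.sdiff_subset.trans hE) h1
      exact ⟨(Finset.mem_sdiff.1 h1).1, (gal_sdiff hT hmin N u v h3).2 h2⟩

theorem finE_of_empty {E : Ed n} (hE : E ⊆ allEdges n) (h : (triangles E).card = 0)
    (ω : Finset (Fin n) → ℕ) (N : ℕ) : finE E ω N = E := by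
  ext e
  induction e using Sym2.ind with
  | _ u v =>
    rw [mem_finE]
    refine ⟨And.left, fun h1 => ⟨h1, ?_⟩⟩
    rw [gal_iff]
    intro w hw
    have := tri_mem (adj_of_mem hE h1) hw
    rw [Finset.card_eq_zero.1 h] at this
    exact absurd this (Finset.notMem_empty _)

theorem triangles_sdiff {E : Ed n} {T₀ T : Finset (Fin n)} (hT : T ∈ triangles (E \ T₀.sym2)) :
    T ∈ triangles E ∧ T ≠ T₀ := by
  obtain ⟨h1, h2⟩ := mem_triangles.1 hT
  refine ⟨mem_triangles.2 ⟨h1, fun u hu v hv h => (Finset.mem_sdiff.1 (h2 u hu v hv h)).1⟩, ?_⟩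
  rintro rfl
  obtain ⟨a, b, c, hab, _, _, e⟩ := Finset.card_eq_three.1 h1
  have ha : a ∈ T := by rw [e]; simp
  have hb : b ∈ T := by rw [e]; simp
  exact (Finset.mem_sdiff.1 (h2 a ha b hb hab)).2 (Finset.mk_mem_sym2_iff.2 ⟨ha, hb⟩)

theorem swap_mem {α : Type*} [DecidableEq α] {S : Finset α} {a b x : α} (ha : a ∈ S) (hb : b ∈ S)
    (hx : x ∈ S) : Equiv.swap a b x ∈ S := by
  rw [Equiv.swap_apply_def]
  split_ifs <;> assumption

/-- the average over a symmetric family of injective clocks is the expectation of the process -/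
theorem sum_sym (φ : ℕ → ℝ) (N fuel : ℕ) : ∀ (E : Ed n), E ⊆ allEdges n → E.card ≤ fuel →
    ∀ Ω : Finset (Finset (Fin n) → ℕ), (∀ ω ∈ Ω, Set.InjOn ω (triangles E)) →
      (∀ ω ∈ Ω, ∀ T, ω T < N) →
      (∀ ω ∈ Ω, ∀ T ∈ triangles E, ∀ T' ∈ triangles E, ω ∘ Equiv.swap T T' ∈ Ω) →
      ∑ ω ∈ Ω, φ (finE E ω N).card = Ω.card * expectFinal φ fuel E := by
  classical
  have hempty : ∀ (fuel : ℕ) (E : Ed n), E ⊆ allEdges n → (triangles E).card = 0 →
      ∀ Ω : Finset (Finset (Fin n) → ℕ),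
      ∑ ω ∈ Ω, φ (finE E ω N).card = Ω.card * expectFinal φ fuel E := by
    intro fuel E hE h0 Ω
    simp only [finE_of_empty hE h0]
    rw [Finset.sum_const, nsmul_eq_mul, expectFinal_of_empty φ fuel h0]
  induction fuel with
  | zero =>
    intro E hE hc Ω _ _ _
    refine hempty 0 E hE ?_ Ω
    rw [Finset.card_eq_zero.1 (Nat.le_zero.1 hc), Finset.card_eq_zero,
      Finset.eq_empty_iff_forall_notMem]
    intro T hT
    obtain ⟨h1, h2⟩ := mem_triangles.1 hT
    obtain ⟨a, b, c, hab, _, _, e⟩ := Finset.card_eq_three.1 h1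
    exact Finset.notMem_empty _ (h2 a (by rw [e]; simp) b (by rw [e]; simp) hab)
  | succ fuel ih =>
    intro E hE hc Ω hinj hlt hsw
    by_cases h0 : (triangles E).card = 0
    · exact hempty _ E hE h0 Ω
    set Om : Finset (Fin n) → Finset (Finset (Fin n) → ℕ) :=
      fun T₀ => Ω.filter fun ω => ∀ T ∈ triangles E, T ≠ T₀ → ω T₀ < ω T with hOm
    have hpart : ∀ f : (Finset (Fin n) → ℕ) → ℝ,
        ∑ ω ∈ Ω, f ω = ∑ T₀ ∈ triangles E, ∑ ω ∈ Om T₀, f ω := by
      intro f
      simp only [hOm, Finset.sum_filter]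
      rw [Finset.sum_comm]
      refine Finset.sum_congr rfl fun ω hω => ?_
      obtain ⟨T₁, hT₁, hmin⟩ :=
        (triangles E).exists_min_image ω (Finset.card_pos.1 (Nat.pos_of_ne_zero h0))
      have h1 : ∀ T ∈ triangles E, T ≠ T₁ → ω T₁ < ω T := fun T hT hne =>
        lt_of_le_of_ne (hmin T hT) fun e => hne (hinj ω hω hT₁ hT e).symm
      rw [Finset.sum_eq_single_of_mem T₁ hT₁, if_pos h1]
      intro T hT hne
      rw [if_neg]
      intro h2
      exact lt_asymm (h1 T hT hne) (h2 T₁ hT₁ hne.symm)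
    have hle : ∀ T₀ ∈ triangles E, ∀ T₁ ∈ triangles E, (Om T₀).card ≤ (Om T₁).card := by
      intro T₀ hT₀ T₁ hT₁
      refine Finset.card_le_card_of_injOn (fun ω => ω ∘ Equiv.swap T₀ T₁) (fun ω hω => ?_)
        fun ω _ ω' _ e => ?_
      · obtain ⟨h1, h2⟩ := Finset.mem_filter.1 hω
        refine Finset.mem_coe.2 (Finset.mem_filter.2 ⟨hsw ω h1 _ hT₀ _ hT₁, fun T hT hne => ?_⟩)
        simp only [Function.comp_apply, Equiv.swap_apply_right]
        refine h2 _ (swap_mem hT₀ hT₁ hT) fun e => hne ?_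
        rw [Equiv.swap_apply_eq_iff, Equiv.swap_apply_left] at e
        exact e
      · exact (Equiv.swap T₀ T₁).surjective.injective_comp_right e
    have hcard : ∀ T₀ ∈ triangles E,
        ((Om T₀).card : ℝ) = ((triangles E).card : ℝ)⁻¹ * Ω.card := by
      intro T₀ hT₀
      have h1 := hpart fun _ => 1
      simp only [Finset.sum_const, nsmul_eq_mul, mul_one] at h1
      rw [Finset.sum_congr rfl (g := fun _ => ((Om T₀).card : ℝ)) fun T hT => by
        rw [le_antisymm (hle T hT T₀ hT₀) (hle T₀ hT₀ T hT)], Finset.sum_const, nsmul_eq_mul] at h1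
      have h2 : ((triangles E).card : ℝ) ≠ 0 := by exact_mod_cast h0
      rw [h1, ← mul_assoc, inv_mul_cancel₀ h2, one_mul]
    rw [hpart]
    simp only [expectFinal, if_neg h0]
    rw [Finset.mul_sum, Finset.mul_sum]
    refine Finset.sum_congr rfl fun T₀ hT₀ => ?_
    have h1 : ∑ ω ∈ Om T₀, φ (finE E ω N).card =
        ∑ ω ∈ Om T₀, φ (finE (E \ T₀.sym2) ω N).card := by
      refine Finset.sum_congr rfl fun ω hω => ?_
      obtain ⟨h1, h2⟩ := Finset.mem_filter.1 hω
      rw [finE_step hE ω N T₀ hT₀ h2 (hlt ω h1 _)]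
    have h2 : (E \ T₀.sym2).card ≤ fuel := by
      have h3 := card_sdiff_tri hE hT₀
      have h4 : (E.card : ℝ) ≤ fuel + 1 := by exact_mod_cast hc
      have h5 : ((E \ T₀.sym2).card : ℝ) ≤ fuel := by linarith
      exact_mod_cast h5
    rw [h1, ih (E \ T₀.sym2) (Finset.sdiff_subset.trans hE) h2 (Om T₀), hcard T₀ hT₀]
    · ring
    · intro ω hω T hT T' hT' e
      exact hinj ω (Finset.mem_filter.1 hω).1 (triangles_sdiff hT).1 (triangles_sdiff hT').1 e
    · exact fun ω hω => hlt ω (Finset.mem_filter.1 hω).1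
    · intro ω hω T hT T' hT'
      obtain ⟨h3, h4⟩ := Finset.mem_filter.1 hω
      obtain ⟨h5, h6⟩ := triangles_sdiff hT
      obtain ⟨h7, h8⟩ := triangles_sdiff hT'
      refine Finset.mem_filter.2 ⟨hsw ω h3 _ h5 _ h7, fun T'' hT'' hne => ?_⟩
      simp only [Function.comp_apply]
      rw [Equiv.swap_apply_of_ne_of_ne h6.symm h8.symm]
      refine h4 _ (swap_mem h5 h7 hT'') fun e => hne ?_
      rw [Equiv.swap_apply_eq_iff, Equiv.swap_apply_of_ne_of_ne h6.symm h8.symm] at e
      exact e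

theorem EJ_univ_eq {κ : Type*} [DecidableEq κ] [Fintype κ] (N : ℕ) (F : (κ → ℕ) → ℝ) :
    EJ (univ : Finset κ) N F =
      (∑ ω ∈ Fintype.piFinset fun _ : κ => range N, F ω) / (N : ℝ) ^ Fintype.card κ := by
  unfold EJ
  rw [Finset.card_univ]
  congr 1
  refine Finset.sum_bij (fun ω _ => ext univ ω) (fun ω _ => ?_) (fun ω _ ω' _ e => ?_)
    (fun ω hω => ?_) fun _ _ => rfl
  · rw [Fintype.mem_piFinset]
    intro a
    simp [ext]
  · funext a
    have := congrFun e a
    simp only [ext, Finset.mem_univ, dite_true] at this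
    exact Fin.ext this
  · rw [Fintype.mem_piFinset] at hω
    refine ⟨fun a => ⟨ω a, Finset.mem_range.1 (hω a)⟩, Finset.mem_univ _, ?_⟩
    funext a
    simp [ext]

theorem EJ_collide {κ : Type*} [DecidableEq κ] [Fintype κ] {N : ℕ} (hN : 0 < N) {a b : κ}
    (hab : a ≠ b) : EJ (univ : Finset κ) N (fun ω => ind (ω a = ω b)) = 1 / N := by
  have hN' : (N : ℝ) ≠ 0 := by exact_mod_cast hN.ne'
  rw [EJ_cond univ hN (Finset.mem_univ a) (fun t ω => ind (t = ω b)) {b}
    (fun t ω ω' h => by simp only [h b rfl]) hab]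
  have h1 : ∀ t ∈ range N, EJ (univ : Finset κ) N (fun ω => ind (t = ω b)) = 1 / N := by
    intro t ht
    rw [EJ_coord univ hN (Finset.mem_univ b) fun s => ind (t = s),
      Finset.sum_eq_single_of_mem t ht fun s _ hs => ind_neg fun e => hs e.symm, ind_pos rfl]
  rw [Finset.sum_congr rfl h1, Finset.sum_const, Finset.card_range, nsmul_eq_mul]
  field_simp

theorem card_triangles_le (E : Ed n) : (triangles E).card ≤ n ^ 3 := by
  refine (Finset.card_filter_le _ _).trans ?_
  rw [Finset.card_powersetCard, Finset.card_univ, Fintype.card_fin]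
  exact Nat.choose_le_pow n 3

/-- The process is the greedy algorithm for a uniformly random order. For a finite set `S ⊇ triangles E` of vertex sets and a
set `R ⊆ range N` with `|R| = |S|`, the average of `φ (finE E ω N).card` over the `ω` mapping `S` bijectively onto `R` (with
fixed values elsewhere) is `expectFinal φ fuel E`: induction on `|S|`, the smallest value of `R` sits at a uniform element of
`S` (`finE_step` if it is a triangle; the average of `expectFinal` over the next triangle is `expectFinal`).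
So conditionally on injectivity on `triangles E` the mean is `expectFinal`, and injectivity has probability
`≥ 1 - n^6 / N ≥ 1/2`. -/
theorem order_le {E : Ed n} (hE : E ⊆ allEdges n) (φ : ℕ → ℝ) (hφ : ∀ m, 0 ≤ φ m) (fuel N : ℕ)
    (hf : E.card ≤ fuel) (hN0 : 0 < N) (hN : 2 * n ^ 6 ≤ N) :
    expectFinal φ fuel E ≤ 2 * EJ (univ : Finset (Finset (Fin n))) N (fun ω => φ (finE E ω N).card) := by
  classical
  have hNr : (0 : ℝ) < N := by exact_mod_cast hN0
  set Ω : Finset (Finset (Fin n) → ℕ) := (Fintype.piFinset fun _ => range N).filter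
    fun ω => Set.InjOn ω (triangles E) with hΩ
  have hind : ∀ F : (Finset (Fin n) → ℕ) → ℝ,
      EJ univ N (fun ω => ind (Set.InjOn ω (triangles E)) * F ω) =
        (∑ ω ∈ Ω, F ω) / (N : ℝ) ^ Fintype.card (Finset (Fin n)) := by
    intro F
    rw [EJ_univ_eq, hΩ, Finset.sum_filter]
    congr 1
    refine Finset.sum_congr rfl fun ω _ => ?_
    split_ifs with h
    · rw [ind_pos h, one_mul]
    · rw [ind_neg h, zero_mul]
  have h1 := sum_sym φ N fuel E hE hf Ω (fun ω hω => (Finset.mem_filter.1 hω).2)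
    (fun ω hω T => Finset.mem_range.1 (Fintype.mem_piFinset.1 (Finset.mem_filter.1 hω).1 T))
    (fun ω hω T hT T' hT' => by
      obtain ⟨h2, h3⟩ := Finset.mem_filter.1 hω
      refine Finset.mem_filter.2
        ⟨Fintype.mem_piFinset.2 fun a => Fintype.mem_piFinset.1 h2 _, fun a ha b hb e => ?_⟩
      exact (Equiv.swap T T').injective (h3 (swap_mem hT hT' ha) (swap_mem hT hT' hb) e))
  have h2 : EJ univ N (fun ω => ind (Set.InjOn ω (triangles E)) * φ (finE E ω N).card) =
      EJ (univ : Finset (Finset (Fin n))) N (fun ω => ind (Set.InjOn ω (triangles E)) * 1) * expectFinal φ fuel E := by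
    rw [hind, hind, h1, Finset.sum_const, nsmul_eq_mul, mul_one]
    ring
  have h3 : EJ univ N (fun ω => ind (Set.InjOn ω (triangles E)) * φ (finE E ω N).card) ≤
      EJ (univ : Finset (Finset (Fin n))) N (fun ω => φ (finE E ω N).card) :=
    EJ_mono _ hN0 fun ω _ => mul_le_of_le_one_left (hφ _) (ind_le_one _)
  have h4 : (1 : ℝ) ≤ EJ (univ : Finset (Finset (Fin n))) N (fun ω => ind (Set.InjOn ω (triangles E)) * 1) +
      ∑ p ∈ (triangles E).offDiag, EJ univ N (fun ω => ind (ω p.1 = ω p.2)) := by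
    rw [← EJ_sum, ← EJ_add]
    refine le_trans (EJ_const univ hN0 1).ge (EJ_mono _ hN0 fun ω _ => ?_)
    have hs : 0 ≤ ∑ p ∈ (triangles E).offDiag, ind (ω p.1 = ω p.2) :=
      Finset.sum_nonneg fun _ _ => ind_nonneg _
    by_cases h : Set.InjOn ω (triangles E)
    · rw [ind_pos h]
      linarith
    · rw [ind_neg h, zero_mul, zero_add]
      simp only [Set.InjOn, not_forall] at h
      obtain ⟨a, ha, b, hb, e, hne⟩ := h
      refine le_trans (ind_pos e).ge (Finset.single_le_sum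
        (f := fun p : Finset (Fin n) × Finset (Fin n) => ind (ω p.1 = ω p.2))
        (fun _ _ => ind_nonneg _) (a := (a, b)) (Finset.mem_offDiag.2 ⟨ha, hb, hne⟩))
  have h5 : ∑ p ∈ (triangles E).offDiag, EJ univ N (fun ω => ind (ω p.1 = ω p.2)) ≤ 1 / 2 := by
    rw [Finset.sum_congr rfl fun p hp => EJ_collide hN0 (Finset.mem_offDiag.1 hp).2.2,
      Finset.sum_const, nsmul_eq_mul, mul_one_div, div_le_div_iff₀ hNr two_pos, one_mul]
    have h6 : (triangles E).offDiag.card ≤ n ^ 6 := by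
      rw [Finset.offDiag_card]
      have := card_triangles_le E
      calc _ ≤ (triangles E).card * (triangles E).card := Nat.sub_le _ _
        _ ≤ n ^ 3 * n ^ 3 := Nat.mul_le_mul this this
        _ = n ^ 6 := by ring
    have h7 : (triangles E).offDiag.card * 2 ≤ N := by omega
    exact_mod_cast h7
  have h6 := expectFinal_nonneg φ hφ fuel E
  have h7 : 1 / 2 ≤ EJ (univ : Finset (Finset (Fin n))) N (fun ω => ind (Set.InjOn ω (triangles E)) * 1) := by linarith
  have h8 := mul_le_mul_of_nonneg_right h7 h6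
  linarith

end Crest.Agent.R30
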