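import Crest.Agent.R30.Graph
import Crest.Agent.R30.Chain
set_option autoImplicit false

noncomputable section

namespace Crest.Agent.R30

open Finset Crest.CombinatoricsR.TriangleRemoval

variable {n : ℕ}

section Aux

/-- all endpoints of edges of `S` lie in `B` -/
def Cov (S : Ed n) (B : Finset (Fin n)) : Prop := ∀ e ∈ S, ∀ a ∈ e, a ∈ B

/-- the edge set after one more step of the walk -/
def nx (u y y' : Fin n) (S : Ed n) : Ed n := insert s(u, y') (insert s(y, y') S)

theorem Cov.nx {S : Ed n} {B : Finset (Fin n)} (h : Cov S B) {u y : Fin n} (hu : u ∈ B) (hy : y ∈ B)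
    (y' : Fin n) : Cov (nx u y y' S) (insert y' B) := by
  intro e he a ha
  simp only [R30.nx, mem_insert] at he ⊢
  rcases he with rfl | rfl | he
  · rcases Sym2.mem_iff.1 ha with rfl | rfl <;> simp [hu]
  · rcases Sym2.mem_iff.1 ha with rfl | rfl <;> simp [hy]
  · exact .inr (h e he a ha)

theorem card_nx_le (u y y' : Fin n) (S : Ed n) : (nx u y y' S).card ≤ S.card + 2 :=
  (card_insert_le _ _).trans (Nat.succ_le_succ (card_insert_le _ _))

theorem le_card_nx (u y y' : Fin n) (S : Ed n) : S.card ≤ (nx u y y' S).card :=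
  card_le_card ((subset_insert _ _).trans (subset_insert _ _))

theorem lt_card_nx (u : Fin n) {y y' : Fin n} {S : Ed n} (h : s(y, y') ∉ S) :
    S.card + 1 ≤ (nx u y y' S).card :=
  (card_insert_of_notMem h).ge.trans (card_le_card (subset_insert _ _))

theorem Cov.card_nx {S : Ed n} {B : Finset (Fin n)} (h : Cov S B) {u y y' : Fin n} (hy : y ≠ u)
    (hu : u ≠ y') (hy' : y' ∉ B) : (R30.nx u y y' S).card = S.card + 2 := by
  have h1 : ∀ a, s(a, y') ∉ S := fun a ha => hy' (h _ ha _ (Sym2.mem_mk_right _ _))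
  rw [R30.nx, card_insert_of_notMem (by simp [h1, hy.symm, hu]), card_insert_of_notMem (h1 y)]

variable {u w : Fin n} {p M : ℝ} {a b : ℕ} {G : Ed n → ℝ} {A : ℕ → Fin n → Ed n → ℝ}

theorem step_bound (hp0 : 0 < p) {f : Fin n → ℝ} {y : Fin n} {S : Ed n} {B : Finset (Fin n)}
    (hB : Cov S B) (hy : y ≠ u) {X Y : ℝ} (hX : 0 ≤ X) (hY : 0 ≤ Y)
    (h1 : ∀ y', u ≠ y' → y ≠ y' → y' ∉ B → f y' ≤ p ^ (nx u y y' S).card * X)
    (h2 : ∀ y', u ≠ y' → y ≠ y' → y' ∈ B → f y' ≤ p ^ S.card * Y) :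
    ∑ y' ∈ univ.filter (fun y' => u ≠ y' ∧ y ≠ y'), f y' ≤
      p ^ S.card * (n * p ^ 2 * X + B.card * Y) := by
  calc _ ≤ ∑ y' ∈ univ.filter (fun y' => u ≠ y' ∧ y ≠ y'),
        (p ^ S.card * (p ^ 2 * X) + if y' ∈ B then p ^ S.card * Y else 0) := by
        refine sum_le_sum fun y' h => ?_
        obtain ⟨h3, h4⟩ := (mem_filter.1 h).2
        split_ifs with h5
        · exact (h2 y' h3 h4 h5).trans (le_add_of_nonneg_left (by positivity))
        · have := h1 y' h3 h4 h5
          rw [hB.card_nx hy h3 h5, pow_add] at this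
          linarith
    _ ≤ ∑ y', (p ^ S.card * (p ^ 2 * X) + if y' ∈ B then p ^ S.card * Y else 0) :=
        sum_le_sum_of_subset_of_nonneg (subset_univ _) fun _ _ _ => by positivity
    _ = _ := by
        rw [sum_add_distrib, sum_ite_mem, univ_inter, sum_const, sum_const, card_fin]
        ring

theorem one_step (hA0 : ∀ y S, A 0 y S = if y = w then G S else 0)
    (hA : ∀ l y S, A (l + 1) y S =
      ∑ y' ∈ univ.filter (fun y' => u ≠ y' ∧ y ≠ y'), A l y' (nx u y y' S)) (y : Fin n) (S : Ed n) :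
    A 1 y S = if u ≠ w ∧ y ≠ w then G (nx u y w S) else 0 := by
  simp only [hA 0, hA0, sum_ite_eq', mem_filter, mem_univ, true_and]

theorem crude (hp0 : 0 < p) (hp1 : p ≤ 1) (hM : 0 ≤ M)
    (hA0 : ∀ y S, A 0 y S = if y = w then G S else 0)
    (hA : ∀ l y S, A (l + 1) y S =
      ∑ y' ∈ univ.filter (fun y' => u ≠ y' ∧ y ≠ y'), A l y' (nx u y y' S)) {C : Finset (Fin n)}
    (hG : ∀ S B, Cov S B → C ⊆ B → S.card ≤ a → B.card ≤ b → G S ≤ p ^ S.card * M)
    {K : ℝ} (hK : (b : ℝ) ≤ K) (l : ℕ) : ∀ y S B, Cov S B → C ⊆ B → u ∈ B → y ∈ B → y ≠ u →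
      S.card + 2 * (l + 1) ≤ a → B.card + (l + 1) ≤ b →
      A (l + 1) y S ≤ p ^ S.card * (M * (n * p ^ 2 + 2 * K) ^ l) := by
  have K0 : 0 ≤ K := (Nat.cast_nonneg _).trans hK
  induction l with
  | zero =>
    intro y S B h1 h2 h3 h4 h5 h6 h7
    rw [zero_add, one_step hA0 hA]
    split_ifs
    · refine (hG _ _ (h1.nx h3 h4 w) (h2.trans (subset_insert _ _))
        ((card_nx_le _ _ _ _).trans h6) ((card_insert_le _ _).trans h7)).trans ?_
      rw [pow_zero, mul_one]
      exact mul_le_mul_of_nonneg_right (pow_le_pow_of_le_one hp0.le hp1 (le_card_nx _ _ _ _)) hM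
    · positivity
  | succ l ih =>
    intro y S B h1 h2 h3 h4 h5 h6 h7
    have h8 : ∀ y', u ≠ y' → A (l + 1) y' (nx u y y' S) ≤
        p ^ (nx u y y' S).card * (M * (n * p ^ 2 + 2 * K) ^ l) := fun y' h =>
      ih _ _ _ (h1.nx h3 h4 y') (h2.trans (subset_insert _ _)) (mem_insert_of_mem h3)
        (mem_insert_self _ _) h.symm (by have := card_nx_le u y y' S; omega)
        (by have := card_insert_le y' B; omega)
    have h9 : (B.card : ℝ) ≤ 2 * K := by
      have : (B.card : ℝ) ≤ b := by exact_mod_cast (by omega)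
      linarith
    rw [hA]
    refine (step_bound hp0 h1 h5 (by positivity) (by positivity) (fun y' h _ _ => h8 y' h)
      fun y' h _ _ => (h8 y' h).trans (mul_le_mul_of_nonneg_right
        (pow_le_pow_of_le_one hp0.le hp1 (le_card_nx _ _ _ _)) (by positivity))).trans ?_
    rw [← add_mul, pow_succ' _ l, mul_left_comm M]
    gcongr

theorem sharp (hp0 : 0 < p) (hp1 : p ≤ 1) (hM : 0 ≤ M) {s : ℝ} (hs : 1 ≤ s) (hc : s ^ 2 = n * p ^ 2)
    (hA0 : ∀ y S, A 0 y S = if y = w then G S else 0)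
    (hA : ∀ l y S, A (l + 1) y S =
      ∑ y' ∈ univ.filter (fun y' => u ≠ y' ∧ y ≠ y'), A l y' (nx u y y' S)) {C : Finset (Fin n)}
    (hG : ∀ S B, Cov S B → C ⊆ B → S.card ≤ a → B.card ≤ b → G S ≤ p ^ S.card * M)
    {K : ℝ} (hK : (b : ℝ) ≤ K) (l : ℕ) : ∀ y S B (φ : Fin n → ℕ), Cov S B → C ⊆ B → u ∈ B → y ∈ B →
      w ∈ B → y ≠ u → S.card + 2 * (l + 1) ≤ a → B.card + (l + 1) ≤ b → φ w = 0 →
      (∀ c d, s(c, d) ∈ S → c ≠ u → d ≠ u → φ c ≤ φ d + 1) → A (l + 1) y S ≤ p ^ S.card *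
        (M * ((2 * K) ^ (l + 1) * s ^ (l + 1) / s ^ φ y + p * (n * p ^ 2 + 2 * K) ^ l)) := by
  have K0 : 0 ≤ K := (Nat.cast_nonneg _).trans hK
  have s0 : 0 < s := by linarith
  induction l with
  | zero =>
    intro y S B φ h1 h2 h3 h4 hw h5 h6 h7 φ0 hφ
    have K1 : 1 ≤ K := le_trans (by exact_mod_cast (by omega)) hK
    rw [zero_add, one_step hA0 hA]
    split_ifs with h
    · refine (hG _ _ (h1.nx h3 h4 w) (h2.trans (subset_insert _ _))
        ((card_nx_le _ _ _ _).trans h6) ((card_insert_le _ _).trans h7)).trans ?_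
      rw [pow_zero, mul_one, pow_one, pow_one]
      by_cases h8 : s(y, w) ∈ S
      · have h9 : 1 ≤ 2 * K * s / s ^ φ y := by
          have := pow_le_pow_right₀ hs (hφ y w h8 h5 h.1.symm)
          rw [φ0, zero_add, pow_one] at this
          rw [le_div_iff₀ (by positivity)]
          nlinarith
        exact mul_le_mul (pow_le_pow_of_le_one hp0.le hp1 (le_card_nx _ _ _ _))
          (le_mul_of_one_le_right hM (by linarith)) hM (by positivity)
      · refine (mul_le_mul_of_nonneg_right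
          (pow_le_pow_of_le_one hp0.le hp1 (lt_card_nx u h8)) hM).trans ?_
        rw [pow_succ, mul_assoc, mul_comm p]
        gcongr
        exact le_add_of_nonneg_left (by positivity)
    · positivity
  | succ l ih =>
    intro y S B φ h1 h2 h3 h4 hw h5 h6 h7 φ0 hφ
    have K1 : 1 ≤ K := le_trans (by exact_mod_cast (by omega)) hK
    have h8 := fun y' φ' (h : u ≠ y') =>
      ih y' _ _ φ' (h1.nx h3 h4 y') (h2.trans (subset_insert _ _)) (mem_insert_of_mem h3)
        (mem_insert_self _ _) (mem_insert_of_mem hw) h.symm (by have := card_nx_le u y y' S; omega)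
        (by have := card_insert_le y' B; omega)
    have h9 : (B.card : ℝ) ≤ K := le_trans (by exact_mod_cast (by omega)) hK
    rw [hA]
    set Z := (2 * K) ^ (l + 1) * s ^ (l + 1) with hZ
    set W := p * (n * p ^ 2 + 2 * K) ^ l with hW
    have Z0 : 0 ≤ Z := by positivity
    refine (step_bound (X := M * (Z / s ^ (φ y + 1) + W)) (Y := M * (Z * s / s ^ φ y + W)) hp0 h1 h5
      (by positivity) (by positivity) (fun y' h h' hB => ?_) fun y' h h' hB => ?_).trans ?_
    · have e1 : ∀ c ∈ B, Function.update φ y' (φ y + 1) c = φ c := fun c hc =>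
        Function.update_of_ne (ne_of_mem_of_not_mem hc hB) _ _
      have := h8 y' (Function.update φ y' (φ y + 1)) h ((e1 w hw).trans φ0) fun c d hcd hc hd => by
        simp only [nx, mem_insert, Sym2.eq_iff] at hcd
        rcases hcd with (⟨h, -⟩ | ⟨-, h⟩) | (⟨rfl, rfl⟩ | ⟨rfl, rfl⟩) | hcd
        · exact absurd h hc
        · exact absurd h hd
        · rw [e1 _ h4, Function.update_self]; omega
        · rw [e1 _ h4, Function.update_self]
        · rw [e1 _ (h1 _ hcd _ (Sym2.mem_mk_left _ _)), e1 _ (h1 _ hcd _ (Sym2.mem_mk_right _ _))]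
          exact hφ c d hcd hc hd
      rwa [Function.update_self] at this
    · by_cases e1 : s(y, y') ∈ S
      · refine (h8 y' φ h φ0 fun c d hcd hc hd => ?_).trans (mul_le_mul
          (pow_le_pow_of_le_one hp0.le hp1 (le_card_nx _ _ _ _)) ?_ (by positivity) (by positivity))
        · simp only [nx, mem_insert, insert_eq_of_mem e1, Sym2.eq_iff] at hcd
          rcases hcd with (⟨h, -⟩ | ⟨-, h⟩) | hcd
          · exact absurd h hc
          · exact absurd h hd
          · exact hφ c d hcd hc hd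
        · have e2 := pow_le_pow_right₀ hs (hφ y y' e1 h5 h.symm)
          gcongr ?_ * (?_ + _)
          rw [div_le_div_iff₀ (by positivity) (by positivity), mul_assoc Z, ← pow_succ']
          gcongr
      · refine (crude hp0 hp1 hM hA0 hA hG hK l _ _ _ (h1.nx h3 h4 y') (h2.trans (subset_insert _ _))
          (mem_insert_of_mem h3) (mem_insert_self _ _) h.symm
          (by have := card_nx_le u y y' S; omega) (by have := card_insert_le y' B; omega)).trans
          ((mul_le_mul_of_nonneg_right (pow_le_pow_of_le_one hp0.le hp1 (lt_card_nx u e1))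
            (by positivity)).trans ?_)
        rw [pow_succ, mul_assoc, mul_left_comm p]
        gcongr
        exact le_add_of_nonneg_left (by positivity)
    · have e1 : s ^ 2 * (Z / s ^ (φ y + 1)) = Z * s / s ^ φ y := by field_simp; ring
      have e2 : (2 * K) ^ (l + 1 + 1) * s ^ (l + 1 + 1) / s ^ φ y = 2 * K * (Z * s / s ^ φ y) := by
        rw [hZ]; ring
      have e3 : p * (n * p ^ 2 + 2 * K) ^ (l + 1) = (s ^ 2 + 2 * K) * W := by rw [hW, hc]; ring
      have e4 : 0 ≤ Z * s / s ^ φ y := by positivity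
      have e5 : 0 ≤ W := by positivity
      rw [e2, e3, ← hc, mul_left_comm _ M, mul_left_comm _ M, ← mul_add, mul_add (s ^ 2), e1]
      refine mul_le_mul_of_nonneg_left (mul_le_mul_of_nonneg_left ?_ hM) (by positivity)
      nlinarith [mul_le_mul_of_nonneg_right h9 (add_nonneg e4 e5), mul_le_mul_of_nonneg_right K1 e4]

theorem ind_nx (E S : Ed n) (u y : Fin n) (f : Fin n → ℝ) :
    ind (S ⊆ E) * ∑ y' ∈ cn E u y, f y' =
      ∑ y' ∈ univ.filter (fun y' => u ≠ y' ∧ y ≠ y'), ind (nx u y y' S ⊆ E) * f y' := by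
  rw [cn, sum_filter, sum_filter, mul_sum]
  refine sum_congr rfl fun y' _ => ?_
  by_cases h1 : S ⊆ E <;> by_cases h2 : s(u, y') ∈ E <;> by_cases h3 : s(y, y') ∈ E <;>
    simp [ind, nx, adj, insert_subset_iff, h1, h2, h3]

theorem Fw_nonneg {p : ℝ} (hp : 0 < p) (k j : ℕ) : 0 ≤ Fw n p k j := by unfold Fw; positivity

theorem markov {T : (Ed n → ℝ) → ℝ} (hT : Fn T) (P : Ed n → Prop) (X : Ed n → ℝ) (hX : ∀ E, 0 ≤ X E)
    {F κ μ : ℝ} {j : ℕ} (hκ0 : 0 < κ) (hκ1 : κ ≤ 1) (hμ : 0 < μ) (hF0 : 0 ≤ F)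
    (hF : F ≤ (1 + κ / 3) * μ) (h : T (fun E => ind (P E) * X E ^ j) ≤ F ^ j) :
    T (fun E => ind (P E ∧ (1 + κ) * μ < X E)) ≤ Real.exp (-(j * κ / 3)) := by
  have h0 : 0 < (1 + κ) * μ := by positivity
  refine (hT.mono _ (fun E => (((1 + κ) * μ) ^ j)⁻¹ * (ind (P E) * X E ^ j)) fun E => ?_).trans ?_
  · by_cases h : P E ∧ (1 + κ) * μ < X E
    · rw [ind_pos h, ind_pos h.1, one_mul, le_inv_mul_iff₀ (by positivity), mul_one]
      exact pow_le_pow_left₀ h0.le h.2.le _
    · rw [ind_neg h]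
      have := hX E
      have := ind_nonneg (P E)
      positivity
  · rw [hT.smul, inv_mul_le_iff₀ (by positivity), show -(j * κ / 3) = j * -(κ / 3) by ring,
      Real.exp_nat_mul, ← mul_pow]
    refine h.trans (pow_le_pow_left₀ hF0 (hF.trans ?_) _)
    have h1 := mul_le_mul_of_nonneg_left (Real.add_one_le_exp (-(κ / 3))) h0.le
    nlinarith [mul_nonneg (mul_nonneg hκ0.le (sub_nonneg.2 hκ1)) hμ.le]

end Aux

/-- High moments of walk counts from the survival bound. Let `K = 3 + j k`, `c = n p²`, `s = √c ≥ 1`.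
Induction on `j`: for `S ∋ s(u,v), s(u,w)` with all endpoints in a set `B ∋ u, v, w`, `|S| + 2jk ≤ K'`, `|B| + jk ≤ K`,
`T (ind (S ⊆ E) * X^j) ≤ p^|S| F^j`. One more factor `X = wk E u w k v` is exposed step by step; the weight of the rest is
`Wt 0 y S = [y = w]`, `Wt (ℓ+1) y S = ∑_{y' ≠ u, y' ≠ y} p^|{uy', yy'} \ S| Wt ℓ y' (S ∪ {uy', yy'})`.
Crude bound `Wt ℓ ≤ (c+K)^(ℓ-1)` (`ℓ ≥ 1`; a new vertex `y' ∉ B` costs `p²`, there are at most `K` old ones, and in the last step only `y' = w` counts).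
Sharp bound with a potential `φ : Fin n → ℕ`, `φ w = 0`, `φ a ≤ φ b + 1` for all `s(a,b) ∈ S` with `a, b ≠ u`
(start with `φ = 0`; a new vertex gets `φ y' = φ y + 1`): for `ℓ ≥ 1`
`Wt ℓ y S ≤ (2K)^ℓ s^ℓ / s^(φ y) + p (c+2K)^(ℓ-1)`; cases: new vertex (factor `c`, `φ + 1`), old vertex along an edge of `S`
(at most `K`, `φ` drops by at most one), old vertex along a new edge (factor `K p`, crude bound; for `ℓ = 1` only `y' = w`). -/
theorem walk_moment (T : (Ed n → ℝ) → ℝ) (hT : Fn T) (p : ℝ) (hp0 : 0 < p) (hp1 : p ≤ 1)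
    (hc : 1 ≤ n * p ^ 2) (K' k j : ℕ) (hS : Surv T p K') (hk : 1 ≤ k) (hK : 2 + 2 * j * k ≤ K') (u v w : Fin n) :
    T (fun E => ind (adj E u v ∧ adj E u w) * (wk E u w k v : ℝ) ^ j) ≤ Fw n p k j ^ j := by
  obtain ⟨l, rfl⟩ := Nat.exists_eq_add_of_le' hk
  have F0 := Fw_nonneg (n := n) hp0 (l + 1) j
  by_cases huv : u ≠ v ∧ u ≠ w
  swap
  · have h : ∀ E : Ed n, ind (adj E u v ∧ adj E u w) = 0 := fun E =>
      ind_neg fun h => huv ⟨h.1.1, h.2.1⟩
    simp only [h, zero_mul, hT.zero]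
    positivity
  have key : ∀ i (S : Ed n) B, Cov S B → {u, v, w} ⊆ B → S.card + 2 * i * (l + 1) ≤ K' →
      B.card + i * (l + 1) ≤ 3 + j * (l + 1) →
      T (fun E => ind (S ⊆ E) * (wk E u w (l + 1) v : ℝ) ^ i) ≤
        p ^ S.card * Fw n p (l + 1) j ^ i := fun i => by
    induction i with
    | zero => intro S B _ _ h _; simpa using hS S (by omega)
    | succ i ih =>
      intro S B h1 h2 h3 h4
      have h := sharp (u := u) (w := w) (a := K' - 2 * i * (l + 1)) (b := 3 + j * (l + 1) - i * (l + 1))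
        (G := fun S => T fun E => ind (S ⊆ E) * (wk E u w (l + 1) v : ℝ) ^ i)
        (A := fun m y S => T fun E => ind (S ⊆ E) * (wk E u w m y * (wk E u w (l + 1) v : ℝ) ^ i))
        hp0 hp1 (pow_nonneg F0 i) (Real.one_le_sqrt.2 hc) (Real.sq_sqrt (by positivity))
        (fun y S => by by_cases h : y = w <;> simp [wk, h, hT.zero])
        (fun m y S => by
          rw [← hT.sum]
          refine congrArg T (funext fun E => ?_)
          rw [← ind_nx, ← sum_mul, ← Nat.cast_sum]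
          rfl)
        (fun S B h5 h6 h7 h8 => ih S B h5 h6 (Nat.add_le_of_le_sub (by nlinarith) h7)
          (Nat.add_le_of_le_sub (by nlinarith) h8))
        (K := 3 + j * (l + 1 : ℕ)) (by exact_mod_cast Nat.sub_le _ _) l v S B (fun _ => 0) h1 h2
        (h2 (by simp)) (h2 (by simp)) (h2 (by simp)) huv.1.symm
        (Nat.le_sub_of_add_le (by nlinarith)) (Nat.le_sub_of_add_le (by nlinarith)) rfl
        (fun _ _ _ _ _ => by simp)
      simpa only [pow_succ' _ i, Fw, pow_zero, div_one, Nat.add_sub_cancel, mul_comm (_ ^ i)] using h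
  have h1 : ∀ E : Ed n, ind (adj E u v ∧ adj E u w) = ind ({s(u, v), s(u, w)} ⊆ E) := fun E =>
    ind_congr (by simp [adj, huv, insert_subset_iff])
  simp only [h1]
  refine (key j _ {u, v, w} (fun e he a ha => ?_) Subset.rfl ?_ ?_).trans
    (mul_le_of_le_one_left (by positivity) (pow_le_one₀ hp0.le hp1))
  · simp only [mem_insert, mem_singleton] at he ⊢
    rcases he with rfl | rfl <;> rcases Sym2.mem_iff.1 ha with rfl | rfl <;> simp
  · exact (Nat.add_le_add_right card_le_two _).trans hK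
  · exact Nat.add_le_add_right card_le_three _

theorem deg_moment (T : (Ed n → ℝ) → ℝ) (hT : Fn T) (p : ℝ) (hp0 : 0 < p) (hp1 : p ≤ 1)
    (K' j : ℕ) (hS : Surv T p K') (hK : j ≤ K') (u : Fin n) :
    T (fun E => ((nb E u).card : ℝ) ^ j) ≤ (n * p + j) ^ j := by
  have key : ∀ i (S : Ed n), S.card + i ≤ j →
      T (fun E => ind (S ⊆ E) * ((nb E u).card : ℝ) ^ i) ≤ p ^ S.card * (n * p + j) ^ i := fun i => by
    induction i with
    | zero => intro S h; simpa using hS S (by omega)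
    | succ i ih =>
      intro S h
      have h1 : ∀ E : Ed n, ind (S ⊆ E) * ((nb E u).card : ℝ) ^ (i + 1) ≤
          ∑ y, ind (insert s(u, y) S ⊆ E) * ((nb E u).card : ℝ) ^ i := fun E => by
        rw [pow_succ', ← mul_assoc, ← sum_mul]
        gcongr
        rw [card_eq_sum_ones, Nat.cast_sum, mul_sum]
        refine (sum_le_sum fun y hy => ?_).trans (sum_le_sum_of_subset_of_nonneg (subset_univ _)
          fun _ _ _ => ind_nonneg _)
        rw [Nat.cast_one, mul_one]
        exact ind_mono fun h => insert_subset (mem_nb.1 hy).2 h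
      have h2 : ((univ.filter fun y => s(u, y) ∈ S).card : ℝ) ≤ j := by
        exact_mod_cast (card_le_card_of_injOn (fun y => s(u, y)) (fun y hy => (mem_filter.1 hy).2)
          fun y _ y' _ h => Sym2.congr_right.1 h).trans (by omega)
      refine (hT.mono _ _ h1).trans ?_
      rw [hT.sum]
      calc _ ≤ ∑ y, (p ^ S.card * p + if s(u, y) ∈ S then p ^ S.card else 0) * (n * p + j) ^ i := by
            refine sum_le_sum fun y _ => (ih _ (by have := card_insert_le s(u, y) S; omega)).trans ?_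
            gcongr
            split_ifs with h
            · rw [insert_eq_of_mem h]; exact le_add_of_nonneg_left (by positivity)
            · rw [card_insert_of_notMem h, pow_succ, add_zero]
        _ ≤ _ := by
            rw [← sum_mul, sum_add_distrib, ← sum_filter, sum_const, sum_const, card_fin, pow_succ',
              ← mul_assoc, nsmul_eq_mul, nsmul_eq_mul]
            gcongr
            nlinarith [mul_le_mul_of_nonneg_right h2 (pow_pos hp0 S.card).le]
  simpa [ind] using key j ∅ (by simp)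

/-- Markov's inequality; `(1 + κ/3) / (1 + κ) ≤ 1 - κ/3 ≤ exp (-κ/3)`. -/
theorem walk_tail (T : (Ed n → ℝ) → ℝ) (hT : Fn T) (p : ℝ) (hp0 : 0 < p) (hp1 : p ≤ 1)
    (hc : 1 ≤ n * p ^ 2) (K' k j : ℕ) (hS : Surv T p K') (hk : 1 ≤ k) (hK : 2 + 2 * j * k ≤ K')
    (κ μ : ℝ) (hκ0 : 0 < κ) (hκ1 : κ ≤ 1) (hμ : 0 < μ) (hF : Fw n p k j ≤ (1 + κ / 3) * μ) (u v w : Fin n) :
    T (fun E => ind (adj E u v ∧ adj E u w ∧ (1 + κ) * μ < (wk E u w k v : ℝ))) ≤ Real.exp (-(j * κ / 3)) := by
  simp only [← and_assoc]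
  exact markov hT _ _ (fun _ => Nat.cast_nonneg _) hκ0 hκ1 hμ (Fw_nonneg hp0 k j) hF
    (walk_moment T hT p hp0 hp1 hc K' k j hS hk hK u v w)

theorem deg_tail (T : (Ed n → ℝ) → ℝ) (hT : Fn T) (p : ℝ) (hp0 : 0 < p) (hp1 : p ≤ 1)
    (K' j : ℕ) (hS : Surv T p K') (hK : j ≤ K') (κ : ℝ) (hκ0 : 0 < κ) (hκ1 : κ ≤ 1)
    (hF : n * p + j ≤ (1 + κ / 3) * (n * p)) (u : Fin n) :
    T (fun E => ind ((1 + κ) * (n * p) < ((nb E u).card : ℝ))) ≤ Real.exp (-(j * κ / 3)) := by
  have hn : (0 : ℝ) < n := by exact_mod_cast u.pos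
  simpa only [true_and] using markov hT (fun _ => True) _ (fun _ => Nat.cast_nonneg _) hκ0 hκ1
    (by positivity) (by positivity) hF
    (by simpa [ind] using deg_moment T hT p hp0 hp1 K' j hS hK u)

end Crest.Agent.R30
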