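import Crest.Agent.R30.Surv
import Crest.Agent.R30.Mart
import Crest.Agent.R30.Walk
set_option autoImplicit false

noncomputable section

namespace Crest.Agent.R30

open Finset Crest.CombinatoricsR.TriangleRemoval

variable {n : ℕ}

theorem ind_exists_le {ι : Type*} [Fintype ι] (p : ι → Prop) : ind (∃ a, p a) ≤ ∑ a, ind (p a) := by
  by_cases h : ∃ a, p a
  · obtain ⟨a, ha⟩ := h
    rw [ind_pos ⟨a, ha⟩, ← ind_pos ha]
    exact Finset.single_le_sum (f := fun a => ind (p a)) (fun a _ => ind_nonneg _) (mem_univ a)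
  · rw [ind_neg h]; exact Finset.sum_nonneg fun a _ => ind_nonneg _

theorem ind_or_le (p q : Prop) : ind (p ∨ q) ≤ ind p + ind q := by
  by_cases h : p
  · rw [ind_pos (Or.inl h), ind_pos h]; linarith [ind_nonneg q]
  · rw [ind_neg h, zero_add]; exact ind_mono fun h' => h'.resolve_left h

theorem fail_step {P : Par} (hP : Ok n P) {i : ℕ} (hi : i ≤ P.I) :
    Ex i (fun l : Hs n => ind (Pre (Good P) l) * ind (¬ (Mart P l ∧ Up P l))) ≤
      n ^ 2 * (2 * Real.exp (128 * P.Λ - Real.sqrt P.Dm * P.ζ0)) + (n + n ^ 3) * Real.exp (-(P.j * P.κ / 3)) := by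
  set p := ph n P.ζ i with hp
  have hpb := hP.ph_bounds hi
  have hpp := hP.pp_bounds hi
  have hp0 : 0 < p := lt_of_lt_of_le (lt_of_lt_of_le hpp.1 hpp.2.1) hpb.1
  have hpI : pp n P.I ≤ p := hpp.2.1.trans hpb.1
  have hT := fn_Tn (n := n) P i
  have hS : Surv (Tn (n := n) P i) p (2 + 2 * P.j * P.k) := surv hP hi hP.size1
  have hk : 1 ≤ P.k := Nat.one_le_two_pow
  have hn : (0 : ℝ) < n := by have := hP.n3; positivity
  set μ : ℝ := n ^ (P.k - 1) * p ^ (2 * P.k - 1) with hμ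
  have hμ0 : 0 < μ := by positivity
  have key : ∀ l : Hs n, Reach l → l.length = i →
      ind (Pre (Good P) l) * ind (¬ (Mart P l ∧ Up P l)) ≤
        (∑ u : Fin n, ∑ v : Fin n, ind (Pre (Good P) l) * ind (P.ζ0 < |Mt u v l|)) +
        ((∑ u : Fin n, ind (Pre (Good P) l) * ind ((1 + P.κ) * (n * p) < ((nb (gr l) u).card : ℝ))) +
         ∑ u : Fin n, ∑ v : Fin n, ∑ w : Fin n, ind (Pre (Good P) l) *
          ind (adj (gr l) u v ∧ adj (gr l) u w ∧ (1 + P.κ) * μ < (wk (gr l) u w P.k v : ℝ))) := by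
    intro l _ hl
    simp only [← Finset.mul_sum, ← mul_add]
    refine mul_le_mul_of_nonneg_left ?_ (ind_nonneg _)
    have h1 : ind (¬ (Mart P l ∧ Up P l)) ≤ ind ((∃ u v, P.ζ0 < |Mt u v l|) ∨
        ((∃ u, (1 + P.κ) * (n * p) < ((nb (gr l) u).card : ℝ)) ∨ ∃ u v w,
          adj (gr l) u v ∧ adj (gr l) u w ∧ (1 + P.κ) * μ < (wk (gr l) u w P.k v : ℝ))) := by
      refine ind_mono fun h => ?_
      by_contra hc
      push Not at hc
      refine h ⟨fun u v => hc.1 u v, fun u => ?_, fun u v w h1 h2 => ?_⟩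
      · rw [hl]; exact hc.2.1 u
      · rw [hl]; exact hc.2.2 u v w h1 h2
    refine h1.trans ((ind_or_le _ _).trans (add_le_add ?_ ((ind_or_le _ _).trans (add_le_add ?_ ?_))))
    · exact (ind_exists_le _).trans (Finset.sum_le_sum fun u _ => ind_exists_le _)
    · exact ind_exists_le _
    · exact (ind_exists_le _).trans (Finset.sum_le_sum fun u _ => (ind_exists_le _).trans
        (Finset.sum_le_sum fun v _ => ind_exists_le _))
  refine (Ex_mono i _ _ key).trans ?_
  rw [Ex_add, Ex_add]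
  simp only [Ex_sum]
  have e1 : ∑ u : Fin n, ∑ v : Fin n, Ex i (fun l : Hs n => ind (Pre (Good P) l) * ind (P.ζ0 < |Mt u v l|)) ≤
      n ^ 2 * (2 * Real.exp (128 * P.Λ - Real.sqrt P.Dm * P.ζ0)) := by
    refine (Finset.sum_le_sum fun u _ => Finset.sum_le_sum fun v _ => mart_tail hP hi u v).trans (le_of_eq ?_)
    simp only [Finset.sum_const, Finset.card_univ, Fintype.card_fin, nsmul_eq_mul]; ring
  have e2 : ∑ u : Fin n, Ex i (fun l : Hs n => ind (Pre (Good P) l) *
      ind ((1 + P.κ) * (n * p) < ((nb (gr l) u).card : ℝ))) ≤ n * Real.exp (-(P.j * P.κ / 3)) := by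
    refine (Finset.sum_le_sum fun u _ => deg_tail _ hT p hp0 hpb.2.1 _ P.j hS (by nlinarith) P.κ hP.κpos hP.κle
      (hP.deg p hpI hpb.2.1) u).trans (le_of_eq ?_)
    simp only [Finset.sum_const, Finset.card_univ, Fintype.card_fin, nsmul_eq_mul]
  have e3 : ∑ u : Fin n, ∑ v : Fin n, ∑ w : Fin n, Ex i (fun l : Hs n => ind (Pre (Good P) l) *
      ind (adj (gr l) u v ∧ adj (gr l) u w ∧ (1 + P.κ) * μ < (wk (gr l) u w P.k v : ℝ))) ≤
      n ^ 3 * Real.exp (-(P.j * P.κ / 3)) := by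
    refine (Finset.sum_le_sum fun u _ => Finset.sum_le_sum fun v _ => Finset.sum_le_sum fun w _ =>
      walk_tail _ hT p hp0 hpb.2.1 (hP.one_le_np hpI) _ P.k P.j hS hk le_rfl P.κ μ hP.κpos hP.κle hμ0
      (hP.walk p hpI hpb.2.1) u v w).trans (le_of_eq ?_)
    simp only [Finset.sum_const, Finset.card_univ, Fintype.card_fin, nsmul_eq_mul]; ring
  linarith

theorem fail_le {P : Par} (hP : Ok n P) : Ex P.I (fun l : Hs n => ind (¬ Good P l)) ≤ Pfail n P := by
  refine (union_bound (Good P) (fun l => Mart P l ∧ Up P l) (good_iff P) P.I).trans ?_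
  refine (Finset.sum_le_sum fun i hi => fail_step hP (Nat.lt_succ_iff.1 (mem_range.1 hi))).trans (le_of_eq ?_)
  simp only [Finset.sum_const, Finset.card_range, nsmul_eq_mul, Pfail]; push_cast; ring

end Crest.Agent.R30
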