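import Crest.Agent.R30.Boot
set_option autoImplicit false

noncomputable section

namespace Crest.Agent.R30

open Finset Crest.CombinatoricsR.TriangleRemoval

variable {n : ℕ}

/-- `super` with `Z l = ind (S ⊆ gr l) / ph l.length ^ |S|`. In a good state with `S ⊆ gr l`, `hit_count` gives at least
`|S| ((1-ζ) cb - |S|) ≥ |S| (1-2ζ) cb` triangles meeting `S`, so the survival probability is at most
`1 - |S| (1-3ζ) ρ ≤ (1 - (1-3ζ) ρ)^|S|` (`Reg.rate`, Bernoulli's inequality). -/
theorem surv {P : Par} (hP : Ok n P) {i : ℕ} (hi : i ≤ P.I) {K' : ℕ} (hK : (K' : ℝ) ≤ P.ζ * P.Dm) :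
    Surv (Tn (n := n) P i) (ph n P.ζ i) K' := by
  intro S hS
  have hph : ∀ j, j ≤ P.I → 0 < ph n P.ζ j := fun j hj => (hP.pp_pos hj).trans_le (hP.ph_bounds hj).1
  have h1 := super (Good P) (fun l : Hs n => ind (S ⊆ gr l) / |ph n P.ζ l.length| ^ S.card) P.I
    (fun _ _ h => h.tail) (fun l => div_nonneg (ind_nonneg _) (by positivity)) ?_ i hi
  · have h2 : Tn P i (fun E => ind (S ⊆ E)) ≤ Ex i (fun l : Hs n => ph n P.ζ i ^ S.card *
        (ind (Pre (Good P) l) * (ind (S ⊆ gr l) / |ph n P.ζ l.length| ^ S.card))) := by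
      refine Ex_mono i _ _ fun l _ hl => le_of_eq ?_
      have := hph i hi
      rw [hl, abs_of_pos this]
      field_simp
    rw [Ex_const_mul] at h2
    refine h2.trans (mul_le_of_le_one_right (pow_pos (hph i hi) _).le (h1.trans ?_))
    simpa [ph] using ind_le_one _
  intro l hR hl hG
  have hreg := reg_of_good hP l hR hl.le hG
  obtain ⟨hQ, hr, -, -⟩ := hreg.rate hP hl.le
  have hne : (triangles (gr l)).card ≠ 0 := by
    intro h0
    rw [Qn, h0] at hQ
    simp at hQ
  rw [Kr, if_neg hne]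
  simp only [gr, List.length_cons]
  by_cases hSl : S ⊆ gr l
  swap
  · rw [ind_neg hSl, Finset.sum_eq_zero fun t _ => by
      rw [ind_neg fun h => hSl (h.trans Finset.sdiff_subset), zero_div]]
    simp
  have hc := hreg.cb_pos hP hl.le
  have hhit := hit_count (gr_sub l) hSl (c0 := (1 - P.ζ) * cb l) fun u v ha => (hreg.cod hP hl.le ha).1
  have hsum : ∑ t ∈ triangles (gr l), ind (S ⊆ gr l \ t.sym2) =
      Qn (gr l) - ((triangles (gr l)).filter fun t => ¬ S ⊆ gr l \ t.sym2).card := by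
    rw [Qn, Finset.card_filter, Finset.card_eq_sum_ones]
    push_cast
    rw [← Finset.sum_sub_distrib]
    refine Finset.sum_congr rfl fun t _ => ?_
    by_cases h : S ⊆ gr l \ t.sym2
    · simp [ind, h]
    · simp [ind, h]
  have e : ph n P.ζ (l.length + 1) =
      ph n P.ζ l.length * (1 - (1 - 3 * P.ζ) * (3 / mm n l.length)) := by
    unfold ph; rw [Finset.prod_range_succ]
  have hp0 := hph _ hl.le
  have hp1 := hph _ (Nat.succ_le_of_lt hl)
  have hρ0 := hP.rho_pos hl.le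
  have hρ1 := hP.rho_le hl.le
  have hζ0 := hP.ζpos
  have hζ1 := hP.ζle
  have hs : (S.card : ℝ) ≤ P.ζ * cb l :=
    ((Nat.cast_le.2 hS).trans hK).trans (mul_le_mul_of_nonneg_left (hreg.Dm_le hP hl.le) hζ0.le)
  rw [← Finset.sum_div, hsum, abs_of_pos hp1, abs_of_pos hp0, ind_pos hSl, e, mul_pow]
  rw [← div_div, div_le_div_iff₀ (by linarith) hQ] at hr
  generalize 3 / mm n l.length = ρ at *
  have hf : 0 < 1 - (1 - 3 * P.ζ) * ρ := by nlinarith
  have hB := one_add_mul_le_pow (a := -((1 - 3 * P.ζ) * ρ)) (by linarith) S.card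
  rw [← sub_eq_add_neg] at hB
  have k1 : (1 - 3 * P.ζ) * ρ * Qn (gr l) ≤ (1 - 2 * P.ζ) * cb l := by
    have a1 := mul_le_mul_of_nonneg_left hr (by linarith : 0 ≤ 1 - 3 * P.ζ)
    have a2 : 0 ≤ P.ζ * P.ζ * cb l := by positivity
    linarith
  have k2 : (S.card : ℝ) * ((1 - 3 * P.ζ) * ρ * Qn (gr l)) ≤
      S.card * ((1 - P.ζ) * cb l - S.card) :=
    mul_le_mul_of_nonneg_left (by linarith) (Nat.cast_nonneg _)
  have k3 := mul_le_mul_of_nonneg_left hB hQ.le
  rw [← mul_div_assoc, div_le_div_iff₀ (by positivity) (by positivity), one_mul, mul_comm]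
  refine mul_le_mul_of_nonneg_left ?_ (by positivity)
  rw [inv_mul_le_iff₀ hQ]
  linarith

end Crest.Agent.R30
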