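import Crest.Agent.R30.Graph
set_option autoImplicit false

noncomputable section

namespace Crest.Agent.R30

open Finset Crest.CombinatoricsR.TriangleRemoval

variable {n : ℕ}

variable {E : Ed n} {ρ : Rt n}

theorem al_mono {ω : Nd n → ℕ} {s t : ℕ} {a : Ad n} (h : al E ρ ω t a) (hst : s ≤ t) : al E ρ ω s a := by
  rw [al_iff] at h ⊢
  exact fun w hw hlt => h w hw (lt_of_lt_of_le hlt hst)

theorem rel_val {ω : Nd n → ℕ} {b : Bool} {a : List (Fin n × Bool)} {w : Fin n} (h : rel E ρ ω b a w) :
    val E ρ b a ∧ w ∈ ch E ρ (b, a) := by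
  induction a generalizing w with
  | nil => exact ⟨trivial, h⟩
  | cons c a ih => exact ⟨⟨(ih h.1).1, (ih h.1).2⟩, h.2.1⟩

theorem vis_val {ω : Nd n → ℕ} {a : Ad n} (h : vis E ρ ω a) : val E ρ a.1 a.2 := by
  obtain ⟨b, l⟩ := a
  cases l with
  | nil => trivial
  | cons c l => exact rel_val (show rel E ρ ω b l c.1 from h)

theorem val_adj (hρ : ∀ b, adj E (ρ b).1 (ρ b).2) {a : Ad n} (h : val E ρ a.1 a.2) :
    adj E (sx ρ a) (sy ρ a) := by
  obtain ⟨b, l⟩ := a
  cases l with
  | nil => exact hρ b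
  | cons c l =>
    have h2 : c.1 ∈ cn E (sx ρ (b, l)) (sy ρ (b, l)) := mem_of_mem_erase h.2
    rw [mem_cn] at h2
    obtain ⟨w, s⟩ := c
    cases s
    · exact h2.1
    · exact h2.2

/-- visited nodes are closed under taking ancestors -/
theorem vis_suffix {ω : Nd n → ℕ} {b : Bool} {a a' : List (Fin n × Bool)} (h : vis E ρ ω (b, a)) (ha : a' <:+ a) :
    vis E ρ ω (b, a') := by
  induction a with
  | nil => rw [List.suffix_nil.1 ha]; trivial
  | cons c a ih =>
    rcases List.suffix_cons_iff.1 ha with rfl | ha'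
    · exact h
    · refine ih ?_ ha'
      cases a with
      | nil => trivial
      | cons c' a => exact (show rel E ρ ω b (c' :: a) c.1 from h).1

theorem rel_depth {ω : Nd n → ℕ} {N : ℕ} (hω : ∀ T, ω T < N) {b : Bool} {a : List (Fin n × Bool)} {w : Fin n}
    (h : rel E ρ ω b a w) : ω ((b, a), w) + a.length < N := by
  induction a generalizing w with
  | nil => simpa using hω _
  | cons c a ih =>
    have h1 := ih h.1
    have h2 := h.2.2.1
    simp only [List.length_cons]
    omega

theorem Qs_sub {ω : Nd n → ℕ} {N : ℕ} (hω : ∀ T, ω T < N) : Qs E ρ ω ⊆ (Jn n N : Set (Nd n)) := by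
  rintro ⟨⟨b, l⟩, w⟩ hT
  rw [mem_coe, mem_Jn]
  cases l with
  | nil => simp
  | cons c l =>
    have := rel_depth hω (show rel E ρ ω b l c.1 from hT.1)
    simp only [List.length_cons]
    omega

/-- The tree with pulled back clocks computes the greedy process. Strong induction on `t` for all addresses `a` with
`a.2 = []` or `t ≤ ω {sx a, sy a, sz a}` (then the erased vertex is irrelevant). -/
theorem pull (ω : Finset (Fin n) → ℕ) (t : ℕ) (b : Bool) :
    al E ρ (fun T => ω (prj ρ T)) t (b, []) ↔ gal E ω t (ρ b).1 (ρ b).2 := by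
  have key : ∀ t (a : Ad n), (sz ρ a = sx ρ a ∨ t ≤ ω {sx ρ a, sy ρ a, sz ρ a}) →
      (al E ρ (fun T => ω (prj ρ T)) t a ↔ gal E ω t (sx ρ a) (sy ρ a)) := by
    intro t
    induction t using Nat.strong_induction_on with
    | _ t ih =>
      intro a ha
      rw [al_iff, gal_iff]
      have hk : ∀ w, ω {sx ρ a, sy ρ a, w} < t →
          ((al E ρ (fun T => ω (prj ρ T)) (ω {sx ρ a, sy ρ a, w}) (kid (a, w) false) ∧
            al E ρ (fun T => ω (prj ρ T)) (ω {sx ρ a, sy ρ a, w}) (kid (a, w) true)) ↔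
          (gal E ω (ω {sx ρ a, sy ρ a, w}) (sx ρ a) w ∧ gal E ω (ω {sx ρ a, sy ρ a, w}) (sy ρ a) w)) := by
        intro w hw
        have e1 : ({sx ρ a, w, sy ρ a} : Finset (Fin n)) = {sx ρ a, sy ρ a, w} := by
          ext x; simp only [mem_insert, mem_singleton]; tauto
        have e2 : ({sy ρ a, w, sx ρ a} : Finset (Fin n)) = {sx ρ a, sy ρ a, w} := by
          ext x; simp only [mem_insert, mem_singleton]; tauto
        exact and_congr (ih _ hw (kid (a, w) false) (Or.inr (le_of_eq (congrArg ω e1.symm))))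
          (ih _ hw (kid (a, w) true) (Or.inr (le_of_eq (congrArg ω e2.symm))))
      constructor
      · intro h w hw hlt
        rw [← hk w hlt]
        refine h w (mem_erase.2 ⟨?_, hw⟩) hlt
        rintro rfl
        rcases ha with ha | ha
        · exact (mem_cn.1 hw).1.1 ha.symm
        · omega
      · intro h w hw hlt
        exact fun hc => h w (mem_of_mem_erase hw) hlt ((hk w hlt).1 hc)
  exact key t (b, []) (Or.inl rfl)

/-- The queried set is a stopping set. Key claim, by strong induction on `t`, for all relevant `T = ((b,a),w)` of `ω` and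
`t ≤ ω T`: both kids of `T` are alive at `t` for `ω` iff they are for `ω'`. (If `T' = (kid T s, w')` has clock `s' < t` and both
kids of `T` are alive at `t` for one of `ω, ω'`, they are alive at `s'` for `ω` by monotonicity and induction, so `T'` is
relevant and the claim applies to `T'` at time `s'`.) -/
theorem stop {ω ω' : Nd n → ℕ} (h : ∀ T ∈ Qs E ρ ω, ω' T = ω T) :
    Qs E ρ ω' = Qs E ρ ω ∧ ∀ b t, al E ρ ω' t (b, []) ↔ al E ρ ω t (b, []) := by
  have hk : ∀ (b : Bool) (a : List (Fin n × Bool)) (w : Fin n) (s : Bool) (ω₁ : Nd n → ℕ) (t : ℕ),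
      (al E ρ ω₁ t (kid ((b, a), w) false) ∧ al E ρ ω₁ t (kid ((b, a), w) true)) →
      al E ρ ω₁ t (b, (w, s) :: a) ∧ al E ρ ω₁ t (b, (w, !s) :: a) := by
    intro b a w s ω₁ t hh
    cases s
    · exact hh
    · exact hh.symm
  have key : ∀ t (b : Bool) (a : List (Fin n × Bool)) (w : Fin n), rel E ρ ω b a w → t ≤ ω ((b, a), w) →
      ((al E ρ ω' t (kid ((b, a), w) false) ∧ al E ρ ω' t (kid ((b, a), w) true)) ↔
        (al E ρ ω t (kid ((b, a), w) false) ∧ al E ρ ω t (kid ((b, a), w) true))) := by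
    intro t
    induction t using Nat.strong_induction_on with
    | _ t ih =>
      intro b a w hr ht
      have hQ : ∀ s w', w' ∈ ch E ρ (b, (w, s) :: a) → ω' ((b, (w, s) :: a), w') = ω ((b, (w, s) :: a), w') :=
        fun s w' hw' => h _ ⟨hr, hw'⟩
      have step : ∀ s w', w' ∈ ch E ρ (b, (w, s) :: a) → ω ((b, (w, s) :: a), w') < t →
          (al E ρ ω (ω ((b, (w, s) :: a), w')) (kid ((b, a), w) false) ∧
            al E ρ ω (ω ((b, (w, s) :: a), w')) (kid ((b, a), w) true)) →
          ((al E ρ ω' (ω ((b, (w, s) :: a), w')) (kid ((b, (w, s) :: a), w') false) ∧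
            al E ρ ω' (ω ((b, (w, s) :: a), w')) (kid ((b, (w, s) :: a), w') true)) ↔
          (al E ρ ω (ω ((b, (w, s) :: a), w')) (kid ((b, (w, s) :: a), w') false) ∧
            al E ρ ω (ω ((b, (w, s) :: a), w')) (kid ((b, (w, s) :: a), w') true))) := by
        intro s w' hw' hlt hal
        have h2 := hk b a w s ω _ hal
        exact ih _ hlt b ((w, s) :: a) w' ⟨hr, hw', lt_of_lt_of_le hlt ht, h2.1, h2.2⟩ le_rfl
      constructor
      · intro hh
        have h1 : ∀ s, al E ρ ω t (b, (w, s) :: a) := by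
          intro s
          rw [al_iff]
          intro w' hw' hlt hc
          have h2 := (ih _ hlt b a w hr (hlt.le.trans ht)).1 ⟨al_mono hh.1 hlt.le, al_mono hh.2 hlt.le⟩
          have h3 := (al_iff _ _ _ _ _).1 (hk b a w s ω' t hh).1 w' hw'
          rw [hQ s w' hw'] at h3
          exact h3 hlt ((step s w' hw' hlt h2).2 hc)
        exact ⟨h1 false, h1 true⟩
      · intro hh
        have h1 : ∀ s, al E ρ ω' t (b, (w, s) :: a) := by
          intro s
          rw [al_iff]
          intro w' hw'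
          rw [hQ s w' hw']
          intro hlt hc
          have h3 := (al_iff _ _ _ _ _).1 (hk b a w s ω t hh).1 w' hw'
          exact h3 hlt ((step s w' hw' hlt ⟨al_mono hh.1 hlt.le, al_mono hh.2 hlt.le⟩).1 hc)
        exact ⟨h1 false, h1 true⟩
  have hrel : ∀ (b : Bool) (a : List (Fin n × Bool)) (w : Fin n), rel E ρ ω' b a w ↔ rel E ρ ω b a w := by
    intro b a
    induction a with
    | nil => intro w; rfl
    | cons c a ih =>
      intro w
      obtain ⟨w₀, s⟩ := c
      have hk2 : ∀ (ω₁ : Nd n → ℕ) (t : ℕ), (al E ρ ω₁ t (b, (w₀, s) :: a) ∧ al E ρ ω₁ t (b, (w₀, !s) :: a)) ↔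
          (al E ρ ω₁ t (kid ((b, a), w₀) false) ∧ al E ρ ω₁ t (kid ((b, a), w₀) true)) := by
        intro ω₁ t
        cases s
        · rfl
        · exact and_comm
      have hv : rel E ρ ω b a w₀ → ω' ((b, a), w₀) = ω ((b, a), w₀) := by
        intro hr
        refine h _ ⟨?_, (rel_val hr).2⟩
        cases a with
        | nil => trivial
        | cons c' a => exact hr.1
      constructor
      · rintro ⟨h1, h2, h3, h4⟩
        have hr := (ih w₀).1 h1
        have e1 : ω' ((b, (w₀, s) :: a), w) = ω ((b, (w₀, s) :: a), w) := h _ ⟨hr, h2⟩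
        dsimp only at h3 h4
        rw [e1] at h3 h4
        rw [hv hr] at h3
        exact ⟨hr, h2, h3, (hk2 ω _).2 ((key _ b a w₀ hr h3.le).1 ((hk2 ω' _).1 h4))⟩
      · rintro ⟨hr, h2, h3, h4⟩
        have e1 : ω' ((b, (w₀, s) :: a), w) = ω ((b, (w₀, s) :: a), w) := h _ ⟨hr, h2⟩
        refine ⟨(ih w₀).2 hr, h2, ?_, ?_⟩
        · dsimp only; rw [e1, hv hr]; exact h3
        · dsimp only; rw [e1]
          exact (hk2 ω' _).2 ((key _ b a w₀ hr (le_of_lt h3)).2 ((hk2 ω _).1 h4))
  refine ⟨?_, fun b t => ?_⟩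
  · ext ⟨⟨b, a⟩, w⟩
    refine and_congr_left fun _ => ?_
    cases a with
    | nil => rfl
    | cons c a => exact hrel b a c.1
  · rw [al_iff, al_iff]
    refine forall_congr' fun w => forall_congr' fun hw => ?_
    have e1 : ω' ((b, []), w) = ω ((b, []), w) := h _ ⟨trivial, hw⟩
    rw [e1, key _ b [] w hw le_rfl]

end Crest.Agent.R30
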