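import Crest.Agent.R30.Tree
set_option autoImplicit false

noncomputable section

namespace Crest.Agent.R30

open Finset Crest.CombinatoricsR.TriangleRemoval

variable {n : ℕ}

/-- closed under taking the parent triangle -/
def Closed (S : Finset (Nd n)) : Prop := ∀ T ∈ S, path T.1 ⊆ S

/-- the edge nodes of a closed set of triangle nodes -/
def IsNode (S : Finset (Nd n)) (a : Ad n) : Prop := a.2 = [] ∨ ∃ T ∈ S, ∃ s, a = kid T s

theorem mem_pathL_len {b : Bool} {a : List (Fin n × Bool)} {T : Nd n} (h : T ∈ pathL b a) :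
    T.1.2.length < a.length := by
  induction a with
  | nil => simp [pathL] at h
  | cons c a ih =>
    rw [pathL, mem_insert] at h
    rcases h with rfl | h
    · simp
    · exact (ih h).trans (by simp)

theorem mem_path_len {a : Ad n} {T : Nd n} (h : T ∈ path a) : T.1.2.length < a.2.length :=
  mem_pathL_len h

theorem path_sub_pathL {b : Bool} {a : List (Fin n × Bool)} {T : Nd n} (h : T ∈ pathL b a) :
    path T.1 ⊆ pathL b a := by
  induction a with
  | nil => simp [pathL] at h
  | cons c a ih =>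
    rw [pathL, mem_insert] at h
    rcases h with rfl | h
    · exact subset_insert _ _
    · exact (ih h).trans (subset_insert _ _)

theorem closed_path (a a' : Ad n) : Closed (path a ∪ path a') := by
  intro T hT
  rcases mem_union.1 hT with h | h
  · exact (path_sub_pathL h).trans subset_union_left
  · exact (path_sub_pathL h).trans subset_union_right

theorem card_path (a : Ad n) : (path a).card = a.2.length := by
  obtain ⟨b, a⟩ := a
  induction a with
  | nil => rfl
  | cons c a ih =>
    change (insert ((b, a), c.1) (pathL b a)).card = a.length + 1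
    rw [card_insert_of_notMem fun h => lt_irrefl _ (mem_pathL_len h)]
    exact congrArg (· + 1) ih

theorem four_distinct {α : Type*} [DecidableEq α] {a b c d : α} (h : ({a, b, c, d} : Finset α).card = 4) :
    a ≠ b ∧ a ≠ c ∧ a ≠ d ∧ b ≠ c ∧ b ≠ d ∧ c ≠ d := by
  have h3 : ({b, c, d} : Finset α).card ≤ 3 := card_le_three
  have h2 : ({c, d} : Finset α).card ≤ 2 := card_le_two
  have ha : a ∉ ({b, c, d} : Finset α) := fun hm => by
    rw [insert_eq_of_mem hm] at h
    omega
  rw [card_insert_of_notMem ha] at h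
  have hb : b ∉ ({c, d} : Finset α) := fun hm => by
    rw [insert_eq_of_mem hm] at h
    omega
  rw [card_insert_of_notMem hb] at h
  have hc : c ≠ d := by
    rintro rfl
    simp at h
  simp only [mem_insert, mem_singleton, not_or] at ha hb
  exact ⟨ha.1, ha.2.1, ha.2.2, hb.1, hb.2, hc⟩

theorem isNode_of_path {S : Finset (Nd n)} {f : Ad n} (h : path f ⊆ S) : IsNode S f := by
  obtain ⟨b, a⟩ := f
  cases a with
  | nil => exact Or.inl rfl
  | cons c a => exact Or.inr ⟨((b, a), c.1), h (mem_insert_self _ _), c.2, rfl⟩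

theorem isNode_insert {S : Finset (Nd n)} {T : Nd n} {a : Ad n} :
    IsNode (insert T S) a ↔ IsNode S a ∨ a = kid T false ∨ a = kid T true := by
  simp only [IsNode, mem_insert, exists_eq_or_imp, Bool.exists_bool]
  rw [or_assoc (a := a.2 = []), or_comm (a := a = kid T false ∨ a = kid T true)]

theorem mem_VU_insert {ρ : Rt n} {S : Finset (Nd n)} {T : Nd n} {u : Fin n} :
    u ∈ VU ρ (insert T S) ↔ u ∈ VU ρ S ∨ u = T.2 := by
  simp only [VU, image_insert, mem_union, mem_insert]
  tauto

theorem EU_insert (ρ : Rt n) (S : Finset (Nd n)) (T : Nd n) :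
    EU ρ (insert T S) = insert s(sx ρ T.1, T.2) (insert s(sy ρ T.1, T.2) (EU ρ S)) := by
  ext e
  simp only [EU, biUnion_insert, mem_union, mem_insert, mem_singleton]
  tauto

theorem Fresh.of_insert {ρ : Rt n} {S : Finset (Nd n)} {T : Nd n} (hT : T ∉ S)
    (hF : Fresh ρ (insert T S)) : Fresh ρ S ∧ T.2 ∉ VU ρ S := by
  refine ⟨⟨hF.1, hF.2.1.mono (coe_subset.2 (subset_insert _ _)),
    fun T' h => hF.2.2 T' (mem_insert_of_mem h)⟩, fun h => ?_⟩
  rcases mem_union.1 h with h | h
  · exact hF.2.2 T (mem_insert_self _ _) h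
  · obtain ⟨T', h1, h2⟩ := mem_image.1 h
    exact hT (hF.2.1 (mem_coe.2 (mem_insert_of_mem h1)) (mem_coe.2 (mem_insert_self _ _)) h2 ▸ h1)

theorem Fresh.insert {ρ : Rt n} {S : Finset (Nd n)} {T : Nd n} (hF : Fresh ρ S) (hT : T.2 ∉ VU ρ S) :
    Fresh ρ (insert T S) := by
  rw [VU, mem_union, not_or] at hT
  refine ⟨hF.1, ?_, fun T' h => ?_⟩
  · intro A hA B hB e
    rw [mem_coe, mem_insert] at hA hB
    rcases hA with rfl | hA <;> rcases hB with rfl | hB
    · rfl
    · exact absurd (mem_image.2 ⟨B, hB, e.symm⟩) hT.2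
    · exact absurd (mem_image.2 ⟨A, hA, e⟩) hT.2
    · exact hF.2.1 hA hB e
  · rcases mem_insert.1 h with rfl | h
    · exact hT.1
    · exact hF.2.2 T' h

/-- 2-trees. Induction on `S`, removing a deepest triangle node (`Finset.induction_on_max_value`); its third vertex is new. -/
theorem fresh_struct {ρ : Rt n} {S : Finset (Nd n)} (hS : Closed S) (hF : Fresh ρ S) :
    (EU ρ S).card = 2 * S.card + 2 ∧
    (∀ a, IsNode S a → sx ρ a ≠ sy ρ a ∧ sx ρ a ∈ VU ρ S ∧ sy ρ a ∈ VU ρ S) ∧
    (∀ u v, s(u, v) ∈ EU ρ S → u ≠ v ∧ u ∈ VU ρ S ∧ v ∈ VU ρ S) ∧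
    (∀ a a', IsNode S a → IsNode S a' → s(sx ρ a, sy ρ a) = s(sx ρ a', sy ρ a') → a = a') ∧
    (∀ a w, IsNode S a → s(sx ρ a, w) ∈ EU ρ S → s(sy ρ a, w) ∈ EU ρ S → w = sz ρ a ∨ (a, w) ∈ S) := by
  induction S using Finset.induction_on_max_value (fun T : Nd n => T.1.2.length) with
  | empty =>
    obtain ⟨h1, h2, h3, h4, h5, h6⟩ := four_distinct hF.1
    have hN : ∀ a : Ad n, IsNode ∅ a → a = (false, []) ∨ a = (true, []) := by
      rintro ⟨b, a⟩ h
      have : a = [] := by simpa [IsNode] using h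
      subst this
      cases b <;> simp
    have hE : EU ρ ∅ = {s((ρ false).1, (ρ false).2), s((ρ true).1, (ρ true).2)} := by simp [EU]
    have hV : ∀ u, u ∈ VU ρ ∅ ↔
        u = (ρ false).1 ∨ u = (ρ false).2 ∨ u = (ρ true).1 ∨ u = (ρ true).2 := by simp [VU, rv]
    have hne : s((ρ false).1, (ρ false).2) ≠ s((ρ true).1, (ρ true).2) := fun e =>
      (Sym2.eq_iff.1 e).elim (fun e => h2 e.1) fun e => h3 e.1
    refine ⟨?_, fun a ha => ?_, fun u v h => ?_, fun a a' ha ha' h => ?_, fun a w ha h h' => ?_⟩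
    · rw [hE, card_pair hne]
      rfl
    · rcases hN a ha with rfl | rfl <;> simp [hV, sx, sy, st, h1, h6]
    · rw [hE] at h
      simp only [mem_insert, mem_singleton, Sym2.eq_iff] at h
      simp only [hV]
      rcases h with (h | h) | h | h <;> obtain ⟨rfl, rfl⟩ := h <;> simp [h1, h6, h1.symm, h6.symm]
    · rcases hN a ha with rfl | rfl <;> rcases hN a' ha' with rfl | rfl
      · rfl
      · exact absurd h hne
      · exact absurd h.symm hne
      · rfl
    · rw [hE] at h h'
      exfalso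
      rcases hN a ha with rfl | rfl <;>
        simp only [sx, sy, st, mem_insert, mem_singleton, Sym2.eq_iff] at h h' <;> grind
  | insert T S hT hmax ih =>
    have hS' : Closed S := fun T' hT' A hA => by
      rcases mem_insert.1 (hS T' (mem_insert_of_mem hT') hA) with rfl | h
      · exact absurd (mem_path_len hA) (not_lt.2 (hmax T' hT'))
      · exact h
    obtain ⟨hF', hw⟩ := hF.of_insert hT
    obtain ⟨i1, i2, i3, i4, i5⟩ := ih hS' hF'
    have hf : IsNode S T.1 := isNode_of_path fun A hA => by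
      rcases mem_insert.1 (hS T (mem_insert_self _ _) hA) with rfl | h
      · exact absurd (mem_path_len hA) (lt_irrefl _)
      · exact h
    obtain ⟨hxy, hx, hy⟩ := i2 _ hf
    have hxw : sx ρ T.1 ≠ T.2 := fun e => hw (e ▸ hx)
    have hyw : sy ρ T.1 ≠ T.2 := fun e => hw (e ▸ hy)
    have hnew : ∀ u, s(u, T.2) ∉ EU ρ S := fun u h => hw (i3 _ _ h).2.2
    have k1 : sx ρ (kid T false) = sx ρ T.1 := rfl
    have k2 : sy ρ (kid T false) = T.2 := rfl
    have k3 : sz ρ (kid T false) = sy ρ T.1 := rfl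
    have k4 : sx ρ (kid T true) = sy ρ T.1 := rfl
    have k5 : sy ρ (kid T true) = T.2 := rfl
    have k6 : sz ρ (kid T true) = sx ρ T.1 := rfl
    have j3 : ∀ u v, s(u, v) ∈ EU ρ (insert T S) →
        u ≠ v ∧ u ∈ VU ρ (insert T S) ∧ v ∈ VU ρ (insert T S) := by
      intro u v h
      simp only [EU_insert, mem_insert, Sym2.eq_iff] at h
      simp only [mem_VU_insert]
      rcases h with (h | h) | (h | h) | h
      · exact ⟨h.1 ▸ h.2 ▸ hxw, Or.inl (h.1 ▸ hx), Or.inr h.2⟩
      · exact ⟨h.1 ▸ h.2 ▸ hxw.symm, Or.inr h.1, Or.inl (h.2 ▸ hx)⟩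
      · exact ⟨h.1 ▸ h.2 ▸ hyw, Or.inl (h.1 ▸ hy), Or.inr h.2⟩
      · exact ⟨h.1 ▸ h.2 ▸ hyw.symm, Or.inr h.1, Or.inl (h.2 ▸ hy)⟩
      · exact ⟨(i3 u v h).1, Or.inl (i3 u v h).2.1, Or.inl (i3 u v h).2.2⟩
    have hold : ∀ a u, IsNode S a → s(sx ρ a, sy ρ a) ≠ s(u, T.2) := fun a u ha e => by
      rcases Sym2.eq_iff.1 e with e | e
      · exact hw (e.2 ▸ (i2 a ha).2.2)
      · exact hw (e.1 ▸ (i2 a ha).2.1)
    have hne : s(sx ρ T.1, T.2) ≠ s(sy ρ T.1, T.2) := fun e => hxy (Sym2.congr_left.1 e)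
    have hto : ∀ u, s(u, T.2) ∈ EU ρ (insert T S) → u = sx ρ T.1 ∨ u = sy ρ T.1 := by
      intro u h
      rw [EU_insert, mem_insert, mem_insert, Sym2.congr_left, Sym2.congr_left] at h
      rcases h with h | h | h
      · exact Or.inl h
      · exact Or.inr h
      · exact absurd h (hnew u)
    refine ⟨?_, fun a ha => ?_, j3, fun a a' ha ha' h => ?_, fun a w ha h h' => ?_⟩
    · rw [EU_insert, card_insert_of_notMem, card_insert_of_notMem (hnew _), i1,
        card_insert_of_notMem hT]
      · ring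
      · rw [mem_insert, not_or]
        exact ⟨hne, hnew _⟩
    · simp only [mem_VU_insert]
      rcases isNode_insert.1 ha with ha | rfl | rfl
      · exact ⟨(i2 a ha).1, Or.inl (i2 a ha).2.1, Or.inl (i2 a ha).2.2⟩
      · exact ⟨hxw, Or.inl hx, Or.inr rfl⟩
      · exact ⟨hyw, Or.inl hy, Or.inr rfl⟩
    · rcases isNode_insert.1 ha with ha | rfl | rfl <;>
        rcases isNode_insert.1 ha' with ha' | rfl | rfl
      · exact i4 a a' ha ha' h
      · exact absurd h (hold a _ ha)
      · exact absurd h (hold a _ ha)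
      · exact absurd h.symm (hold a' _ ha')
      · rfl
      · exact absurd h hne
      · exact absurd h.symm (hold a' _ ha')
      · exact absurd h.symm hne
      · rfl
    · rcases isNode_insert.1 ha with ha | rfl | rfl
      · by_cases hw' : w = T.2
        · subst hw'
          have e : s(sx ρ a, sy ρ a) = s(sx ρ T.1, sy ρ T.1) := by
            have := (i2 a ha).1
            rcases hto _ h with e | e <;> rcases hto _ h' with e' | e'
            · exact absurd (e.trans e'.symm) this
            · rw [e, e']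
            · rw [e, e', Sym2.eq_swap]
            · exact absurd (e.trans e'.symm) this
          rw [i4 a T.1 ha hf e]
          exact Or.inr (mem_insert_self _ _)
        · have hin : ∀ u, u ∈ VU ρ S → s(u, w) ∈ EU ρ (insert T S) → s(u, w) ∈ EU ρ S := by
            intro u hu h
            simp only [EU_insert, mem_insert, Sym2.eq_iff] at h
            rcases h with (h | h) | (h | h) | h
            · exact absurd h.2 hw'
            · exact absurd (h.1 ▸ hu) hw
            · exact absurd h.2 hw'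
            · exact absurd (h.1 ▸ hu) hw
            · exact h
          exact (i5 a w ha (hin _ (i2 a ha).2.1 h) (hin _ (i2 a ha).2.2 h')).imp_right
            mem_insert_of_mem
      · rw [k2, Sym2.eq_swap] at h'
        rcases hto _ h' with e | e
        · exact absurd e.symm (j3 _ _ h).1
        · exact Or.inl e
      · rw [k5, Sym2.eq_swap] at h'
        rcases hto _ h' with e | e
        · exact Or.inl e
        · exact absurd e.symm (j3 _ _ h).1

theorem val_pathL {E : Ed n} {ρ : Rt n} {b : Bool} {a : List (Fin n × Bool)} (h : val E ρ b a)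
    {T : Nd n} (hT : T ∈ pathL b a) : T.2 ∈ ch E ρ T.1 := by
  induction a with
  | nil => simp [pathL] at hT
  | cons c a ih =>
    rw [pathL, mem_insert] at hT
    rcases hT with rfl | hT
    · exact h.2
    · exact ih h.1 hT

theorem EU_sub {E : Ed n} {ρ : Rt n} (hρ : ∀ b, adj E (ρ b).1 (ρ b).2) {S : Finset (Nd n)}
    (hS : ∀ T ∈ S, T.2 ∈ ch E ρ T.1) : EU ρ S ⊆ E := by
  intro e he
  simp only [EU, mem_union, mem_insert, mem_singleton, mem_biUnion] at he
  rcases he with (rfl | rfl) | ⟨T, hT, rfl | rfl⟩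
  · exact (hρ false).2
  · exact (hρ true).2
  · exact (mem_cn.1 (mem_of_mem_erase (hS T hT))).1.2
  · exact (mem_cn.1 (mem_of_mem_erase (hS T hT))).2.2

theorem node_step {E : Ed n} {ρ : Rt n} {ω : Nd n → ℕ} (hρ : ∀ b, adj E (ρ b).1 (ρ b).2)
    {a a' : Ad n} (ha : vis E ρ ω a) (ha' : vis E ρ ω a') (hC : ¬ Cfg E ρ a a')
    (hF : Fresh ρ (path a ∪ path a')) {f : Ad n} (hf : IsNode (path a ∪ path a') f) {w : Fin n}
    (hw : w ∈ ch E ρ f) (hV : w ∈ VU ρ (path a ∪ path a')) : (f, w) ∈ path a ∪ path a' := by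
  obtain ⟨-, i2, -, -, i5⟩ := fresh_struct (closed_path a a') hF
  have hE : EU ρ (path a ∪ path a') ⊆ E := EU_sub hρ fun T hT => by
    rcases mem_union.1 hT with h | h
    · exact val_pathL (vis_val ha) h
    · exact val_pathL (vis_val ha') h
  have hin : ∀ u ∈ VU ρ (path a ∪ path a'), adj E u w → s(u, w) ∈ EU ρ (path a ∪ path a') :=
    fun u hu h => by_contra fun hn => hC ⟨hF, hE, u, hu, w, hV, h, hn⟩
  have hw' := mem_erase.1 hw
  exact (i5 f w hf (hin _ (i2 f hf).2.1 (mem_cn.1 hw'.2).1)
    (hin _ (i2 f hf).2.2 (mem_cn.1 hw'.2).2)).resolve_left hw'.1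

/-- If no pair of visited nodes gives a bad configuration, then `path a ∪ path a'` is fresh for all visited `a, a'` (induction
on `a` with `a'` a root, then on `a'`: a repeated vertex `w` at the node `f` gives two graph edges inside `VU`, hence in `EU`, and
the last clause of `fresh_struct` applies), and then `prj` is injective on the queried set. -/
theorem two_tree {E : Ed n} {ρ : Rt n} {ω : Nd n → ℕ} (hρ : ∀ b, adj E (ρ b).1 (ρ b).2)
    (h : ¬ Set.InjOn (prj ρ) (Qs E ρ ω)) :
    (rv ρ).card ≠ 4 ∨ ∃ a a', vis E ρ ω a ∧ vis E ρ ω a' ∧ Cfg E ρ a a' := by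
  by_contra hn
  rw [not_or, not_not, not_exists] at hn
  obtain ⟨h4, hn⟩ := hn
  have hC : ∀ a a', vis E ρ ω a → vis E ρ ω a' → ¬ Cfg E ρ a a' :=
    fun a a' h1 h2 h3 => hn a ⟨a', h1, h2, h3⟩
  have step : ∀ a', vis E ρ ω a' → Fresh ρ (path a') → ∀ b a, vis E ρ ω (b, a) →
      Fresh ρ (path (b, a) ∪ path a') := by
    intro a' ha' h0 b a ha
    induction a with
    | nil => simpa [path, pathL] using h0
    | cons c a ih =>
      have hv : vis E ρ ω (b, a) := vis_suffix ha (List.suffix_cons c a)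
      have hF := ih hv
      have e : path (b, c :: a) ∪ path a' = insert ((b, a), c.1) (path (b, a) ∪ path a') :=
        insert_union _ _ _
      rw [e]
      by_cases hV : c.1 ∈ VU ρ (path (b, a) ∪ path a')
      · rwa [insert_eq_of_mem (node_step hρ hv ha' (hC _ _ hv ha') hF
          (isNode_of_path subset_union_left) (vis_val ha).2 hV)]
      · exact hF.insert hV
  have hF : ∀ a a', vis E ρ ω a → vis E ρ ω a' → Fresh ρ (path a ∪ path a') := by
    intro a a' ha ha'
    refine step a' ha' ?_ a.1 a.2 ha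
    have := step (false, []) trivial ⟨h4, by simp [path, pathL], by simp [path, pathL]⟩ a'.1 a'.2 ha'
    simpa [path, pathL] using this
  refine h ?_
  rintro ⟨f, w⟩ ⟨hf, hw⟩ ⟨f', w'⟩ ⟨hf', hw'⟩ e
  have hFF := hF f f' hf hf'
  obtain ⟨-, i2, -, i4, -⟩ := fresh_struct (closed_path f f') hFF
  have n1 : IsNode (path f ∪ path f') f := isNode_of_path subset_union_left
  have n2 : IsNode (path f ∪ path f') f' := isNode_of_path subset_union_right
  have e' : ∀ u, u = sx ρ f ∨ u = sy ρ f ∨ u = w ↔ u = sx ρ f' ∨ u = sy ρ f' ∨ u = w' := fun u => by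
    simpa [prj] using Finset.ext_iff.1 e u
  obtain ⟨a1, a2, a3⟩ := i2 f n1
  obtain ⟨b1, b2, b3⟩ := i2 f' n2
  by_cases hV : w ∈ VU ρ (path f ∪ path f')
  · exfalso
    have hV' : w' ∈ VU ρ (path f ∪ path f') := by
      rcases (e' w').2 (Or.inr (Or.inr rfl)) with h | h | h <;> rw [h] <;> assumption
    have c1 := node_step hρ hf hf' (hC _ _ hf hf') hFF n1 hw hV
    have c2 := node_step hρ hf hf' (hC _ _ hf hf') hFF n2 hw' hV'
    have d1 := mem_path_len ((mem_union.1 c1).resolve_left fun h => lt_irrefl _ (mem_path_len h))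
    have d2 := mem_path_len ((mem_union.1 c2).resolve_right fun h => lt_irrefl _ (mem_path_len h))
    exact lt_asymm d1 d2
  · have c1 : sx ρ f' = sx ρ f ∨ sx ρ f' = sy ρ f := by
      rcases (e' _).2 (Or.inl rfl) with h | h | h
      · exact Or.inl h
      · exact Or.inr h
      · exact absurd (h ▸ b2) hV
    have c2 : sy ρ f' = sx ρ f ∨ sy ρ f' = sy ρ f := by
      rcases (e' _).2 (Or.inr (Or.inl rfl)) with h | h | h
      · exact Or.inl h
      · exact Or.inr h
      · exact absurd (h ▸ b3) hV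
    have c3 : w = w' := by
      rcases (e' w).1 (Or.inr (Or.inr rfl)) with h | h | h
      · exact absurd (h ▸ b2) hV
      · exact absurd (h ▸ b3) hV
      · exact h
    have c4 : s(sx ρ f', sy ρ f') = s(sx ρ f, sy ρ f) := by
      rcases c1 with h | h <;> rcases c2 with h' | h'
      · exact absurd (h.trans h'.symm) b1
      · rw [h, h']
      · rw [h, h', Sym2.eq_swap]
      · exact absurd (h.trans h'.symm) b1
    rw [i4 f' f n2 n1 c4, c3]

end Crest.Agent.R30
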